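import Vale.Agent.P089A.TR

/-! Stabilisation: a Fredholm element becomes invertible after adding finitely many corners. -/

namespace Vale.Agent.P089A

/-- block diagonal matrix on `Option I` -/
def blk {R I : Type} [Zero R] (e : R) (q : Matrix I I R) : Matrix (Option I) (Option I) R :=
  Matrix.of fun a b => match a, b with
    | none, none => e
    | some i, some j => q i j
    | _, _ => 0

namespace TR

variable {R : Type} [Ring R] {τ : TR R}

lemma factor {ε : R} (hε : ε * ε = ε)
    (hF : ∀ x ∈ τ.F, ∃ (r : ℕ) (a b : Fin r → R), x = ∑ i, a i * ε * b i)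
    {n : Type} [Fintype n] (M : Matrix n n R) (hM : ∀ i j, M i j ∈ τ.F) :
    ∃ (I : Type) (_ : Fintype I) (A : Matrix n I R) (B : Matrix I n R), A * B = M ∧
      (∀ α i, A α i * ε = A α i) ∧ ∀ i β, ε * B i β = B i β := by
  classical
  choose r a b h using fun i j => hF _ (hM i j)
  refine ⟨Σ p : n × n, Fin (r p.1 p.2), inferInstance,
    Matrix.of fun α i => if α = i.1.1 then a _ _ i.2 * ε else 0,
    Matrix.of fun i β => if i.1.2 = β then ε * b _ _ i.2 else 0, ?_, fun α i => ?_, fun i β => ?_⟩
  · ext α β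
    rw [Matrix.mul_apply, Fintype.sum_sigma, Finset.sum_eq_single (α, β), h α β]
    · refine Finset.sum_congr rfl fun j _ => ?_
      simp only [Matrix.of_apply, if_true, mul_assoc, as hε]
    · rintro ⟨α', β'⟩ - hne
      refine Finset.sum_eq_zero fun j _ => ?_
      simp only [Matrix.of_apply]
      split_ifs with h1 h2
      · exact absurd (by rw [h1, h2]) hne
      · rw [mul_zero]
      · rw [zero_mul]
      · rw [zero_mul]
    · exact fun h => absurd (Finset.mem_univ _) h
  · simp only [Matrix.of_apply]; split_ifs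
    · rw [mul_assoc, hε]
    · rw [zero_mul]
  · simp only [Matrix.of_apply]; split_ifs
    · rw [as hε]
    · rw [mul_zero]

/-- The data of a stabilised isomorphism. -/
structure Datum (τ : TR R) (ε e f T S : R) (I : Type) [Fintype I] where
  U : Matrix (Option I) (Option I) R
  V : Matrix (Option I) (Option I) R
  p : Matrix I I R
  q : Matrix I I R
  U0 : U none none = T
  V0 : V none none - S ∈ τ.K
  UK : ∀ a b, ¬(a = none ∧ b = none) → U a b ∈ τ.K
  VK : ∀ a b, ¬(a = none ∧ b = none) → V a b ∈ τ.K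
  U1 : ∀ a, U a none * e = U a none
  U2 : ∀ a i, U a (some i) * ε = U a (some i)
  V1 : ∀ a, V a none * f = V a none
  V2 : ∀ a i, V a (some i) * ε = V a (some i)
  VU : V * U = blk e q
  UV : U * V = blk f p
  pp : p * p = p
  qq : q * q = q
  pε : ∀ i j, ε * p i j * ε = p i j
  qε : ∀ i j, ε * q i j * ε = q i j

lemma Ind.datum₀ {ε : R} (hε : ε * ε = ε) (hε' : ε ∈ τ.F)
    (hF : ∀ x ∈ τ.F, ∃ (r : ℕ) (a b : Fin r → R), x = ∑ i, a i * ε * b i)
    {e f T S' : R} {t : ℂ} (h : τ.Ind e f T t) (hS : f - T * S' ∈ τ.K) (hS' : e * S' = S') :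
    ∃ (I : Type) (_ : Fintype I), Nonempty (τ.Datum ε e f T S' I) := by
  classical
  obtain ⟨S, s1, s2, a, b, rfl⟩ := h.norm
  obtain ⟨he, hf, t1, t2, -⟩ := h
  obtain ⟨r, p, q, hpq⟩ := hF _ b
  let X : Option (Fin r) → R := fun o => o.elim T fun i => f * p i * ε
  let Y : Option (Fin r) → R := fun o => o.elim S fun i => ε * q i * f
  let E : Option (Fin r) → R := fun o => o.elim e fun _ => ε
  have hE : ∀ o, E o * E o = E o := by rintro (_ | i); exacts [he, hε]
  have hEY : ∀ o, E o * Y o = Y o := by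
    rintro (_ | i)
    · exact s1
    · simp only [E, Y, Option.elim, mul_assoc, as hε]
  have hXE : ∀ o, X o * E o = X o := by
    rintro (_ | i)
    · exact t2
    · simp only [E, X, Option.elim, mul_assoc, hε]
  have hfX : ∀ o, f * X o = X o := by
    rintro (_ | i)
    · exact t1
    · simp only [X, Option.elim, mul_assoc, as hf]
  have hYf : ∀ o, Y o * f = Y o := by
    rintro (_ | i)
    · exact s2
    · simp only [Y, Option.elim, mul_assoc, hf]
  have hsum : ∑ i, X (some i) * Y (some i) = f - T * S := by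
    have : f * (f - T * S) * f = f - T * S := by
      simp only [mul_sub, sub_mul, mul_assoc, hf, as t1, s2]
    rw [← this, hpq, Finset.mul_sum, Finset.sum_mul]
    exact Finset.sum_congr rfl fun i _ => by simp only [X, Y, Option.elim, mul_assoc, as hε]
  have hXY : ∑ o, X o * Y o = f := by
    rw [Fintype.sum_option, hsum]
    exact add_sub_cancel _ _
  have mX : ∀ i, X (some i) ∈ τ.F := fun i => τ.F.mul_mem_left _ _ hε'
  have mY : ∀ i, Y (some i) ∈ τ.F :=
    fun i => τ.F.mul_mem_right _ _ (τ.F.mul_mem_right _ _ hε')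
  let X' : Matrix Unit (Option (Fin r)) R := Matrix.of fun _ o => X o
  let Y' : Matrix (Option (Fin r)) Unit R := Matrix.of fun o _ => Y o
  let K := Matrix.diagonal E - Y' * X'
  have hK : ∀ o o', K o o' = Matrix.diagonal E o o' - Y o * X o' := fun o o' => by
    simp [K, X', Y', Matrix.mul_apply]
  have mK : ∀ o o', K o o' ∈ τ.F := by
    rintro (_ | i) (_ | j) <;> rw [hK]
    · rw [Matrix.diagonal_apply_eq]; exact a
    · simpa using τ.F.neg_mem (τ.F.mul_mem_left (Y none) _ (mX j))
    · simpa using τ.F.neg_mem (τ.F.mul_mem_right _ (X none) (mY i))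
    · refine τ.F.sub_mem ?_ (τ.F.mul_mem_left _ _ (mX j))
      rw [Matrix.diagonal_apply]
      split_ifs
      exacts [hε', τ.F.zero_mem]
  have k1 : X' * K = 0 := by
    ext u o
    simp only [Matrix.mul_apply, hK, mul_sub, Finset.sum_sub_distrib, X', Matrix.of_apply,
      ← mul_assoc, ← Finset.sum_mul, hXY, hfX]
    simp [Matrix.diagonal_apply, hXE]
  have k2 : K * Y' = 0 := by
    ext o u
    simp only [Matrix.mul_apply, hK, sub_mul, Finset.sum_sub_distrib, Y', Matrix.of_apply,
      mul_assoc, ← Finset.mul_sum, hXY, hYf]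
    simp [Matrix.diagonal_apply, hEY]
  have k3 : K * Matrix.diagonal E = K := by
    ext o o'
    rw [Matrix.mul_diagonal, hK, sub_mul, mul_assoc, hXE, Matrix.diagonal_apply]
    split_ifs with h
    · rw [h, hE]
    · rw [zero_mul]
  have k4 : K * K = K := by
    conv_lhs => rhs; unfold K
    rw [Matrix.mul_sub, ← Matrix.mul_assoc, k2, Matrix.zero_mul, sub_zero, k3]
  obtain ⟨I, _, A, B, hAB, hA, hB⟩ := factor hε hF K mK
  have k5 : K * A * (B * K) = K := by
    rw [Matrix.mul_assoc, ← Matrix.mul_assoc A, hAB, k4, k4]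
  have k6 : ∀ o o', Y o * X o' + ∑ k, (K * A) o k * (B * K) k o' = Matrix.diagonal E o o' := by
    intro o o'
    rw [← Matrix.mul_apply, k5, hK, add_sub_cancel]
  have k7 : ∀ k, ∑ o, X o * (K * A) o k = 0 := fun k => by
    have := congrFun (congrFun (show X' * (K * A) = 0 by
      rw [← Matrix.mul_assoc, k1, Matrix.zero_mul]) ()) k
    simpa [Matrix.mul_apply (M := X'), X'] using this
  have k8 : ∀ k, ∑ o, (B * K) k o * Y o = 0 := fun k => by
    have := congrFun (congrFun (show B * K * Y' = 0 by
      rw [Matrix.mul_assoc, k2, Matrix.mul_zero]) k) ()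
    simpa [Matrix.mul_apply (N := Y'), Y'] using this
  have mBK : ∀ k o, (B * K) k o ∈ τ.K := fun k o => τ.le _ (by
    rw [Matrix.mul_apply]; exact τ.F.finsetSum_mem _ _ fun j _ => τ.F.mul_mem_left _ _ (mK j o))
  have mKA : ∀ o k, (K * A) o k ∈ τ.K := fun o k => τ.le _ (by
    rw [Matrix.mul_apply]; exact τ.F.finsetSum_mem _ _ fun j _ => τ.F.mul_mem_right _ _ (mK o j))
  have eBK : ∀ k o, (B * K) k o * E o = (B * K) k o := fun k o => by
    rw [← Matrix.mul_diagonal, Matrix.mul_assoc, k3]
  have eKA : ∀ o k, (K * A) o k * ε = (K * A) o k := fun o k => by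
    simp only [Matrix.mul_apply, Finset.sum_mul, mul_assoc, hA]
  refine ⟨Fin r ⊕ I, inferInstance, ⟨{
    U := Matrix.of fun a b => match a, b with
      | none, none => X none
      | none, some (.inl i) => X (some i)
      | some (.inr k), none => (B * K) k none
      | some (.inr k), some (.inl i) => (B * K) k (some i)
      | _, _ => 0
    V := Matrix.of fun a b => match a, b with
      | none, none => Y none
      | some (.inl i), none => Y (some i)
      | none, some (.inr k) => (K * A) none k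
      | some (.inl i), some (.inr k) => (K * A) (some i) k
      | _, _ => 0
    p := Matrix.fromBlocks 0 0 0 (B * K * (K * A))
    q := Matrix.fromBlocks (Matrix.diagonal fun _ => ε) 0 0 0
    U0 := rfl
    V0 := ?_
    UK := ?_
    VK := ?_
    U1 := ?_
    U2 := ?_
    V1 := ?_
    V2 := ?_
    VU := ?_
    UV := ?_
    pp := ?_
    qq := by simp [Matrix.fromBlocks_multiply, hε]
    pε := ?_
    qε := ?_ }⟩⟩
  · have : S - S' = S * (f - T * S') - (e - S * T) * S' := by
      simp only [mul_sub, sub_mul, s2, hS', mul_assoc]; abel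
    change S - S' ∈ _
    rw [this]
    exact τ.K.sub_mem (τ.K.mul_mem_left _ _ hS) (τ.K.mul_mem_right _ _ (τ.le _ a))
  · rintro (_ | i | k) (_ | j | l) h <;> first
      | exact τ.K.zero_mem | exact τ.le _ (mX _) | exact mBK _ _ | simp at h
  · rintro (_ | i | k) (_ | j | l) h <;> first
      | exact τ.K.zero_mem | exact τ.le _ (mY _) | exact mKA _ _ | simp at h
  · rintro (_ | i | k)
    exacts [hXE none, zero_mul _, eBK k none]
  · rintro (_ | i | k) (j | l) <;> first
      | exact zero_mul _ | exact hXE (some j) | exact eBK k (some j)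
  · rintro (_ | i | k)
    exacts [hYf none, hYf (some i), zero_mul _]
  · rintro (_ | i | k) (j | l) <;> first
      | exact zero_mul _ | exact eKA _ _
  · ext (_ | i | k) (_ | j | l) <;>
      simp [Matrix.mul_apply (n := Option (Fin r ⊕ I)), blk, k6, E, Matrix.diagonal_apply]
  · have k9 := fun k l => (Matrix.mul_apply (M := B * K) (N := K * A) (i := k) (k := l)).symm
    simp only [Fintype.sum_option] at hXY k7 k8 k9
    ext (_ | i | k) (_ | j | l) <;>
      simp [Matrix.mul_apply (n := Option (Fin r ⊕ I)), blk, hXY, k7, k8, k9]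
  · have : B * K * (K * A) * (B * K * (K * A)) = B * K * (K * A) := by
      rw [Matrix.mul_assoc, ← Matrix.mul_assoc (K * A), k5, ← Matrix.mul_assoc K K, k4]
    simp [Matrix.fromBlocks_multiply, this]
  · rintro (i | k) (j | l) <;> simp
    simp only [Matrix.mul_apply, Finset.mul_sum, Finset.sum_mul, mul_assoc, hA, as (hB _ _)]
  · rintro (i | k) (j | l) <;> simp [Matrix.diagonal_apply]
    split_ifs <;> simp [hε]

lemma Ind.datum {ε : R} (hε : ε * ε = ε) (hε' : ε ∈ τ.F)
    (hF : ∀ x ∈ τ.F, ∃ (r : ℕ) (a b : Fin r → R), x = ∑ i, a i * ε * b i)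
    {e f T S' : R} {t : ℂ} (h : τ.Ind e f T t) (hS : f - T * S' ∈ τ.K) (hS' : e * S' = S') :
    ∃ n, Nonempty (τ.Datum ε e f T S' (Fin n)) := by
  obtain ⟨I, _, ⟨D⟩⟩ := h.datum₀ hε hε' hF hS hS'
  let σ := (Fintype.equivFin I).symm
  have hb : ∀ (x : R) (M : Matrix I I R), (blk x M).submatrix σ.optionCongr σ.optionCongr =
      blk x (M.submatrix σ σ) := fun x M => by
    ext (_ | i) (_ | j) <;> rfl
  exact ⟨_, ⟨{
    U := D.U.submatrix σ.optionCongr σ.optionCongr
    V := D.V.submatrix σ.optionCongr σ.optionCongr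
    p := D.p.submatrix σ σ
    q := D.q.submatrix σ σ
    U0 := D.U0
    V0 := D.V0
    UK := fun a b h => D.UK _ _ (by simpa using h)
    VK := fun a b h => D.VK _ _ (by simpa using h)
    U1 := fun _ => D.U1 _
    U2 := fun _ _ => D.U2 _ _
    V1 := fun _ => D.V1 _
    V2 := fun _ _ => D.V2 _ _
    VU := by rw [Matrix.submatrix_mul_equiv, D.VU, hb]
    UV := by rw [Matrix.submatrix_mul_equiv, D.UV, hb]
    pp := by rw [Matrix.submatrix_mul_equiv, D.pp]
    qq := by rw [Matrix.submatrix_mul_equiv, D.qq]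
    pε := fun _ _ => D.pε _ _
    qε := fun _ _ => D.qε _ _ }⟩⟩

end TR

end Vale.Agent.P089A
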