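import Vale.Agent.P089A.Stmt

/-!
Working definitions for P089 (Baum-Connes): unbundled versions of the definitions in `Stmt`.
-/

namespace Vale.Agent.P089A

open scoped ZeroAtInfty

noncomputable section

/-- `ℓ²(G; H)`. -/
abbrev L2 (G H : Type) [NormedAddCommGroup H] : Type := lp (fun _ : G => H) 2

section lam

variable {G : Type} [Group G] {H K : Type} [NormedAddCommGroup H] [InnerProductSpace ℂ H]
  [NormedAddCommGroup K] [InnerProductSpace ℂ K]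

lemma lam_summable (g : G) (T : H →L[ℂ] K) (ξ : L2 G H) :
    Summable (fun h : G => ‖T (ξ (g⁻¹ * h))‖ ^ (2 : ℝ)) ∧
      ∑' h : G, ‖T (ξ (g⁻¹ * h))‖ ^ (2 : ℝ) ≤ (‖T‖ * ‖ξ‖) ^ (2 : ℝ) := by
  have h1 : HasSum (fun h : G => ‖ξ h‖ ^ (2 : ℝ)) (‖ξ‖ ^ (2 : ℝ)) := by
    simpa using lp.hasSum_norm (p := 2) (by norm_num) ξ
  have h2 := ((Equiv.mulLeft g⁻¹).hasSum_iff.mpr h1).mul_left (‖T‖ ^ (2 : ℝ))
  have h3 : ∀ h : G, ‖T (ξ (g⁻¹ * h))‖ ^ (2 : ℝ) ≤ ‖T‖ ^ (2 : ℝ) * ‖ξ (g⁻¹ * h)‖ ^ (2 : ℝ) := by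
    intro h
    rw [← Real.mul_rpow (norm_nonneg _) (norm_nonneg _)]
    exact Real.rpow_le_rpow (norm_nonneg _) (T.le_opNorm _) (by norm_num)
  have h4 := Summable.of_nonneg_of_le (fun h => by positivity) h3 h2.summable
  refine ⟨h4, ?_⟩
  rw [Real.mul_rpow (norm_nonneg _) (norm_nonneg _), ← h2.tsum_eq]
  exact h4.tsum_le_tsum h3 h2.summable

/-- The operator `λ_g ⊗ T : ℓ²(G; H) → ℓ²(G; K)`, `ξ ↦ (h ↦ T (ξ (g⁻¹ h)))`. -/
def lam (g : G) (T : H →L[ℂ] K) : L2 G H →L[ℂ] L2 G K :=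
  LinearMap.mkContinuous
    { toFun := fun ξ => ⟨fun h => T (ξ (g⁻¹ * h)),
        memℓp_gen (by simpa using (lam_summable g T ξ).1)⟩
      map_add' := fun ξ η => lp.ext (funext fun h => by simp; rfl)
      map_smul' := fun c ξ => lp.ext (funext fun h => by simp) }
    ‖T‖ fun ξ => lp.norm_le_of_tsum_le (by norm_num) (by positivity)
      (by simpa using (lam_summable g T ξ).2)

end lam

/-- The reduced group C*-algebra: the norm closure of the group algebra acting on `ℓ²(G)`. -/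
def Cr (G : Type) [Group G] : Subalgebra ℂ (L2 G ℂ →L[ℂ] L2 G ℂ) :=
  (Algebra.adjoin ℂ (Set.range fun g : G => lam g (ContinuousLinearMap.id ℂ ℂ))).topologicalClosure

open Classical in
/-- The canonical trace `a ↦ ⟨δ₁, a δ₁⟩`. -/
def trace {G : Type} [Group G] (a : Cr G) : ℂ :=
  (a : L2 G ℂ →L[ℂ] L2 G ℂ) (lp.single 2 (1 : G) (1 : ℂ)) 1

section index

variable {G : Type} [Group G] {H : Type} [NormedAddCommGroup H] [InnerProductSpace ℂ H]

/-- The compact operators `C*_r(G) ⊗ K(H)` of the Hilbert module `C*_r(G) ⊗ H`. -/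
def Kc (G H : Type) [Group G] [NormedAddCommGroup H] [InnerProductSpace ℂ H] :
    Submodule ℂ (L2 G H →L[ℂ] L2 G H) :=
  (Submodule.span ℂ {a | ∃ (g : G) (k : H →L[ℂ] H), IsCompactOperator k ∧ a = lam g k
    }).topologicalClosure

/-- The Hilbert space `H ⊕ ℂⁿ`. -/
abbrev Stab (H : Type) (n : ℕ) : Type := WithLp 2 (H × EuclideanSpace ℂ (Fin n))

/-- Inclusion of `H` in `H ⊕ ℂⁿ`. -/
def inH (H : Type) [NormedAddCommGroup H] [InnerProductSpace ℂ H] (n : ℕ) : H →L[ℂ] Stab H n :=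
  (WithLp.prodContinuousLinearEquiv 2 ℂ H (EuclideanSpace ℂ (Fin n))).symm.toContinuousLinearMap ∘L
    ContinuousLinearMap.inl ℂ H (EuclideanSpace ℂ (Fin n))

/-- Projection of `H ⊕ ℂⁿ` to `H`. -/
def prH (H : Type) [NormedAddCommGroup H] [InnerProductSpace ℂ H] (n : ℕ) : Stab H n →L[ℂ] H :=
  WithLp.fstL 2 ℂ H (EuclideanSpace ℂ (Fin n))

/-- Inclusion of the `i`-th copy of `ℂ` in `H ⊕ ℂⁿ`. -/
def inC (H : Type) [NormedAddCommGroup H] [InnerProductSpace ℂ H] {n : ℕ} (i : Fin n) :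
    ℂ →L[ℂ] Stab H n :=
  ContinuousLinearMap.toSpanSingleton ℂ (WithLp.toLp 2 (0, EuclideanSpace.single i (1 : ℂ)))

/-- Projection of `H ⊕ ℂⁿ` to the `i`-th copy of `ℂ`. -/
def prC (H : Type) [NormedAddCommGroup H] [InnerProductSpace ℂ H] {n : ℕ} (i : Fin n) :
    Stab H n →L[ℂ] ℂ :=
  EuclideanSpace.proj i ∘L WithLp.sndL 2 ℂ H (EuclideanSpace ℂ (Fin n))

/-- The block operator `T ⊕ p` on the module `(C*_r(G) ⊗ H) ⊕ C*_r(G)ⁿ`. -/
def block {n : ℕ} (T : L2 G H →L[ℂ] L2 G H) (p : Matrix (Fin n) (Fin n) (Cr G)) :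
    L2 G (Stab H n) →L[ℂ] L2 G (Stab H n) :=
  lam (1 : G) (inH H n) ∘L T ∘L lam (1 : G) (prH H n) +
    ∑ i, ∑ j, lam (1 : G) (inC H i) ∘L (p i j : L2 G ℂ →L[ℂ] L2 G ℂ) ∘L lam (1 : G) (prC H j)

variable {X : Type} [TopologicalSpace X] [MulAction G X] [CompleteSpace H]

/-- The image of the cutoff projection under descent. -/
def FredMod.proj (Z : FredMod G X H) (c : C₀(X, ℂ)) : L2 G H →L[ℂ] L2 G H :=
  ∑ᶠ g : G, lam g (Z.π c * (Z.U g : H →L[ℂ] H) * Z.π c)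

end index

end

end Vale.Agent.P089A
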