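import Vale.Agent.P089A.GlueB
import Vale.Agent.P089.Trace

/-! A countable group with a class in `K₀` outside the range of assembly. -/

namespace Vale.Agent.P089A

open scoped ZeroAtInfty

namespace St

variable {G : Type} [Group G]

lemma lam_eq {H K : Hilb} (g : G) (T : Op H K) :
    lam g T = P089A.lam (H := H.car) (K := K.car) g T := by
  refine ContinuousLinearMap.ext fun ξ => lp.ext (funext fun h => ?_)
  exact (exists_lam g T).choose_spec ξ h

lemma Cr_eq : Cr G = P089A.Cr G := by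
  simp only [Cr, lam_eq]
  rfl

lemma Kc_eq (H : Hilb) : Kc G H = (P089A.Kc G H.car : Set (L2 G H.car →L[ℂ] L2 G H.car)) := by
  simp only [Kc, lam_eq]
  rfl

variable {X : Type} [TopologicalSpace X] [MulAction G X] {H : Hilb}

lemma Pp_eq (Z : FredMod G X H.car) (c : C₀(X, ℂ)) :
    sumMul (fun g : G => lam g (coef Z c g)) (lam (1 : G) (half 1 Z.γ)) = Z.Pp c := by
  simp only [lam_eq, half, one_smul]
  rfl

lemma Pm_eq (Z : FredMod G X H.car) (c : C₀(X, ℂ)) :
    sumMul (fun g : G => lam g (coef Z c g)) (lam (1 : G) (half (-1) Z.γ)) = Z.Pm c := by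
  simp only [lam_eq, half, neg_smul, one_smul, ← sub_eq_add_neg]
  rfl

theorem exists_assembles [T2Space X] [LocallyCompactSpace X] [ContinuousConstSMul G X]
    [ProperlyDiscontinuousSMul G X] (Z : FredMod G X H.car) {c : C₀(X, ℂ)} (hc : IsCutoff G c) :
    ∃ x : K0Cr G, Assembles Z c x := by
  obtain ⟨n, h⟩ := Z.exists_assembles hc
  rw [← Cr_eq] at h
  obtain ⟨x, hx⟩ := h
  refine ⟨x, n, ⟨Stab H.car n⟩, inH H.car n, prH H.car n, inC H.car, prC H.car, isSum_stab, ?_⟩
  rw [Pp_eq, Pm_eq, Kc_eq, funext fun a => lam_eq (H := cc) (K := ⟨Stab H.car n⟩) 1 (inC H.car a),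
    funext fun a => lam_eq (H := ⟨Stab H.car n⟩) (K := cc) 1 (prC H.car a)]
  simp only [lam_eq]
  exact hx

theorem exists_not_mem_assemblyRange :
    ∃ (G : Type) (_ : Group G) (_ : Countable G) (x : K0Cr G), x ∉ assemblyRange G := by
  classical
  have h1 : ¬P089.traceValues ⊆ Complex.re '' traceSet := fun h =>
    P089.traceValues_uncountable ((countable_traceSet.image _).mono h)
  obtain ⟨t, ⟨G, _, _, q, hq, -, hqq, ht⟩, h2⟩ := Set.not_subset.mp h1
  have hq' : q ∈ P089A.Cr G := by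
    refine closure_mono ?_ hq
    refine (Submodule.span_le (p := Subalgebra.toSubmodule (Algebra.adjoin ℂ _))).mpr ?_
    rintro T ⟨g, hg⟩
    exact Algebra.subset_adjoin ⟨g, by ext ξ h; simp [hg]⟩
  obtain ⟨φ, hφ⟩ := exists_trK0 G
  let e : Idem (P089A.Cr G) := ⟨1, Matrix.of fun _ _ => ⟨q, hq'⟩, by
    ext1 i j
    rw [Matrix.mul_apply, Fin.sum_univ_one]
    exact Subtype.ext hqq⟩
  have h3 : trace (⟨q, hq'⟩ : P089A.Cr G) = t := by
    rw [← ht, P089.canonicalTrace, P089.deltaOne, lp.inner_single_left]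
    simp [trace]
  have h4 : φ e.cls ∉ traceSet := fun h => h2 ⟨_, h, by
    rw [hφ]
    exact (congrArg Complex.re ((Fin.sum_univ_one _).trans h3)).trans (Complex.ofReal_re t)⟩
  have key : ∀ A : OpAlg (L2 G ℂ), A = P089A.Cr G → ∃ (ψ : K0 A → ℂ) (x : K0 A), ψ x ∉ traceSet ∧
      ∀ (X : Type) [TopologicalSpace X] [T2Space X] [LocallyCompactSpace X] [MulAction G X]
        [ContinuousConstSMul G X] [ProperlyDiscontinuousSMul G X] (H H' : Hilb)
        (Z : FredMod G X H.car) (c : C₀(X, ℂ)) (n : ℕ) (i : Op H H') (i' : Op H' H)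
        (j : Fin n → Op cc H') (j' : Fin n → Op H' cc) (y : K0 A), IsCutoff G c → IsSum i i' j j' →
        IndexVia A (P089A.Kc G H'.car) (P089A.lam (1 : G) i) (P089A.lam (1 : G) i')
          (fun a => P089A.lam (1 : G) (j a)) (fun a => P089A.lam (1 : G) (j' a)) (Z.Pp c) (Z.Pm c)
          (P089A.lam (1 : G) Z.F) y → ψ y ∈ traceSet := by
    rintro _ rfl
    exact ⟨φ, e.cls, h4, fun X _ _ _ _ _ _ H H' Z c n i i' j j' y hc hs hy =>
      trace_mem_traceSet φ hφ Z hc hs hy⟩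
  obtain ⟨ψ, x, hx, hψ⟩ := key (Cr G) Cr_eq
  refine ⟨G, inferInstance, inferInstance, x, ?_⟩
  rintro ⟨X, _, _, _, _, _, _, H, Z, c, hc, n, H', i, i', j, j', hs, hy⟩
  rw [Pp_eq, Pm_eq, Kc_eq] at hy
  simp only [lam_eq] at hy
  exact hx (hψ X H H' Z c n i i' j j' x hc hs hy)

end St

end Vale.Agent.P089A
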