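import Mathlib

/-! Abstract index calculus in a ring with a traced ideal `F` and a bigger ideal `K`. -/

namespace Vale.Agent.P089A

/-- A ring with a traced ideal `F` (finite rank) and an ideal `K` (compact). -/
structure TR (R : Type) [Ring R] where
  F : TwoSidedIdeal R
  K : TwoSidedIdeal R
  tr : R → ℂ
  le : ∀ x ∈ F, x ∈ K
  tr_add : ∀ x ∈ F, ∀ y ∈ F, tr (x + y) = tr x + tr y
  tr_comm : ∀ x ∈ F, ∀ y, tr (x * y) = tr (y * x)
  approx : ∀ k ∈ K, ∃ f ∈ F, IsUnit (1 - (k - f))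

namespace TR

variable {R : Type} [Ring R] (τ : TR R)

/-- `t` is the index of `T : e → f`. -/
def Ind (e f T : R) (t : ℂ) : Prop :=
  e * e = e ∧ f * f = f ∧ f * T = T ∧ T * e = T ∧
    ∃ S, e - S * T ∈ τ.F ∧ f - T * S ∈ τ.F ∧ t = τ.tr (e - S * T) - τ.tr (f - T * S)

variable {τ}

lemma as {a b c : R} (h : a * b = c) (x : R) : a * (b * x) = c * x := by rw [← mul_assoc, h]

lemma tr_zero : τ.tr 0 = 0 := by
  have := τ.tr_add 0 τ.F.zero_mem 0 τ.F.zero_mem
  rw [add_zero] at this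
  linear_combination -this

lemma tr_sub {x y : R} (hx : x ∈ τ.F) (hy : y ∈ τ.F) : τ.tr (x - y) = τ.tr x - τ.tr y := by
  have := τ.tr_add (x - y) (τ.F.sub_mem hx hy) y hy
  rw [sub_add_cancel] at this
  linear_combination -this

lemma tr_sum {ι : Type} (s : Finset ι) (x : ι → R) (hx : ∀ i ∈ s, x i ∈ τ.F) :
    τ.tr (∑ i ∈ s, x i) = ∑ i ∈ s, τ.tr (x i) := by
  classical
  induction s using Finset.induction_on with
  | empty => simpa using tr_zero
  | insert a s ha ih =>
    rw [Finset.sum_insert ha, Finset.sum_insert ha,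
      τ.tr_add _ (hx a (Finset.mem_insert_self _ _)) _
        (τ.F.finsetSum_mem _ _ fun i hi => hx i (Finset.mem_insert_of_mem hi)),
      ih fun i hi => hx i (Finset.mem_insert_of_mem hi)]

lemma Ind.unique {e f T : R} {t t' : ℂ} (h : τ.Ind e f T t) (h' : τ.Ind e f T t') : t = t' := by
  obtain ⟨-, -, -, h2, S, a, b, rfl⟩ := h
  obtain ⟨-, -, -, -, S', a', b', rfl⟩ := h'
  have e1 : (S' - S) * T = (e - S * T) - (e - S' * T) := by rw [sub_mul]; abel
  have e2 : T * (S' - S) = (f - T * S) - (f - T * S') := by rw [mul_sub]; abel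
  have m1 : (S' - S) * T ∈ τ.F := by rw [e1]; exact τ.F.sub_mem a a'
  have m2 : T * (S' - S) ∈ τ.F := by rw [e2]; exact τ.F.sub_mem b b'
  have m3 : e * (S' - S) ∈ τ.F := by
    have : e * (S' - S) = (e - S * T) * (S' - S) + S * (T * (S' - S)) := by
      rw [sub_mul, mul_assoc]; abel
    rw [this]
    exact τ.F.add_mem (τ.F.mul_mem_right _ _ a) (τ.F.mul_mem_left _ _ m2)
  have key : τ.tr ((S' - S) * T) = τ.tr (T * (S' - S)) := by
    have k1 := τ.tr_comm _ m1 e
    have k2 := τ.tr_comm _ m3 T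
    rw [mul_assoc, h2] at k1
    rw [mul_assoc, as h2] at k2
    rw [k1, k2]
  rw [e1, e2, tr_sub a a', tr_sub b b'] at key
  linear_combination key

lemma Ind.of_inv {e f T S : R} (he : e * e = e) (hf : f * f = f) (h1 : f * T = T) (h2 : T * e = T)
    (h3 : S * T = e) (h4 : T * S = f) : τ.Ind e f T 0 := by
  refine ⟨he, hf, h1, h2, S, ?_, ?_, ?_⟩
  · rw [h3, sub_self]; exact τ.F.zero_mem
  · rw [h4, sub_self]; exact τ.F.zero_mem
  · rw [h3, h4, sub_self, sub_self, sub_self]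

lemma Ind.zero {q p : R} (hq : q * q = q) (hp : p * p = p) (hq' : q ∈ τ.F) (hp' : p ∈ τ.F) :
    τ.Ind q p 0 (τ.tr q - τ.tr p) := by
  refine ⟨hq, hp, mul_zero _, zero_mul _, 0, ?_, ?_, ?_⟩ <;> simp [hq', hp']

lemma Ind.comp {e f g T T' : R} {t t' : ℂ} (h : τ.Ind e f T t) (h' : τ.Ind f g T' t') :
    τ.Ind e g (T' * T) (t + t') := by
  obtain ⟨he, hf, h1, h2, S, a, b, rfl⟩ := h
  obtain ⟨-, hg, h1', h2', S', a', b', rfl⟩ := h'
  have e1 : e - S * S' * (T' * T) = (e - S * T) + S * (f - S' * T') * T := by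
    simp only [mul_sub, sub_mul, mul_assoc, h1]; abel
  have e2 : g - T' * T * (S * S') = (g - T' * S') + T' * ((f - T * S) * S') := by
    simp only [mul_sub, sub_mul, mul_assoc, as h2']; abel
  have m1 := τ.F.mul_mem_left S _ a'
  have m2 := τ.F.mul_mem_right _ S' b
  have m3 := τ.F.mul_mem_left (f - T * S) _ a'
  have k1 : τ.tr (S * (f - S' * T') * T) =
      τ.tr (f - S' * T') - τ.tr ((f - T * S) * (f - S' * T')) := by
    have e3 : T * (S * (f - S' * T')) = f * (f - S' * T') - (f - T * S) * (f - S' * T') := by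
      rw [sub_mul f, mul_assoc]; abel
    have e4 : (f - S' * T') * f = f - S' * T' := by rw [sub_mul, hf, mul_assoc, h2']
    rw [τ.tr_comm _ m1, e3, tr_sub (τ.F.mul_mem_left _ _ a') m3, ← τ.tr_comm _ a', e4]
  have k2 : τ.tr (T' * ((f - T * S) * S')) =
      τ.tr (f - T * S) - τ.tr ((f - T * S) * (f - S' * T')) := by
    have e3 : (f - T * S) * S' * T' = (f - T * S) * f - (f - T * S) * (f - S' * T') := by
      rw [mul_sub _ f, mul_assoc]; abel
    have e4 : f * (f - T * S) = f - T * S := by rw [mul_sub, hf, as h1]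
    rw [← τ.tr_comm _ m2, e3, tr_sub (τ.F.mul_mem_right _ _ b) m3, τ.tr_comm _ b f, e4]
  refine ⟨he, hg, as h1' _, by rw [mul_assoc, h2], S * S', ?_, ?_, ?_⟩
  · rw [e1]; exact τ.F.add_mem a (τ.F.mul_mem_right _ _ m1)
  · rw [e2]; exact τ.F.add_mem b' (τ.F.mul_mem_left _ _ m2)
  · rw [e1, e2, τ.tr_add _ a _ (τ.F.mul_mem_right _ _ m1),
      τ.tr_add _ b' _ (τ.F.mul_mem_left _ _ m2), k1, k2]
    ring

lemma Ind.norm {e f T : R} {t : ℂ} (h : τ.Ind e f T t) : ∃ S, e * S = S ∧ S * f = S ∧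
    e - S * T ∈ τ.F ∧ f - T * S ∈ τ.F ∧ t = τ.tr (e - S * T) - τ.tr (f - T * S) := by
  obtain ⟨he, hf, h1, h2, S, a, b, rfl⟩ := h
  have e1 : e - e * S * f * T = e * (e - S * T) := by simp only [mul_sub, mul_assoc, he, h1]
  have e2 : f - T * (e * S * f) = (f - T * S) * f := by
    simp only [sub_mul, mul_assoc, hf, as h2]
  have e3 : (e - S * T) * e = e - S * T := by simp only [sub_mul, mul_assoc, he, h2]
  have e4 : f * (f - T * S) = f - T * S := by simp only [mul_sub, hf, as h1]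
  refine ⟨e * S * f, by simp only [mul_assoc, as he], by simp only [mul_assoc, hf], ?_, ?_, ?_⟩
  · rw [e1]; exact τ.F.mul_mem_left _ _ a
  · rw [e2]; exact τ.F.mul_mem_right _ _ b
  · rw [e1, e2, ← τ.tr_comm _ a, τ.tr_comm _ b, e3, e4]

lemma Ind.add {e f T e' f' T' : R} {t t' : ℂ} (h : τ.Ind e f T t) (h' : τ.Ind e' f' T' t')
    (h1 : e * e' = 0) (h2 : e' * e = 0) (h3 : f * f' = 0) (h4 : f' * f = 0) :
    τ.Ind (e + e') (f + f') (T + T') (t + t') := by
  obtain ⟨S, s1, s2, a, b, rfl⟩ := h.norm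
  obtain ⟨S', s1', s2', a', b', rfl⟩ := h'.norm
  obtain ⟨he, hf, t1, t2, -⟩ := h
  obtain ⟨he', hf', t1', t2', -⟩ := h'
  have z : ∀ {x y p q : R}, x * p = x → q * y = y → p * q = 0 → x * y = 0 := by
    intro x y p q k1 k2 k3
    rw [← k1, ← k2, mul_assoc, as k3, zero_mul, mul_zero]
  have e1 : e + e' - (S + S') * (T + T') = (e - S * T) + (e' - S' * T') := by
    rw [add_mul, mul_add, mul_add, z s2 t1' h3, z s2' t1 h4]; abel
  have e2 : f + f' - (T + T') * (S + S') = (f - T * S) + (f' - T' * S') := by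
    rw [add_mul, mul_add, mul_add, z t2 s1' h1, z t2' s1 h2]; abel
  refine ⟨?_, ?_, ?_, ?_, S + S', ?_, ?_, ?_⟩
  · rw [add_mul, mul_add, mul_add, he, he', h1, h2]; abel
  · rw [add_mul, mul_add, mul_add, hf, hf', h3, h4]; abel
  · rw [add_mul, mul_add, mul_add, t1, t1', z hf t1' h3, z hf' t1 h4]; abel
  · rw [add_mul, mul_add, mul_add, t2, t2', z t2 he' h1, z t2' he h2]; abel
  · rw [e1]; exact τ.F.add_mem a a'
  · rw [e2]; exact τ.F.add_mem b b'
  · rw [e1, e2, τ.tr_add _ a _ a', τ.tr_add _ b _ b']; ring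

lemma Ind.existsF {e f T S S' : R} (he : e * e = e) (hf : f * f = f) (h1 : f * T = T)
    (h2 : T * e = T) (h3 : e - S * T ∈ τ.F) (h4 : f - T * S' ∈ τ.F) : ∃ t, τ.Ind e f T t := by
  refine ⟨_, he, hf, h1, h2, S * f, by rwa [mul_assoc, h1], ?_, rfl⟩
  have e1 : f - T * (S * f) = (f - T * S') + T * (e - S * T) * S' - T * S * (f - T * S') := by
    simp only [mul_sub, sub_mul, mul_assoc, as h2]; abel
  rw [e1]
  exact τ.F.sub_mem (τ.F.add_mem h4 (τ.F.mul_mem_right _ _ (τ.F.mul_mem_left _ _ h3)))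
    (τ.F.mul_mem_left _ _ h4)

/-- existence of the index from a parametrix modulo `K` -/
lemma Ind.exists {e f T S : R} (he : e * e = e) (hf : f * f = f) (h1 : f * T = T) (h2 : T * e = T)
    (h3 : e - S * T ∈ τ.K) (h4 : f - T * S ∈ τ.K) : ∃ t, τ.Ind e f T t := by
  obtain ⟨φ, hφ, u, hu⟩ := τ.approx _ h3
  obtain ⟨φ', hφ', u', hu'⟩ := τ.approx _ h4
  refine Ind.existsF (S := (u⁻¹ : Rˣ) * S) (S' := S * (u'⁻¹ : Rˣ)) he hf h1 h2 ?_ ?_
  · have e1 : S * T = u * e - φ * e := by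
      rw [hu]; simp only [sub_mul, mul_assoc, one_mul, he, h2]; abel
    rw [mul_assoc, e1, mul_sub, Units.inv_mul_cancel_left, sub_sub_cancel]
    exact τ.F.mul_mem_left _ _ (τ.F.mul_mem_right _ _ hφ)
  · have e1 : T * S = f * u' - f * φ' := by
      rw [hu']; simp only [mul_sub, mul_one, hf, as h1]; abel
    rw [← mul_assoc, e1, sub_mul, Units.mul_inv_cancel_right, sub_sub_cancel]
    exact τ.F.mul_mem_right _ _ (τ.F.mul_mem_left _ _ hφ')

lemma Ind.congrF {e f T T' : R} {t : ℂ} (h : τ.Ind e f T t) (h1 : f * T' = T') (h2 : T' * e = T')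
    (h3 : T' - T ∈ τ.F) : τ.Ind e f T' t := by
  obtain ⟨he, hf, -, -, S, a, b, rfl⟩ := h
  have e1 : e - S * T' = (e - S * T) - S * (T' - T) := by rw [mul_sub]; abel
  have e2 : f - T' * S = (f - T * S) - (T' - T) * S := by rw [sub_mul]; abel
  have m1 := τ.F.mul_mem_left S _ h3
  have m2 := τ.F.mul_mem_right _ S h3
  refine ⟨he, hf, h1, h2, S, ?_, ?_, ?_⟩
  · rw [e1]; exact τ.F.sub_mem a m1
  · rw [e2]; exact τ.F.sub_mem b m2
  · rw [e1, e2, tr_sub a m1, tr_sub b m2, τ.tr_comm _ h3]; ring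

lemma Ind.oneK {e k : R} (he : e * e = e) (hk : k ∈ τ.K) (h1 : e * k = k) (h2 : k * e = k) :
    τ.Ind e e (e + k) 0 := by
  obtain ⟨t, ht⟩ := Ind.exists (τ := τ) (T := e + k) (S := e) he he (by rw [mul_add, he, h1])
    (by rw [add_mul, he, h2]) (by rw [mul_add, he, h1]; simpa using τ.K.neg_mem hk)
    (by rw [add_mul, he, h2]; simpa using τ.K.neg_mem hk)
  obtain ⟨φ, hφ, u, hu⟩ := τ.approx _ (τ.K.neg_mem hk)
  have i1 : τ.Ind 1 1 (u : R) 0 := Ind.of_inv (S := (u⁻¹ : Rˣ)) (one_mul _) (one_mul _)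
    (one_mul _) (mul_one _) u.inv_mul u.mul_inv
  have i2 : τ.Ind 1 1 (1 + k) 0 := i1.congrF (one_mul _) (mul_one _) (by
    rw [hu, show 1 + k - (1 - (-k - φ)) = -φ by abel]; exact τ.F.neg_mem hφ)
  have he' : (1 - e) * (1 - e) = 1 - e := by
    simp only [mul_sub, sub_mul, mul_one, one_mul, he]; abel
  have z1 : (1 - e) * e = 0 := by rw [sub_mul, one_mul, he, sub_self]
  have z2 : e * (1 - e) = 0 := by rw [mul_sub, mul_one, he, sub_self]
  have i3 := (Ind.of_inv (τ := τ) he' he' he' he' he' he').add ht z1 z2 z1 z2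
  rw [sub_add_cancel, show 1 - e + (e + k) = 1 + k by abel, zero_add] at i3
  rwa [i3.unique i2] at ht

lemma Ind.inv {e f T : R} {t : ℂ} (h : τ.Ind e f T t) : ∃ S, e - S * T ∈ τ.F ∧
    f - T * S ∈ τ.F ∧ τ.Ind f e S (-t) := by
  obtain ⟨S, h1, h2, a, b, rfl⟩ := h.norm
  exact ⟨S, a, b, h.2.1, h.1, h1, h2, T, b, a, by ring⟩

/-- invariance under compact perturbations -/
lemma Ind.congrK {e f T T' : R} {t : ℂ} (h : τ.Ind e f T t) (h1 : f * T' = T') (h2 : T' * e = T')
    (h3 : T' - T ∈ τ.K) : τ.Ind e f T' t := by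
  obtain ⟨S, a, b, hS⟩ := h.inv
  have e1 : e - S * T' = (e - S * T) - S * (T' - T) := by rw [mul_sub]; abel
  have e2 : f - T' * S = (f - T * S) - (T' - T) * S := by rw [sub_mul]; abel
  have m1 : e - S * T' ∈ τ.K := by
    rw [e1]; exact τ.K.sub_mem (τ.le _ a) (τ.K.mul_mem_left _ _ h3)
  have m2 : f - T' * S ∈ τ.K := by
    rw [e2]; exact τ.K.sub_mem (τ.le _ b) (τ.K.mul_mem_right _ _ h3)
  obtain ⟨t', ht'⟩ := Ind.exists h.1 h.2.1 h1 h2 m1 m2
  have i1 := ht'.comp hS
  have i2 := Ind.oneK (τ := τ) h.1 (τ.K.neg_mem m1)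
    (by rw [mul_neg, mul_sub, h.1, as hS.2.2.1]) (by rw [neg_mul, sub_mul, h.1, mul_assoc, h2])
  rw [show e + -(e - S * T') = S * T' by abel] at i2
  have := i1.unique i2
  rwa [show t' = t by linear_combination this] at ht'

lemma Ind.map {R' : Type} [Ring R'] {τ' : TR R'} (Φ : R →ₙ+* R')
    (hΦ : ∀ x ∈ τ.F, Φ x ∈ τ'.F ∧ τ'.tr (Φ x) = τ.tr x) {e f T : R} {t : ℂ} (h : τ.Ind e f T t) :
    τ'.Ind (Φ e) (Φ f) (Φ T) t := by
  obtain ⟨he, hf, h1, h2, S, a, b, rfl⟩ := h
  have k1 := hΦ _ a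
  have k2 := hΦ _ b
  rw [map_sub, map_mul] at k1 k2
  exact ⟨by rw [← map_mul, he], by rw [← map_mul, hf], by rw [← map_mul, h1],
    by rw [← map_mul, h2], Φ S, k1.1, k2.1, by rw [k1.2, k2.2]⟩

lemma tr_rect {m n : Type} [Fintype m] [Fintype n] (M : Matrix m n R) (N : Matrix n m R)
    (hM : ∀ i j, M i j ∈ τ.F) : ∑ i, τ.tr ((M * N) i i) = ∑ j, τ.tr ((N * M) j j) := by
  simp only [Matrix.mul_apply]
  have h1 : ∀ i, τ.tr (∑ j, M i j * N j i) = ∑ j, τ.tr (M i j * N j i) :=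
    fun i => tr_sum _ _ fun j _ => τ.F.mul_mem_right _ _ (hM i j)
  have h2 : ∀ j, τ.tr (∑ i, N j i * M i j) = ∑ i, τ.tr (N j i * M i j) :=
    fun j => tr_sum _ _ fun i _ => τ.F.mul_mem_left _ _ (hM i j)
  simp only [h1, h2]
  rw [Finset.sum_comm]
  exact Finset.sum_congr rfl fun j _ => Finset.sum_congr rfl fun i _ => τ.tr_comm _ (hM i j) _

lemma idem_corner {ε : R} (hε : ε * ε = ε)
    (hF : ∀ x ∈ τ.F, ∃ (r : ℕ) (a b : Fin r → R), x = ∑ i, a i * ε * b i)
    {n : Type} [Fintype n] (M : Matrix n n R) (hM : ∀ i j, M i j ∈ τ.F) (hMM : M * M = M) :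
    ∃ (m : ℕ) (b : Matrix (Fin m) (Fin m) R), b * b = b ∧ (∀ i j, ε * b i j * ε = b i j) ∧
      ∑ i, τ.tr (b i i) = ∑ i, τ.tr (M i i) := by
  classical
  choose r a b h using fun i j => hF _ (hM i j)
  let I := Σ p : n × n, Fin (r p.1 p.2)
  let σ := (Fintype.equivFin I).symm
  let A : Matrix n I R := Matrix.of fun α i => if α = i.1.1 then a _ _ i.2 * ε else 0
  let B : Matrix I n R := Matrix.of fun i β => if i.1.2 = β then ε * b _ _ i.2 else 0
  have hA : ∀ α i, A α i * ε = A α i := fun α i => by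
    simp only [A, Matrix.of_apply]; split_ifs
    · rw [mul_assoc, hε]
    · rw [zero_mul]
  have hB : ∀ i β, ε * B i β = B i β := fun i β => by
    simp only [B, Matrix.of_apply]; split_ifs
    · rw [as hε]
    · rw [mul_zero]
  have hAB : A * B = M := by
    ext α β
    rw [Matrix.mul_apply, Fintype.sum_sigma, Finset.sum_eq_single (α, β), h α β]
    · refine Finset.sum_congr rfl fun j _ => ?_
      simp only [A, B, Matrix.of_apply, if_true, mul_assoc, as hε]
    · rintro ⟨α', β'⟩ - hne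
      refine Finset.sum_eq_zero fun j _ => ?_
      simp only [A, B, Matrix.of_apply]
      split_ifs with h1 h2
      · exact absurd (by rw [h1, h2]) hne
      · rw [mul_zero]
      · rw [zero_mul]
      · rw [zero_mul]
    · exact fun h => absurd (Finset.mem_univ _) h
  refine ⟨_, (B * (M * A)).submatrix σ σ, ?_, fun i j => ?_, ?_⟩
  · rw [Matrix.submatrix_mul_equiv]
    congr 1
    rw [Matrix.mul_assoc, Matrix.mul_assoc M, ← Matrix.mul_assoc A, hAB, ← Matrix.mul_assoc M M,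
      hMM, ← Matrix.mul_assoc M M, hMM]
  · simp only [Matrix.submatrix_apply, Matrix.mul_apply, Finset.mul_sum, Finset.sum_mul, mul_assoc,
      hA, as (hB _ _)]
  · simp only [Matrix.submatrix_apply]
    rw [σ.sum_comp fun i => τ.tr ((B * (M * A)) i i), ← tr_rect (M * A) B fun i j => by
      rw [Matrix.mul_apply]
      exact τ.F.finsetSum_mem _ _ fun k _ => τ.F.mul_mem_right _ _ (hM i k),
      Matrix.mul_assoc, hAB, hMM]

/-- If `F` is spanned by the elements `a * ε * b`, an index is, up to an integer multiple of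
`tr ε`, the trace of an idempotent matrix over the corner `ε R ε`. -/
lemma Ind.idem {ε : R} (hε : ε * ε = ε) (hε' : ε ∈ τ.F)
    (hF : ∀ x ∈ τ.F, ∃ (r : ℕ) (a b : Fin r → R), x = ∑ i, a i * ε * b i)
    {e f T : R} {t : ℂ} (h : τ.Ind e f T t) :
    ∃ (r m : ℕ) (b : Matrix (Fin m) (Fin m) R), b * b = b ∧ (∀ i j, ε * b i j * ε = b i j) ∧
      t = ∑ i, τ.tr (b i i) - r * τ.tr ε := by
  obtain ⟨S, s1, s2, a, b, rfl⟩ := h.norm
  obtain ⟨he, hf, t1, t2, -⟩ := h
  obtain ⟨r, p, q, hpq⟩ := hF _ b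
  let X : Option (Fin r) → R := fun o => o.elim T fun i => f * p i * ε
  let Y : Option (Fin r) → R := fun o => o.elim S fun i => ε * q i * f
  let E : Option (Fin r) → R := fun o => o.elim e fun _ => ε
  have hE : ∀ o, E o * E o = E o := by rintro (_ | i); exacts [he, hε]
  have hEY : ∀ o, E o * Y o = Y o := by
    rintro (_ | i)
    · exact s1
    · simp only [E, Y, Option.elim, mul_assoc, as hε]
  have hXE : ∀ o, X o * E o = X o := by
    rintro (_ | i)
    · exact t2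
    · simp only [E, X, Option.elim, mul_assoc, hε]
  have hfX : ∀ o, f * X o = X o := by
    rintro (_ | i)
    · exact t1
    · simp only [X, Option.elim, mul_assoc, as hf]
  have hsum : ∑ i, X (some i) * Y (some i) = f - T * S := by
    have : f * (f - T * S) * f = f - T * S := by
      simp only [mul_sub, sub_mul, mul_assoc, hf, as t1, s2]
    rw [← this, hpq, Finset.mul_sum, Finset.sum_mul]
    exact Finset.sum_congr rfl fun i _ => by simp only [X, Y, Option.elim, mul_assoc, as hε]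
  have hXY : ∑ o, X o * Y o = f := by
    rw [Fintype.sum_option, hsum]
    exact add_sub_cancel _ _
  have mX : ∀ i, X (some i) ∈ τ.F := fun i => τ.F.mul_mem_left _ _ hε'
  have mY : ∀ i, Y (some i) ∈ τ.F :=
    fun i => τ.F.mul_mem_right _ _ (τ.F.mul_mem_right _ _ hε')
  obtain ⟨m, c, hc, hc', htr⟩ := idem_corner hε hF
    (Matrix.diagonal E - Matrix.of fun o o' => Y o * X o') (by
      rintro (_ | i) (_ | j)
      · rw [Matrix.sub_apply, Matrix.diagonal_apply_eq]; exact a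
      · simpa using τ.F.neg_mem (τ.F.mul_mem_left (Y none) _ (mX j))
      · simpa using τ.F.neg_mem (τ.F.mul_mem_right _ (X none) (mY i))
      · refine τ.F.sub_mem ?_ (τ.F.mul_mem_left _ _ (mX j))
        rw [Matrix.diagonal_apply]
        split_ifs
        exacts [hε', τ.F.zero_mem]) (by
      have k1 : Matrix.diagonal E * (Matrix.of fun o o' => Y o * X o') =
          Matrix.of fun o o' => Y o * X o' := by
        ext o o'; rw [Matrix.diagonal_mul, Matrix.of_apply, as (hEY o)]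
      have k2 : (Matrix.of fun o o' => Y o * X o') * Matrix.diagonal E =
          Matrix.of fun o o' => Y o * X o' := by
        ext o o'; rw [Matrix.mul_diagonal, Matrix.of_apply, mul_assoc, hXE]
      have k3 : (Matrix.of fun o o' => Y o * X o') * (Matrix.of fun o o' => Y o * X o') =
          Matrix.of fun o o' => Y o * X o' := by
        ext o o'
        simp only [Matrix.mul_apply, Matrix.of_apply]
        conv_rhs => rw [← hfX o', ← hXY, Finset.sum_mul, Finset.mul_sum]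
        exact Finset.sum_congr rfl fun k _ => by simp only [mul_assoc]
      rw [sub_mul, mul_sub, mul_sub, k1, k2, k3, Matrix.diagonal_mul_diagonal, sub_self, sub_zero]
      simp only [hE])
  refine ⟨r, m, c, hc, hc', ?_⟩
  rw [htr, Fintype.sum_option, ← hsum, tr_sum _ _ fun i _ => τ.F.mul_mem_right _ _ (mX i)]
  have k : ∀ i, τ.tr ((Matrix.diagonal E - Matrix.of fun o o' => Y o * X o') (some i) (some i)) =
      τ.tr ε - τ.tr (X (some i) * Y (some i)) := by
    intro i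
    rw [Matrix.sub_apply, Matrix.diagonal_apply_eq, Matrix.of_apply, τ.tr_comm _ (mX i)]
    exact tr_sub hε' (τ.F.mul_mem_left _ _ (mX i))
  simp only [k, Finset.sum_sub_distrib, Finset.sum_const, Finset.card_univ, Fintype.card_fin,
    nsmul_eq_mul]
  rw [Matrix.sub_apply, Matrix.diagonal_apply_eq, Matrix.of_apply]
  show _ = τ.tr (e - S * T) + _ - _
  ring

end TR

/-- An odd element `F` together with the two grading idempotents. -/
structure Gr (R : Type) [Ring R] where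
  F : R
  γp : R
  γm : R
  γp_idem : γp * γp = γp
  γm_idem : γm * γm = γm
  odd₁ : γm * F = F * γp
  odd₂ : γp * F = F * γm

namespace TR

variable {R : Type} [Ring R] (τ : TR R) (g : Gr R)

/-- even elements that commute with `F` and kill `F² - 1` modulo `K` -/
def PL (x : R) : Prop :=
  x * g.F - g.F * x ∈ τ.K ∧ x * (g.F * g.F - 1) ∈ τ.K ∧ x * g.γp = g.γp * x ∧ x * g.γm = g.γm * x

/-- the index of `F` compressed by the idempotent `P` -/
def J (P : R) (t : ℂ) : Prop :=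
  τ.Ind (P * g.γp) (P * g.γm) (P * g.γm * g.F * (P * g.γp)) t

variable {τ g}

lemma PL.zero : τ.PL g 0 := by
  refine ⟨?_, ?_, ?_, ?_⟩ <;> simp [τ.K.zero_mem]

lemma PL.add {x y : R} (hx : τ.PL g x) (hy : τ.PL g y) : τ.PL g (x + y) := by
  refine ⟨?_, ?_, by rw [add_mul, mul_add, hx.2.2.1, hy.2.2.1],
    by rw [add_mul, mul_add, hx.2.2.2, hy.2.2.2]⟩
  · rw [add_mul, mul_add, add_sub_add_comm]; exact τ.K.add_mem hx.1 hy.1
  · rw [add_mul]; exact τ.K.add_mem hx.2.1 hy.2.1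

lemma PL.neg {x : R} (hx : τ.PL g x) : τ.PL g (-x) := by
  refine ⟨?_, ?_, by rw [neg_mul, mul_neg, hx.2.2.1], by rw [neg_mul, mul_neg, hx.2.2.2]⟩
  · rw [neg_mul, mul_neg, ← neg_sub']; exact τ.K.neg_mem hx.1
  · rw [neg_mul]; exact τ.K.neg_mem hx.2.1

lemma PL.mul {x y : R} (hx : τ.PL g x) (hy : τ.PL g y) : τ.PL g (x * y) := by
  refine ⟨?_, ?_, by rw [mul_assoc, hy.2.2.1, as hx.2.2.1, mul_assoc],
    by rw [mul_assoc, hy.2.2.2, as hx.2.2.2, mul_assoc]⟩
  · have : x * y * g.F - g.F * (x * y) = x * (y * g.F - g.F * y) + (x * g.F - g.F * x) * y := by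
      simp only [mul_sub, sub_mul, mul_assoc]; abel
    rw [this]
    exact τ.K.add_mem (τ.K.mul_mem_left _ _ hy.1) (τ.K.mul_mem_right _ _ hx.1)
  · rw [mul_assoc]; exact τ.K.mul_mem_left _ _ hy.2.1

lemma PL.sum {ι : Type} (s : Finset ι) (x : ι → R) (hx : ∀ i ∈ s, τ.PL g (x i)) :
    τ.PL g (∑ i ∈ s, x i) := by
  classical
  induction s using Finset.induction_on with
  | empty => simpa using PL.zero
  | insert a s ha ih =>
    rw [Finset.sum_insert ha]
    exact (hx a (Finset.mem_insert_self _ _)).add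
      (ih fun i hi => hx i (Finset.mem_insert_of_mem hi))

lemma sub_mem_K {x y : R} :
    x - y ∈ τ.K ↔ RingCon.mk' τ.K.ringCon x = RingCon.mk' τ.K.ringCon y :=
  (τ.K.rel_iff x y).symm.trans (RingCon.eq _).symm

lemma PL.q {x : R} (hx : τ.PL g x) :
    RingCon.mk' τ.K.ringCon g.F * RingCon.mk' τ.K.ringCon x =
        RingCon.mk' τ.K.ringCon x * RingCon.mk' τ.K.ringCon g.F ∧
      RingCon.mk' τ.K.ringCon x * (RingCon.mk' τ.K.ringCon g.F * RingCon.mk' τ.K.ringCon g.F) =
        RingCon.mk' τ.K.ringCon x ∧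
      RingCon.mk' τ.K.ringCon g.γp * RingCon.mk' τ.K.ringCon x =
        RingCon.mk' τ.K.ringCon x * RingCon.mk' τ.K.ringCon g.γp ∧
      RingCon.mk' τ.K.ringCon g.γm * RingCon.mk' τ.K.ringCon x =
        RingCon.mk' τ.K.ringCon x * RingCon.mk' τ.K.ringCon g.γm := by
  obtain ⟨h1, h2, h3, h4⟩ := hx
  rw [mul_sub, mul_one, sub_mem_K] at h2
  rw [sub_mem_K] at h1
  simp only [← map_mul]
  exact ⟨h1.symm, h2, by rw [h3], by rw [h4]⟩

lemma Gr.q (τ : TR R) (g : Gr R) :
    RingCon.mk' τ.K.ringCon g.γp * RingCon.mk' τ.K.ringCon g.γp = RingCon.mk' τ.K.ringCon g.γp ∧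
      RingCon.mk' τ.K.ringCon g.γm * RingCon.mk' τ.K.ringCon g.γm = RingCon.mk' τ.K.ringCon g.γm ∧
      RingCon.mk' τ.K.ringCon g.γm * RingCon.mk' τ.K.ringCon g.F =
        RingCon.mk' τ.K.ringCon g.F * RingCon.mk' τ.K.ringCon g.γp ∧
      RingCon.mk' τ.K.ringCon g.γp * RingCon.mk' τ.K.ringCon g.F =
        RingCon.mk' τ.K.ringCon g.F * RingCon.mk' τ.K.ringCon g.γm := by
  simp only [← map_mul, g.γp_idem, g.γm_idem, g.odd₁, g.odd₂, and_self]

lemma J.unique {P : R} {t t' : ℂ} (h : τ.J g P t) (h' : τ.J g P t') : t = t' :=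
  Ind.unique h h'

lemma J.exists {P : R} (hP : P * P = P) (h : τ.PL g P) : ∃ t, τ.J g P t := by
  obtain ⟨q1, q2, q3, q4⟩ := h.q
  obtain ⟨r1, r2, r3, r4⟩ := Gr.q τ g
  have qP : RingCon.mk' τ.K.ringCon P * RingCon.mk' τ.K.ringCon P = RingCon.mk' τ.K.ringCon P := by
    rw [← map_mul, hP]
  have q2' := fun x => (mul_assoc _ _ _).symm.trans ((mul_assoc _ _ _).symm.trans
    (congrArg (· * x) ((mul_assoc _ _ _).trans q2)))
  have e1 : P * g.γp * (P * g.γp) = P * g.γp := by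
    simp only [mul_assoc, as h.2.2.1.symm, as hP, g.γp_idem]
  have e2 : P * g.γm * (P * g.γm) = P * g.γm := by
    simp only [mul_assoc, as h.2.2.2.symm, as hP, g.γm_idem]
  refine Ind.exists (S := P * g.γp * g.F * (P * g.γm)) e1 e2
    (by rw [mul_assoc (P * g.γm) g.F, as e2]) (by rw [mul_assoc _ (P * g.γp), e1]) ?_ ?_ <;>
  · rw [sub_mem_K]
    simp only [map_mul, mul_assoc, as q1, as q3, as q4, as qP, as r3, as r4, r1, r2, q2']

lemma J.equiv {x y P P' : R} {t : ℂ} (hx : τ.PL g x) (hy : τ.PL g y) (hP : P * P = P)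
    (hP' : P' * P' = P') (h1 : y * x = P) (h2 : x * y = P') (h : τ.J g P t) : τ.J g P' t := by
  subst h1 h2
  have hP1 := fun z => (as hP z).symm
  have c1 := hx.2.2.1.symm
  have c2 := hx.2.2.2.symm
  have c3 := hy.2.2.1.symm
  have c4 := hy.2.2.2.symm
  have a1 : ∀ z, x * (y * (x * (y * z))) = x * (y * z) := fun z => by
    simpa only [mul_assoc] using as hP' z
  have a2 : ∀ z, y * (x * (y * (x * z))) = y * (x * z) := fun z => by
    simpa only [mul_assoc] using as hP z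
  have i1 : τ.Ind (x * y * g.γp) (y * x * g.γp) (y * x * y * g.γp) 0 := by
    refine Ind.of_inv (S := x * y * x * g.γp) ?_ ?_ ?_ ?_ ?_ ?_ <;>
      simp only [mul_assoc, as c1, as c3, a1, a2, g.γp_idem]
  have i2 : τ.Ind (y * x * g.γm) (x * y * g.γm) (x * y * x * g.γm) 0 := by
    refine Ind.of_inv (S := y * x * y * g.γm) ?_ ?_ ?_ ?_ ?_ ?_ <;>
      simp only [mul_assoc, as c2, as c4, a1, a2, g.γm_idem]
  have i3 := (i1.comp h).comp i2
  rw [zero_add, add_zero] at i3
  refine i3.congrK (by rw [mul_assoc (x * y * g.γm) g.F, as i3.2.1])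
    (by rw [mul_assoc _ (x * y * g.γp), i3.1]) ?_
  obtain ⟨q1, -, q3, q4⟩ := hx.q
  obtain ⟨p1, -, p3, p4⟩ := hy.q
  obtain ⟨r1, r2, r3, r4⟩ := Gr.q τ g
  have b1 := fun z => as (b := RingCon.mk' τ.K.ringCon (x * y)) (by rw [← map_mul, hP']) z
  simp only [map_mul, mul_assoc] at b1
  rw [sub_mem_K]
  simp only [map_mul, mul_assoc, as q1, as q3, as q4, as p1, as p3, as p4, as r3, r1, b1]

lemma J.sum {ι : Type} (s : Finset ι) (P : ι → R) (t : ι → ℂ) (hP : ∀ i ∈ s, τ.PL g (P i))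
    (ho : ∀ i ∈ s, ∀ j ∈ s, i ≠ j → P i * P j = 0) (h : ∀ i ∈ s, τ.J g (P i) (t i)) :
    τ.J g (∑ i ∈ s, P i) (∑ i ∈ s, t i) := by
  classical
  induction s using Finset.induction_on with
  | empty =>
    simp only [Finset.sum_empty, J, zero_mul, mul_zero]
    exact Ind.of_inv (S := 0) (mul_zero _) (mul_zero _) (mul_zero _) (mul_zero _) (mul_zero _)
      (mul_zero _)
  | insert a s ha ih =>
    have hs : ∀ i ∈ s, i ∈ insert a s := fun i hi => Finset.mem_insert_of_mem hi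
    have ha' := Finset.mem_insert_self a s
    have hQ := PL.sum s P fun i hi => hP i (hs i hi)
    have hA := hP a ha'
    have ih' := ih (fun i hi => hP i (hs i hi)) (fun i hi j hj => ho i (hs i hi) j (hs j hj))
      fun i hi => h i (hs i hi)
    have z1 : P a * ∑ i ∈ s, P i = 0 := by
      rw [Finset.mul_sum]
      exact Finset.sum_eq_zero fun i hi => ho a ha' i (hs i hi) fun e => ha (e ▸ hi)
    have z2 : (∑ i ∈ s, P i) * P a = 0 := by
      rw [Finset.sum_mul]
      exact Finset.sum_eq_zero fun i hi => ho i (hs i hi) a ha' fun e => ha (e ▸ hi)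
    rw [Finset.sum_insert ha, Finset.sum_insert ha]
    generalize ∑ i ∈ s, P i = Q at hQ ih' z1 z2
    have i1 := Ind.add (h a ha') ih'
      (by simp only [mul_assoc, as hQ.2.2.1.symm, as z1, zero_mul])
      (by simp only [mul_assoc, as hA.2.2.1.symm, as z2, zero_mul])
      (by simp only [mul_assoc, as hQ.2.2.2.symm, as z1, zero_mul])
      (by simp only [mul_assoc, as hA.2.2.2.symm, as z2, zero_mul])
    rw [← add_mul, ← add_mul] at i1
    refine i1.congrK (by rw [mul_assoc ((P a + Q) * g.γm) g.F, as i1.2.1])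
      (by rw [mul_assoc _ ((P a + Q) * g.γp), i1.1]) ?_
    obtain ⟨q1, -, -, q4⟩ := hA.q
    obtain ⟨p1, -, -, p4⟩ := hQ.q
    have b1 : RingCon.mk' τ.K.ringCon (P a) * RingCon.mk' τ.K.ringCon Q = 0 := by
      rw [← map_mul, z1, map_zero]
    have b2 : RingCon.mk' τ.K.ringCon Q * RingCon.mk' τ.K.ringCon (P a) = 0 := by
      rw [← map_mul, z2, map_zero]
    rw [sub_mem_K]
    simp only [map_mul, map_add, mul_add, add_mul, mul_assoc, as q1, as q4, as p1, as p4, as b1,
      as b2, zero_mul, add_zero, zero_add]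

lemma J.map {R' : Type} [Ring R'] {τ' : TR R'} {g' : Gr R'} (Φ : R →ₙ+* R')
    (hΦ : ∀ x ∈ τ.F, Φ x ∈ τ'.F ∧ τ'.tr (Φ x) = τ.tr x) (h1 : ∀ x, Φ (x * g.F) = Φ x * g'.F)
    (h2 : ∀ x, Φ (x * g.γp) = Φ x * g'.γp) (h3 : ∀ x, Φ (x * g.γm) = Φ x * g'.γm) {P : R} {t : ℂ}
    (h : τ.J g P t) : τ'.J g' (Φ P) t := by
  have := Ind.map Φ hΦ h
  rwa [map_mul Φ (P * g.γm * g.F), h1, h2, h3] at this

end TR

/-- Diagonal extension of a grading to matrices. -/
def Gr.mat {R : Type} [Ring R] (g : Gr R) (ι : Type) [Fintype ι] [DecidableEq ι] :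
    Gr (Matrix ι ι R) where
  F := Matrix.diagonal fun _ => g.F
  γp := Matrix.diagonal fun _ => g.γp
  γm := Matrix.diagonal fun _ => g.γm
  γp_idem := by simp [g.γp_idem]
  γm_idem := by simp [g.γm_idem]
  odd₁ := by simp [g.odd₁]
  odd₂ := by simp [g.odd₂]

/-- Normed version: `F` is dense in `K`. -/
structure NTR (R : Type) [NormedRing R] where
  F : TwoSidedIdeal R
  K : TwoSidedIdeal R
  tr : R → ℂ
  le : ∀ x ∈ F, x ∈ K
  tr_add : ∀ x ∈ F, ∀ y ∈ F, tr (x + y) = tr x + tr y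
  tr_comm : ∀ x ∈ F, ∀ y, tr (x * y) = tr (y * x)
  dense : ∀ k ∈ K, ∀ ε : ℝ, 0 < ε → ∃ f ∈ F, ‖k - f‖ < ε

/-- A matrix with small entries is quasi-invertible. -/
lemma isUnit_one_sub_matrix {R : Type} [NormedRing R] [CompleteSpace R] {ι : Type} [Fintype ι]
    [DecidableEq ι] (M : Matrix ι ι R) (h : ∀ i j, (Fintype.card ι : ℝ) * ‖M i j‖ < 1) :
    IsUnit (1 - M) := by
  let inst := Matrix.linftyOpNormedRing (n := ι) (α := R)
  have : @CompleteSpace (Matrix ι ι R) inst.toUniformSpace :=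
    inferInstanceAs (CompleteSpace (ι → ι → R))
  refine isUnit_one_sub_of_norm_lt_one ?_
  rw [Matrix.linfty_opNorm_def, ← NNReal.coe_one, NNReal.coe_lt_coe,
    Finset.sup_lt_iff (by simp)]
  intro i _
  rw [← NNReal.coe_lt_coe, NNReal.coe_sum, NNReal.coe_one]
  have hc : (0 : ℝ) < Fintype.card ι := by exact_mod_cast Fintype.card_pos_iff.2 ⟨i⟩
  have := Finset.sum_lt_sum_of_nonempty (⟨i, Finset.mem_univ i⟩ : Finset.univ.Nonempty)
    fun j _ => h i j
  rw [← Finset.mul_sum, Finset.sum_const, Finset.card_univ, nsmul_eq_mul] at this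
  exact lt_of_mul_lt_mul_left this hc.le

namespace NTR

variable {R : Type} [NormedRing R] [CompleteSpace R] (ν : NTR R)

/-- the underlying traced ring -/
def toTR : TR R where
  F := ν.F
  K := ν.K
  tr := ν.tr
  le := ν.le
  tr_add := ν.tr_add
  tr_comm := ν.tr_comm
  approx := by
    intro k hk
    obtain ⟨f, hf, h⟩ := ν.dense k hk 1 one_pos
    exact ⟨f, hf, isUnit_one_sub_of_norm_lt_one h⟩

/-- the traced ring of matrices -/
def mat (ι : Type) [Fintype ι] [DecidableEq ι] : TR (Matrix ι ι R) where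
  F := ν.F.matrix ι
  K := ν.K.matrix ι
  tr M := ∑ i, ν.tr (M i i)
  le := by
    intro M hM i j
    exact ν.le _ (hM i j)
  tr_add := by
    intro M hM N hN
    rw [← Finset.sum_add_distrib]
    exact Finset.sum_congr rfl fun i _ => ν.tr_add _ (hM i i) _ (hN i i)
  tr_comm := by
    intro M hM N
    exact TR.tr_rect (τ := ν.toTR) M N hM
  approx := by
    intro M hM
    have hc : (0 : ℝ) < Fintype.card ι + 1 := by positivity
    choose f hf h using fun i j => ν.dense _ (hM i j) _ (inv_pos.2 hc)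
    refine ⟨Matrix.of f, hf, isUnit_one_sub_matrix _ fun i j => ?_⟩
    have h1 := (lt_inv_mul_iff₀ hc).1 ((h i j).trans_eq (mul_one _).symm)
    have h2 := norm_nonneg (M i j - f i j)
    show (Fintype.card ι : ℝ) * ‖M i j - f i j‖ < 1
    linarith

/-- pseudolocality of a matrix is entrywise -/
lemma PL_mat {ι : Type} [Fintype ι] [DecidableEq ι] {g : Gr R} {M : Matrix ι ι R}
    (h : ∀ i j, ν.toTR.PL g (M i j)) : (ν.mat ι).PL (g.mat ι) M := by
  refine ⟨fun i j => ?_, fun i j => ?_, ?_, ?_⟩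
  · have e : (M * (g.mat ι).F - (g.mat ι).F * M) i j = M i j * g.F - g.F * M i j := by
      simp [Gr.mat]
    rw [e]
    exact (h i j).1
  · have e : (g.mat ι).F * (g.mat ι).F - 1 = Matrix.diagonal fun _ => g.F * g.F - 1 := by
      simp [Gr.mat, ← Matrix.diagonal_one]
    rw [e, Matrix.mul_diagonal]
    exact (h i j).2.1
  · ext i j
    simpa [Gr.mat] using (h i j).2.2.1
  · ext i j
    simpa [Gr.mat] using (h i j).2.2.2

/-- placing an element in a diagonal corner preserves the index -/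
lemma J_single {ι : Type} [Fintype ι] [DecidableEq ι] {g : Gr R} (i : ι) {P : R} {t : ℂ}
    (h : ν.toTR.J g P t) : (ν.mat ι).J (g.mat ι) (Matrix.single i i P) t := by
  let Φ : R →ₙ+* Matrix ι ι R :=
    { toFun := Matrix.single i i
      map_mul' := fun x y => (Matrix.single_mul_single_same x i i i y).symm
      map_zero' := Matrix.single_zero i i
      map_add' := Matrix.single_add i i }
  have hd : ∀ x y : R, Φ (x * y) = Φ x * Matrix.diagonal fun _ => y := by
    intro x y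
    ext a b
    rw [Matrix.mul_diagonal]
    show Matrix.single i i (x * y) a b = Matrix.single i i x a b * y
    simp only [Matrix.single_apply, ite_mul, zero_mul]
  refine TR.J.map Φ (fun x hx => ⟨fun a b => ?_, ?_⟩) (hd · _) (hd · _) (hd · _) h
  · show Matrix.single i i x a b ∈ ν.F
    rw [Matrix.single_apply]
    split_ifs
    exacts [hx, ν.F.zero_mem]
  · show ∑ a, ν.tr (Matrix.single i i x a a) = ν.tr x
    rw [Finset.sum_eq_single i, Matrix.single_apply_same]
    · intro b _ hb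
      rw [Matrix.single_apply_of_row_ne hb.symm]
      exact TR.tr_zero (τ := ν.toTR)
    · exact fun h => absurd (Finset.mem_univ _) h

end NTR

end Vale.Agent.P089A
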