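import Vale.Agent.P089A.Stmt
import Vale.Agent.P089A.TR

/-! The algebra behind the uniqueness of the index class in `K₀`. -/

namespace Vale.Agent.P089A

variable {A : Type} [Ring A]

lemma cls_equiv {e f : Idem A} (u : Matrix (Fin e.n) (Fin f.n) A) (v : Matrix (Fin f.n) (Fin e.n) A)
    (h1 : u * v = e.p) (h2 : v * u = f.p) : e.cls = f.cls :=
  QuotientAddGroup.eq_iff_sub_mem.mpr
    (AddSubgroup.subset_closure (Or.inl ⟨e, f, u, v, h1, h2, rfl⟩))

lemma cls_add {n : ℕ} {p q s : Matrix (Fin n) (Fin n) A} (hp : p * p = p) (hq : q * q = q)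
    (hs : s * s = s) (h1 : p * q = 0) (h2 : q * p = 0) (h : s = p + q) :
    Idem.cls ⟨n, s, hs⟩ = Idem.cls ⟨n, p, hp⟩ + Idem.cls ⟨n, q, hq⟩ := by
  let σ : Fin n ⊕ Fin n ≃ Fin (n + n) := finSumFinEquiv
  have hb : Matrix.reindex σ σ (Matrix.fromBlocks p 0 0 q) *
      Matrix.reindex σ σ (Matrix.fromBlocks p 0 0 q) =
      Matrix.reindex σ σ (Matrix.fromBlocks p 0 0 q) := by
    simp [Matrix.fromBlocks_multiply, hp, hq]
  have k1 : Idem.cls ⟨n, s, hs⟩ = Idem.cls ⟨n + n, _, hb⟩ :=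
    cls_equiv ((Matrix.fromCols p q).submatrix id σ.symm) ((Matrix.fromRows p q).submatrix σ.symm id)
      (by simp [Matrix.fromCols_mul_fromRows, hp, hq, h])
      (by
        rw [← Matrix.submatrix_mul _ _ _ id _ Function.bijective_id]
        simp [hp, hq, h1, h2])
  rw [k1, Idem.cls, Idem.cls, Idem.cls, ← QuotientAddGroup.mk_add,
    QuotientAddGroup.eq_iff_sub_mem, ← sub_sub]
  exact AddSubgroup.subset_closure (Or.inr ⟨⟨n, p, hp⟩, ⟨n, q, hq⟩, ⟨n + n, _, hb⟩, σ, rfl, rfl⟩)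

variable {R : Type} [Ring R]

/-- `U` is an isomorphism from `x` to `y` with inverse `V`. -/
def IsoI (x y U V : R) : Prop := V * U = x ∧ U * V = y ∧ U * x = U ∧ V * y = V

namespace IsoI

variable {x y w U V U' V' a : R}

lemma symm (h : IsoI x y U V) : IsoI y x V U := ⟨h.2.1, h.1, h.2.2.2, h.2.2.1⟩

lemma left (h : IsoI x y U V) : y * U = U := by rw [← h.2.1, mul_assoc, h.1, h.2.2.1]

lemma norm (h1 : V * U = x) (h2 : U * V = y) (hx : x * x = x) (hy : y * y = y) :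
    IsoI x y (y * U) (x * V) := by
  have k1 : y * U = U * x := by rw [← h1, ← h2, mul_assoc]
  have k2 : x * V = V * y := by rw [← h1, ← h2, mul_assoc]
  refine ⟨?_, ?_, ?_, ?_⟩
  · rw [k1, mul_assoc, TR.as h1, hx, hx]
  · rw [k2, mul_assoc, TR.as h2, hy, hy]
  · rw [k1, mul_assoc, hx]
  · rw [k2, mul_assoc, hy]

lemma trans (h : IsoI x y U V) (h' : IsoI y w U' V') : IsoI x w (U' * U) (V * V') := by
  refine ⟨?_, ?_, ?_, ?_⟩
  · rw [mul_assoc, TR.as h'.1, h.left, h.1]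
  · rw [mul_assoc, TR.as h.2.1, h'.symm.left, h'.2.1]
  · rw [mul_assoc, h.2.2.1]
  · rw [mul_assoc, h'.2.2.2]

lemma add (h : IsoI x y U V) (ha : a * a = a) (h1 : a * x = 0) (h2 : x * a = 0) (h3 : a * y = 0)
    (h4 : y * a = 0) : IsoI (x + a) (y + a) (U + a) (V + a) := by
  have k1 : U * a = 0 := by rw [← h.2.2.1, mul_assoc, h2, mul_zero]
  have k2 : a * U = 0 := by rw [← h.left, TR.as h3, zero_mul]
  have k3 : V * a = 0 := by rw [← h.2.2.2, mul_assoc, h4, mul_zero]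
  have k4 : a * V = 0 := by rw [← h.symm.left, TR.as h1, zero_mul]
  refine ⟨?_, ?_, ?_, ?_⟩ <;>
    simp only [add_mul, mul_add, k1, k2, k3, k4, h1, h3, ha, h.1, h.2.1, h.2.2.1, h.2.2.2, add_zero,
      zero_add]

end IsoI

/-- `x` is the class of the idempotent `κ`, seen through the corner `ε`. -/
def Rep (ε : R) (c : R →+ A) (κ : R) (x : K0 A) : Prop :=
  ∃ (e : Idem A) (X Y : Fin e.n → R), (∀ i, Y i * ε = Y i) ∧ (∀ i, X i * κ = X i) ∧
    ∑ i, Y i * X i = κ ∧ (∀ i j, e.p i j = c (X i * Y j)) ∧ x = e.cls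

variable {ε : R} {c : R →+ A}

lemma rep_mul (hc : ∀ x y, c x * c y = c (x * ε * y)) {n : ℕ} {X Y : Fin n → R} {κ : R}
    (h1 : ∀ i, Y i * ε = Y i) (h2 : ∑ i, Y i * X i = κ) (a b : R) :
    ∑ i, c (a * Y i) * c (X i * b) = c (a * κ * b) := by
  rw [← h2, Finset.mul_sum, Finset.sum_mul, map_sum]
  exact Finset.sum_congr rfl fun i _ => by simp only [hc, mul_assoc, TR.as (h1 i)]

lemma Rep.unique (hc : ∀ x y, c x * c y = c (x * ε * y)) {κ : R} {x y : K0 A} (h : Rep ε c κ x)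
    (h' : Rep ε c κ y) : x = y := by
  obtain ⟨e, X, Y, h1, h2, h3, h4, rfl⟩ := h
  obtain ⟨e', X', Y', h1', h2', h3', h4', rfl⟩ := h'
  refine cls_equiv (Matrix.of fun i j => c (X i * Y' j)) (Matrix.of fun i j => c (X' i * Y j)) ?_ ?_
  · ext i j
    simp only [Matrix.mul_apply, Matrix.of_apply, rep_mul hc h1' h3', h2, h4]
  · ext i j
    simp only [Matrix.mul_apply, Matrix.of_apply, rep_mul hc h1 h3, h2', h4']

lemma Rep.split (hc : ∀ x y, c x * c y = c (x * ε * y)) {κ κ' : R} {x y y' : K0 A}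
    (h : Rep ε c (κ + κ') x) (hκ : κ * κ = κ) (hκ' : κ' * κ' = κ') (o : κ * κ' = 0)
    (o' : κ' * κ = 0) (hy : Rep ε c κ y) (hy' : Rep ε c κ' y') : x = y + y' := by
  obtain ⟨⟨n, p, hp⟩, X, Y, h1, h2, h3, h4, rfl⟩ := h
  let d : R → Matrix (Fin n) (Fin n) A := fun t => Matrix.of fun i j => c (X i * t * (t * Y j))
  have hd : ∀ s t, d s * d t = Matrix.of fun i j =>
      c (X i * (s * s * (κ + κ') * t * t) * Y j) := fun s t => by
    ext i j
    have := rep_mul hc h1 h3 (X i * s * s) (t * (t * Y j))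
    simpa only [d, Matrix.mul_apply, Matrix.of_apply, mul_assoc] using this
  have k : ∀ t, t * t = t → t * (κ + κ') = t →
      ∃ h : d t * d t = d t, Rep ε c t (Idem.cls ⟨n, _, h⟩) := fun t h5 h6 => by
    have h : d t * d t = d t := by
      rw [hd, h5, h6, h5, h5]; ext; simp only [d, Matrix.of_apply, mul_assoc, TR.as h5]
    refine ⟨h, ⟨n, d t, h⟩, fun i => X i * t, fun i => t * Y i, fun i => by rw [mul_assoc, h1],
      fun i => by rw [mul_assoc, h5], ?_, fun _ _ => rfl, rfl⟩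
    simp only [mul_assoc, ← Finset.mul_sum]
    simp only [← mul_assoc, ← Finset.sum_mul, h3, h6, h5]
  obtain ⟨a1, a2⟩ := k κ hκ (by rw [mul_add, hκ, o, add_zero])
  obtain ⟨b1, b2⟩ := k κ' hκ' (by rw [mul_add, hκ', o', zero_add])
  rw [hy.unique hc a2, hy'.unique hc b2]
  refine cls_add _ _ _ ?_ ?_ ?_
  · rw [hd]; ext; simp [hκ, mul_add, o]
  · rw [hd]; ext; simp [hκ', mul_add, o']
  · ext i j
    have := h4 i j
    simp only [d, Matrix.add_apply, Matrix.of_apply, mul_assoc, TR.as hκ, TR.as hκ', ← map_add,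
      ← mul_add, ← add_mul] at this ⊢
    rw [← mul_assoc, h2, this]

lemma rep_fred₀ (hc : ∀ x y, c x * c y = c (x * ε * y)) (hε : ε * ε = ε) {r : ℕ} (a b : Fin r → R)
    {κ l V : R} (h : IsoI (1 - κ) (1 - l) (1 + ∑ i, a i * ε * b i) V) :
    ∃ x, Rep ε c κ x ∧ Rep ε c l x := by
  set φ := ∑ i, a i * ε * b i with hφ
  have h1 : ∀ i, a i * ε * ε = a i * ε := fun i => by rw [mul_assoc, hε]
  have h2 : ∑ i, a i * ε * (ε * b i) = φ :=
    Finset.sum_congr rfl fun i _ => by rw [← mul_assoc, h1]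
  let d : R →+ Matrix (Fin r) (Fin r) A := AddMonoidHom.mk'
    (fun t => Matrix.of fun i j => c (ε * b i * t * (a j * ε))) fun s t => by
      ext; simp [mul_add, add_mul]
  let E : Matrix (Fin r) (Fin r) A := Matrix.diagonal fun _ => c ε
  have hd : ∀ s t, d s * d t = d (s * φ * t) := fun s t => by
    ext i j
    have := rep_mul hc h1 h2 (ε * b i * s) (t * (a j * ε))
    simpa only [d, AddMonoidHom.mk'_apply, Matrix.mul_apply, Matrix.of_apply, mul_assoc] using this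
  have e1 : ∀ t, E * d t = d t := fun t => by
    ext; simp [E, d, hc, mul_assoc, TR.as hε]
  have e2 : ∀ t, d t * E = d t := fun t => by
    ext; simp [E, d, hc, mul_assoc, hε]
  have e3 : E * E = E := by simp [E, hc, hε]
  have k : ∀ t, t * t = t → t * φ * t = -t → ∃ (h1 : d (-t) * d (-t) = d (-t))
      (h2 : (E + d t) * (E + d t) = E + d t), Rep ε c t (Idem.cls ⟨r, _, h1⟩) ∧
      Idem.cls ⟨r, E, e3⟩ = Idem.cls ⟨r, _, h2⟩ + Idem.cls ⟨r, _, h1⟩ := fun t h5 h6 => by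
    have h7 : d t * d t = -d t := by rw [hd, h6, map_neg]
    refine ⟨by simp [h7], by simp [mul_add, add_mul, e1, e2, e3, h7],
      ⟨_, fun i => -(ε * b i * t), fun i => t * (a i * ε), fun i => by rw [mul_assoc, h1],
        fun i => by rw [neg_mul, mul_assoc, h5], ?_, fun i j => ?_, rfl⟩,
      cls_add _ _ _ ?_ ?_ (by simp)⟩
    · simp only [mul_neg, Finset.sum_neg_distrib, mul_assoc t, ← Finset.mul_sum]
      simp only [← mul_assoc _ _ t, ← Finset.sum_mul, h2, h6, neg_neg]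
    · simp [d, mul_assoc, TR.as h5]
    · simp [add_mul, e1, h7]
    · simp [mul_add, e2, h7]
  have i1 : κ * κ = κ := by
    have := h.symm.left
    have h3 : (1 - κ) * (1 - κ) = 1 - κ := by
      conv_lhs => rhs; rw [← h.1]
      rw [TR.as this, h.1]
    rw [sub_mul, one_mul, mul_sub, mul_one, sub_eq_self, sub_eq_zero] at h3
    exact h3.symm
  have i2 : l * l = l := by
    have h3 : (1 - l) * (1 - l) = 1 - l := by
      conv_lhs => rhs; rw [← h.2.1]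
      rw [TR.as h.left, h.2.1]
    rw [sub_mul, one_mul, mul_sub, mul_one, sub_eq_self, sub_eq_zero] at h3
    exact h3.symm
  obtain ⟨a1, a2, a3, a4⟩ := k κ i1 (by
    have := h.2.2.1
    rw [mul_sub, mul_one, sub_eq_self, add_mul, one_mul, add_eq_zero_iff_neg_eq] at this
    rw [mul_assoc, ← this, mul_neg, i1])
  obtain ⟨b1, b2, b3, b4⟩ := k l i2 (by
    have := h.left
    rw [sub_mul, one_mul, sub_eq_self, mul_add, mul_one, add_eq_zero_iff_neg_eq] at this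
    rw [← this, neg_mul, i2])
  have k2 : Idem.cls ⟨r, _, a2⟩ = Idem.cls ⟨r, _, b2⟩ := by
    refine cls_equiv (E - d V) (E + d 1) ?_ ?_
    · have : κ = 1 - (V + V * φ * 1) := by
        rw [mul_one, ← mul_one_add, h.1, sub_sub_cancel]
      simp only [this, sub_mul, mul_add, e1, e2, e3, hd, map_sub, map_add]; abel
    · have : l = 1 - (V + 1 * φ * V) := by
        rw [one_mul, ← one_add_mul, h.2.1, sub_sub_cancel]
      simp only [this, mul_sub, add_mul, e1, e2, e3, hd, map_sub, map_add]; abel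
  rw [a4, k2, add_right_inj] at b4
  exact ⟨_, a3, b4 ▸ b3⟩

lemma rep_fred (τ : TR R) (hc : ∀ x y, c x * c y = c (x * ε * y)) (hε : ε * ε = ε)
    (hF : ∀ x ∈ τ.F, ∃ (r : ℕ) (a b : Fin r → R), x = ∑ i, a i * ε * b i) {κ l W V : R}
    (h : IsoI (1 - κ) (1 - l) W V) (hW : 1 - W ∈ τ.K) : ∃ x, Rep ε c κ x ∧ Rep ε c l x := by
  obtain ⟨φ, hφ, u, hu⟩ := τ.approx _ hW
  obtain ⟨r, a, b, hab⟩ := hF _ (τ.F.neg_mem (τ.F.mul_mem_left ((u⁻¹ : Rˣ) : R) _ hφ))
  have h1 : 1 + ∑ i, a i * ε * b i = (u⁻¹ : Rˣ) * W := by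
    have : W = u - φ := by rw [hu]; abel
    rw [← hab, this, mul_sub, Units.inv_mul, sub_eq_add_neg]
  obtain ⟨x, h2, e, X, Y, k1, k2, k3, k4, k5⟩ := rep_fred₀ hc hε a b (κ := κ)
    (l := (u⁻¹ : Rˣ) * l * u) (V := V * u) (by
      rw [h1]
      refine ⟨?_, ?_, ?_, ?_⟩
      · rw [mul_assoc, Units.mul_inv_cancel_left, h.1]
      · rw [mul_assoc, TR.as h.2.1, sub_mul, mul_sub, one_mul, Units.inv_mul, mul_assoc]
      · rw [mul_assoc, h.2.2.1]
      · have := h.2.2.2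
        rw [mul_sub, mul_one, sub_eq_self] at this ⊢
        simp only [mul_assoc, Units.mul_inv_cancel_left, TR.as this, zero_mul])
  refine ⟨x, h2, e, fun i => X i * (u⁻¹ : Rˣ), fun i => u * Y i, fun i => by rw [mul_assoc, k1],
    fun i => ?_, ?_, fun i j => by simp only [k4, mul_assoc, Units.inv_mul_cancel_left], k5⟩
  · beta_reduce
    conv_rhs => rw [← k2 i]
    simp only [mul_assoc, Units.mul_inv, mul_one]
  · simp only [mul_assoc, ← Finset.mul_sum]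
    simp only [← mul_assoc, ← Finset.sum_mul, k3, Units.mul_inv, one_mul, Units.mul_inv_cancel_right]

/-- `a` is an idempotent under `N` -/
def Under (N a : R) : Prop := N * a = a ∧ a * N = a ∧ a * a = a

lemma Under.orth {N M a b : R} (h : Under N a) (h' : Under M b) (o : N * M = 0) : a * b = 0 := by
  rw [← h.2.1, ← h'.1, mul_assoc, TR.as o, zero_mul, mul_zero]

lemma Under.sub {N a : R} (h : Under N a) (hN : N * N = N) : Under N (N - a) := by
  refine ⟨?_, ?_, ?_⟩ <;> simp [mul_sub, sub_mul, hN, h.1, h.2.1, h.2.2]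

lemma rep_uniq (τ : TR R) (hc : ∀ x y, c x * c y = c (x * ε * y)) (hε : ε * ε = ε)
    (hF : ∀ x ∈ τ.F, ∃ (r : ℕ) (a b : Fin r → R), x = ∑ i, a i * ε * b i)
    {N₀ N₁ N₂ e f a₁ b₁ a₂ b₂ U₁ V₁ U₂ V₂ : R} (n1 : N₁ * N₁ = N₁) (n2 : N₂ * N₂ = N₂)
    (o01 : N₀ * N₁ = 0) (o10 : N₁ * N₀ = 0) (o02 : N₀ * N₂ = 0) (o20 : N₂ * N₀ = 0)
    (o12 : N₁ * N₂ = 0) (o21 : N₂ * N₁ = 0) (he : Under N₀ e) (hf : Under N₀ f)
    (ha₁ : Under N₁ a₁) (hb₁ : Under N₁ b₁) (ha₂ : Under N₂ a₂) (hb₂ : Under N₂ b₂)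
    (m1 : N₁ ∈ τ.K) (m2 : N₂ ∈ τ.K) (h1 : V₁ * U₁ = e + a₁) (h2 : U₁ * V₁ = f + b₁)
    (h3 : V₂ * U₂ = e + a₂) (h4 : U₂ * V₂ = f + b₂) (hU : U₁ - U₂ ∈ τ.K) {α₁ β₁ α₂ β₂ : K0 A}
    (r1 : Rep ε c (N₁ - a₁) α₁) (r2 : Rep ε c (N₁ - b₁) β₁) (r3 : Rep ε c (N₂ - a₂) α₂)
    (r4 : Rep ε c (N₂ - b₂) β₂) : β₁ + α₂ = α₁ + β₂ := by
  have id : ∀ {N M a b : R}, Under N a → Under M b → N * M = 0 → M * N = 0 →
      (a + b) * (a + b) = a + b := fun h h' o o' => by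
    rw [add_mul, mul_add, mul_add, h.2.2, h'.2.2, h.orth h' o, h'.orth h o', add_zero, zero_add]
  have I1 := (IsoI.norm h1 h2 (id he ha₁ o01 o10) (id hf hb₁ o01 o10)).symm.add ha₂.2.2
    (by rw [mul_add, ha₂.orth hf o20, ha₂.orth hb₁ o21, add_zero])
    (by rw [add_mul, hf.orth ha₂ o02, hb₁.orth ha₂ o12, add_zero])
    (by rw [mul_add, ha₂.orth he o20, ha₂.orth ha₁ o21, add_zero])
    (by rw [add_mul, he.orth ha₂ o02, ha₁.orth ha₂ o12, add_zero])
  have I2 := (IsoI.norm h3 h4 (id he ha₂ o02 o20) (id hf hb₂ o02 o20)).add ha₁.2.2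
    (by rw [mul_add, ha₁.orth he o10, ha₁.orth ha₂ o12, add_zero])
    (by rw [add_mul, he.orth ha₁ o01, ha₂.orth ha₁ o21, add_zero])
    (by rw [mul_add, ha₁.orth hf o10, ha₁.orth hb₂ o12, add_zero])
    (by rw [add_mul, hf.orth ha₁ o01, hb₂.orth ha₁ o21, add_zero])
  rw [add_right_comm e] at I2
  have u1 : Under N₁ N₁ := ⟨n1, n1, n1⟩
  have u2 : Under N₂ N₂ := ⟨n2, n2, n2⟩
  have I3 := (I1.trans I2).add (a := 1 - f - N₁ - N₂)
    (by simp [mul_sub, sub_mul, hf.2.2, n1, n2, o12, o21, hf.orth u1 o01, hf.orth u2 o02,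
      u1.orth hf o10, u2.orth hf o20])
    (by simp [mul_add, sub_mul, hf.2.2, hb₁.1, ha₂.1, hf.orth hb₁ o01, hf.orth ha₂ o02,
      u1.orth hf o10, u2.orth hf o20, u1.orth ha₂ o12, u2.orth hb₁ o21])
    (by simp [mul_sub, add_mul, hf.2.2, hb₁.2.1, ha₂.2.1, hb₁.orth hf o10, ha₂.orth hf o20,
      hf.orth u1 o01, hf.orth u2 o02, ha₂.orth u1 o21, hb₁.orth u2 o12]; abel)
    (by simp [mul_add, sub_mul, hf.2.2, hb₂.1, ha₁.1, hf.orth hb₂ o02, hf.orth ha₁ o01,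
      u1.orth hf o10, u2.orth hf o20, u1.orth hb₂ o12, u2.orth ha₁ o21])
    (by simp [mul_sub, add_mul, hf.2.2, hb₂.2.1, ha₁.2.1, hb₂.orth hf o20, ha₁.orth hf o10,
      hf.orth u1 o01, hf.orth u2 o02, ha₁.orth u2 o12, hb₂.orth u1 o21]; abel)
  rw [show f + b₁ + a₂ + (1 - f - N₁ - N₂) = 1 - (N₁ - b₁ + (N₂ - a₂)) by abel,
    show f + b₂ + a₁ + (1 - f - N₁ - N₂) = 1 - (N₁ - a₁ + (N₂ - b₂)) by abel] at I3
  obtain ⟨x, x1, x2⟩ := rep_fred τ hc hε hF I3 (by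
    have z : ∀ {N a : R}, N ∈ τ.K → Under N a → RingCon.mk' τ.K.ringCon a = 0 := fun m h => by
      rw [← map_zero (RingCon.mk' τ.K.ringCon), ← TR.sub_mem_K, sub_zero, ← h.1]
      exact τ.K.mul_mem_right _ _ m
    have k1 := congrArg (RingCon.mk' τ.K.ringCon) h1
    have k2 := congrArg (RingCon.mk' τ.K.ringCon) h2
    have k3 := congrArg (RingCon.mk' τ.K.ringCon) hf.2.2
    rw [TR.sub_mem_K] at hU ⊢
    simp only [map_add, map_mul, map_sub, map_one, z m1 ha₁, z m1 hb₁, z m2 ha₂, z m2 hb₂, z m1 u1,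
      z m2 u2, add_zero, sub_zero, ← hU] at k1 k2 k3 ⊢
    simp only [← k1, mul_assoc, TR.as k2, k2, k3, add_sub_cancel])
  rw [← x1.split hc (hb₁.sub n1).2.2 (ha₂.sub n2).2.2 ((hb₁.sub n1).orth (ha₂.sub n2) o12)
      ((ha₂.sub n2).orth (hb₁.sub n1) o21) r2 r3,
    x2.split hc (ha₁.sub n1).2.2 (hb₂.sub n2).2.2 ((ha₁.sub n1).orth (hb₂.sub n2) o12)
      ((hb₂.sub n2).orth (ha₁.sub n1) o21) r1 r4]

end Vale.Agent.P089A
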