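import Vale.Agent.P089A.GlueB
import Vale.Agent.P089A.Uniq

/-! Uniqueness of the index class in `K₀`. -/

namespace Vale.Agent.P089A

open scoped ZeroAtInfty InnerProductSpace

noncomputable section

variable {G K H : Type} [Group G] [NormedAddCommGroup K] [InnerProductSpace ℂ K]
  [NormedAddCommGroup H] [InnerProductSpace ℂ H]

/-- the corner map -/
def cornerC (G : Type) [Group G] (z : K) : BG G K →+ Cr G :=
  AddMonoidHom.mk' (fun x => ⟨corner z x, corner_mem z x⟩)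
    fun x y => Subtype.ext (corner_add z x y)

lemma cornerC_mul (z : K) (x y : BG G K) :
    cornerC G z x * cornerC G z y = cornerC G z (x * eps G z * y) :=
  Subtype.ext (corner_mul z x y)

variable {n m : ℕ} {A : Fin n → ℂ →L[ℂ] K} {B : Fin n → K →L[ℂ] ℂ} {A' : Fin m → ℂ →L[ℂ] K}
  {B' : Fin m → K →L[ℂ] ℂ}

lemma emb_one : emb (G := G) A B 1 = ∑ i, lamB 1 (A i ∘L B i) := by
  refine Finset.sum_congr rfl fun i _ => ?_
  rw [Finset.sum_eq_single i]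
  · refine Subtype.ext ?_
    change sw _ _ ((1 : Matrix (Fin n) (Fin n) (Cr G)) i i).1 = _
    rw [Matrix.one_apply_eq, Subalgebra.coe_one, ← lam_one, sw_lam]; rfl
  · intro j _ hj
    refine Subtype.ext ?_
    change sw _ _ ((1 : Matrix (Fin n) (Fin n) (Cr G)) i j).1 = _
    rw [Matrix.one_apply_ne hj.symm]
    exact map_zero _
  · simp

lemma emb_sub (p q : Matrix (Fin n) (Fin n) (Cr G)) :
    emb A B (p - q) = emb A B p - emb A B q := by
  refine Subtype.ext ?_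
  simp [emb_coe]

lemma emb_orth (h : ∀ a b, B a ∘L A' b = 0) (p : Matrix (Fin n) (Fin n) (Cr G))
    (q : Matrix (Fin m) (Fin m) (Cr G)) : emb A B p * emb A' B' q = 0 := by
  refine Subtype.ext ?_
  simp only [Subalgebra.coe_mul, emb_coe, Finset.mul_sum, Finset.sum_mul]
  exact Finset.sum_eq_zero fun _ _ => Finset.sum_eq_zero fun _ _ => Finset.sum_eq_zero fun _ _ =>
    Finset.sum_eq_zero fun _ _ => sw_mul_zero _ _ _ _ (h _ _) _ _

lemma lamB_emb {T : K →L[ℂ] K} (h : ∀ a, T ∘L A a = 0) (p : Matrix (Fin n) (Fin n) (Cr G)) :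
    lamB 1 T * emb A B p = 0 := by
  refine Subtype.ext ?_
  simp only [Subalgebra.coe_mul, emb_coe, Finset.mul_sum]
  refine Finset.sum_eq_zero fun _ _ => Finset.sum_eq_zero fun _ _ => (lam_mul_sw _ _ _ _).trans ?_
  simp [h, sw_apply]

lemma emb_lamB {T : K →L[ℂ] K} (h : ∀ a, B a ∘L T = 0) (p : Matrix (Fin n) (Fin n) (Cr G)) :
    emb A B p * lamB 1 T = 0 := by
  refine Subtype.ext ?_
  simp only [Subalgebra.coe_mul, emb_coe, Finset.sum_mul]
  refine Finset.sum_eq_zero fun _ _ => Finset.sum_eq_zero fun _ _ => (sw_mul_lam _ _ _ _).trans ?_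
  simp [h, sw_apply]

lemma sw_emb (h : ∀ i j, B i ∘L A j = if i = j then 1 else 0) (r : Matrix (Fin n) (Fin n) (Cr G))
    (i j : Fin n) : sw (B i) (A j) (emb A B r).1 = (r i j).1 := by
  simp only [emb_coe, map_sum, sw_sw, h]
  rw [Finset.sum_eq_single i, Finset.sum_eq_single j, if_pos rfl, if_pos rfl, sw_apply, lam_one]
  · rfl
  · intro b _ hb
    simp [hb, sw_apply]
  · simp
  · intro a _ ha
    simp [ha.symm, sw_apply]
  · simp

lemma rep_emb {z : K} (hz : ‖z‖ = 1) (h : ∀ i j, B i ∘L A j = if i = j then 1 else 0)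
    {r : Matrix (Fin n) (Fin n) (Cr G)} (hr : r * r = r) :
    Rep (eps G z) (cornerC G z) (emb A B r) (Idem.cls ⟨n, r, hr⟩) := by
  have h1 : emb A B r * emb A B r = emb A B r := by rw [emb_mul h, hr]
  have h2 := inner_span hz
  refine ⟨⟨n, r, hr⟩, fun i => lamB 1 (ContinuousLinearMap.toSpanSingleton ℂ z ∘L B i) * emb A B r,
    fun j => emb A B r * lamB 1 (A j ∘L innerSL ℂ z), fun i => ?_, fun i => by rw [mul_assoc, h1],
    ?_, fun i j => Subtype.ext ?_, rfl⟩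
  · rw [mul_assoc, eps, lamB_mul, mul_one]
    congr 2
    ext y; simp [hz, ← map_smul]
  · have : ∀ i, lamB (1 : G) (A i ∘L innerSL ℂ z) *
        lamB 1 (ContinuousLinearMap.toSpanSingleton ℂ z ∘L B i) = lamB 1 (A i ∘L B i) := fun i => by
      rw [lamB_mul, mul_one]
      congr 1
      change A i ∘L (innerSL ℂ z ∘L ContinuousLinearMap.toSpanSingleton ℂ z) ∘L B i = _
      rw [h2]; rfl
    simp only [mul_assoc, ← Finset.mul_sum, TR.as (this _), ← Finset.sum_mul, ← emb_one, emb_mul h,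
      one_mul, hr]
  · rw [mul_assoc, TR.as h1, ← sw_emb h]
    change _ = sw (innerSL ℂ z) (ContinuousLinearMap.toSpanSingleton ℂ z)
      (sw (ContinuousLinearMap.toSpanSingleton ℂ z ∘L B i) (A j ∘L innerSL ℂ z) (emb A B r).1)
    rw [sw_sw, ← ContinuousLinearMap.comp_assoc, h2, ContinuousLinearMap.comp_assoc, h2]; rfl

lemma cls_compl {R : Type} [Ring R] {p : Matrix (Fin n) (Fin n) R} (hp : p * p = p) :
    ∃ h : (1 - p) * (1 - p) = 1 - p,
      Idem.cls ⟨n, _, h⟩ = Idem.cls ⟨n, 1, one_mul _⟩ - Idem.cls ⟨n, p, hp⟩ := by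
  have h : (1 - p) * (1 - p) = 1 - p := by simp [mul_sub, sub_mul, hp]
  exact ⟨h, eq_sub_of_add_eq (cls_add h hp _ (by simp [sub_mul, hp]) (by simp [mul_sub, hp])
    (by simp)).symm⟩

lemma uniq_common [CompleteSpace K] {z : K} (hz : ‖z‖ = 1) {I : H →L[ℂ] K} {I' : K →L[ℂ] H}
    (hI : I' ∘L I = 1) (h : ∀ i j, B i ∘L A j = if i = j then 1 else 0)
    (h' : ∀ i j, B' i ∘L A' j = if i = j then 1 else 0) (k1 : ∀ a, I' ∘L A a = 0)
    (k2 : ∀ a, B a ∘L I = 0) (k3 : ∀ a, I' ∘L A' a = 0) (k4 : ∀ a, B' a ∘L I = 0)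
    (k5 : ∀ a b, B a ∘L A' b = 0) (k6 : ∀ a b, B' a ∘L A b = 0) {P₁ P₂ : L2 G H →L[ℂ] L2 G H}
    (hP₁ : P₁ * P₁ = P₁) (hP₂ : P₂ * P₂ = P₂) {e f U V U' V' : BG G K} (he : e.1 = sw I I' P₁)
    (hf : f.1 = sw I I' P₂) {p q : Matrix (Fin n) (Fin n) (Cr G)}
    {p' q' : Matrix (Fin m) (Fin m) (Cr G)} (hp : p * p = p) (hq : q * q = q) (hp' : p' * p' = p')
    (hq' : q' * q' = q') (h1 : V * U = e + emb A B q) (h2 : U * V = f + emb A B p)
    (h3 : V' * U' = e + emb A' B' q') (h4 : U' * V' = f + emb A' B' p')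
    (hU : U - U' ∈ (ntr G z hz).K) :
    Idem.diff ⟨n, p, hp⟩ ⟨n, q, hq⟩ = Idem.diff ⟨m, p', hp'⟩ ⟨m, q', hq'⟩ := by
  have u0 : ∀ {e : BG G K} {P}, e.1 = sw I I' P → P * P = P → Under (lamB 1 (I ∘L I')) e :=
    fun he hP => by
      refine ⟨Subtype.ext ?_, Subtype.ext ?_, Subtype.ext ?_⟩ <;> rw [Subalgebra.coe_mul, he]
      · refine (lam_mul_sw _ _ _ _).trans ?_
        rw [ContinuousLinearMap.comp_assoc, hI]; rfl
      · refine (sw_mul_lam _ _ _ _).trans ?_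
        rw [← ContinuousLinearMap.comp_assoc, hI]; rfl
      · rw [sw_mul_id hI, hP]
  have u1 : ∀ {n} {A : Fin n → ℂ →L[ℂ] K} {B : Fin n → K →L[ℂ] ℂ},
      (∀ i j, B i ∘L A j = if i = j then 1 else 0) → ∀ {r : Matrix (Fin n) (Fin n) (Cr G)},
      r * r = r → Under (emb A B 1) (emb A B r) := fun h r hr =>
    ⟨by rw [emb_mul h, one_mul], by rw [emb_mul h, mul_one], by rw [emb_mul h, hr]⟩
  obtain ⟨a1, a2⟩ := cls_compl hq
  obtain ⟨b1, b2⟩ := cls_compl hp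
  obtain ⟨c1, c2⟩ := cls_compl hq'
  obtain ⟨d1, d2⟩ := cls_compl hp'
  have := rep_uniq (ntr G z hz).toTR (cornerC_mul z) (eps_idem hz) (fun x => (ntr_F x).mp)
    (u1 h (one_mul _)).1 (u1 h' (one_mul _)).1
    (lamB_emb (fun a => by rw [ContinuousLinearMap.comp_assoc, k1]; simp) _)
    (emb_lamB (fun a => by rw [← ContinuousLinearMap.comp_assoc, k2]; simp) _)
    (lamB_emb (fun a => by rw [ContinuousLinearMap.comp_assoc, k3]; simp) _)
    (emb_lamB (fun a => by rw [← ContinuousLinearMap.comp_assoc, k4]; simp) _)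
    (emb_orth k5 _ _) (emb_orth k6 _ _) (u0 he hP₁) (u0 hf hP₂) (u1 h hq) (u1 h hp) (u1 h' hq')
    (u1 h' hp') ((ntr G z hz).le _ (emb_mem _)) ((ntr G z hz).le _ (emb_mem _)) h1 h2 h3 h4 hU
    (by rw [← emb_sub]; exact rep_emb hz h a1) (by rw [← emb_sub]; exact rep_emb hz h b1)
    (by rw [← emb_sub]; exact rep_emb hz h' c1) (by rw [← emb_sub]; exact rep_emb hz h' d1)
  rw [a2, b2, c2, d2] at this
  rw [Idem.diff, Idem.diff]
  linear_combination (norm := abel_nf) -this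

lemma via_transport [CompleteSpace K] {z : K} (hz : ‖z‖ = 1) {H' : Type} [NormedAddCommGroup H']
    [InnerProductSpace ℂ H'] {i : H →L[ℂ] H'} {i' : H' →L[ℂ] H} {j : Fin n → ℂ →L[ℂ] H'}
    {j' : Fin n → H' →L[ℂ] ℂ} {α : H' →L[ℂ] K} {β : K →L[ℂ] H'} (hαβ : β ∘L α = 1)
    {I : H →L[ℂ] K} {I' : K →L[ℂ] H} (e1 : α ∘L i = I) (e2 : i' ∘L β = I')
    (e3 : ∀ a, α ∘L j a = A a) (e4 : ∀ a, j' a ∘L β = B a) {P₁ P₂ F : L2 G H →L[ℂ] L2 G H}
    (m1 : P₁ ∈ BG G H) (m2 : P₂ ∈ BG G H) (m3 : F ∈ BG G H) {x : K0 (Cr G)}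
    (hx : St.IndexVia (Cr G) (Kc G H') (lam (1 : G) i) (lam (1 : G) i') (fun a => lam (1 : G) (j a))
      (fun a => lam (1 : G) (j' a)) P₁ P₂ F x) :
    ∃ (p q : Matrix (Fin n) (Fin n) (Cr G)) (hp : p * p = p) (hq : q * q = q) (U V : BG G K),
      V * U = ⟨_, sw_BG I I' m1⟩ + emb A B q ∧ U * V = ⟨_, sw_BG I I' m2⟩ + emb A B p ∧
      U - ⟨_, sw_BG I I' (mul_mem (mul_mem m2 m3) m1)⟩ ∈ (ntr G z hz).K ∧
      x = Idem.diff ⟨n, p, hp⟩ ⟨n, q, hq⟩ := by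
  obtain ⟨p, q, hp, hq, u, v, hu, hv, h1, h2⟩ := hx
  have mU : ∀ {T y}, T ∈ BG G H → y - sw i i' T ∈ Kc G H' → sw α β y ∈ BG G K := fun h h' =>
    sw_BG _ _ (by simpa using add_mem (Kc_le_BG h') (sw_BG i i' h))
  have k : ∀ {u v : L2 G H' →L[ℂ] L2 G H'} {P : L2 G H →L[ℂ] L2 G H}
      {r : Matrix (Fin n) (Fin n) (Cr G)}, u * v = sw i i' P + ∑ a, ∑ b, sw (j a) (j' b) (r a b) →
      sw α β u * sw α β v = sw I I' P + emb A B r := fun a3 => by
    rw [sw_mul_id hαβ, a3]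
    simp only [map_add, map_sum, sw_sw, emb_coe, e1, e2, e3, e4]
  refine ⟨p, q, hp, hq, ⟨_, mU (mul_mem (mul_mem m2 m3) m1) hu⟩,
    ⟨_, mU (mul_mem (mul_mem m1 m3) m2) hv⟩, Subtype.ext (k h1), Subtype.ext (k h2), ?_, rfl⟩
  have := sw_Kc α β hu
  rw [map_sub, ← sw_apply, sw_sw, e1, e2] at this
  exact (ntr_K _).mpr this

lemma FredMod.P_facts {X : Type} [TopologicalSpace X] [T2Space X] [LocallyCompactSpace X]
    [MulAction G X] [ContinuousConstSMul G X] [ProperlyDiscontinuousSMul G X] [CompleteSpace H]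
    (Z : FredMod G X H) {c : C₀(X, ℂ)} (hc : IsCutoff G c) :
    Z.Pp c * Z.Pp c = Z.Pp c ∧ Z.Pm c * Z.Pm c = Z.Pm c ∧ Z.Pp c ∈ BG G H ∧ Z.Pm c ∈ BG G H := by
  have hj : prH H 1 ∘L inH H 1 = 1 := prH_inH
  obtain ⟨t, ht⟩ := TR.J.exists ((Z.wc _ _ hj).P_idem hc (γ := id) fun _ _ _ => rfl)
    ((Z.wc _ _ hj).PL_P (z := zv H) (hz := norm_zv) hc id)
  have k : ∀ {a : BG G (Stab H 1)} {P}, a.1 = sw (inH H 1) (prH H 1) P → a * a = a →
      P * P = P ∧ P ∈ BG G H := fun {a P} h h' => by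
    have h1 : ∀ Q : L2 G H →L[ℂ] L2 G H,
        sw (prH H 1) (inH H 1) (sw (inH H 1) (prH H 1) Q) = Q := fun Q => by
      rw [sw_sw, hj, sw_apply, lam_one]; rfl
    refine ⟨?_, h1 P ▸ h ▸ sw_BG _ _ a.2⟩
    rw [← h1 (P * P), ← sw_mul_id hj, ← h, ← Subalgebra.coe_mul, h', h, h1]
  obtain ⟨a1, a2⟩ := k (Z.wc_p hj hc ((1 / 2 : ℂ) • (1 + Z.γ))) ht.1
  obtain ⟨b1, b2⟩ := k (Z.wc_p hj hc ((1 / 2 : ℂ) • (1 - Z.γ))) ht.2.1
  exact ⟨a1, b1, a2, b2⟩

theorem indexVia_unique {H₁ H₂ : Type} [NormedAddCommGroup H₁] [InnerProductSpace ℂ H₁]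
    [CompleteSpace H₁] [NormedAddCommGroup H₂] [InnerProductSpace ℂ H₂]
    {i : H →L[ℂ] H₁} {i' : H₁ →L[ℂ] H} {j : Fin n → ℂ →L[ℂ] H₁} {j' : Fin n → H₁ →L[ℂ] ℂ}
    (hs : St.IsSum i i' j j') {k : H →L[ℂ] H₂} {k' : H₂ →L[ℂ] H} {l : Fin m → ℂ →L[ℂ] H₂}
    {l' : Fin m → H₂ →L[ℂ] ℂ} (ht : St.IsSum k k' l l') {P₁ P₂ F : L2 G H →L[ℂ] L2 G H}
    (hP₁ : P₁ * P₁ = P₁) (hP₂ : P₂ * P₂ = P₂) (m1 : P₁ ∈ BG G H) (m2 : P₂ ∈ BG G H)
    (m3 : F ∈ BG G H) {x y : K0 (Cr G)}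
    (hx : St.IndexVia (Cr G) (Kc G H₁) (lam (1 : G) i) (lam (1 : G) i') (fun a => lam (1 : G) (j a))
      (fun a => lam (1 : G) (j' a)) P₁ P₂ F x)
    (hy : St.IndexVia (Cr G) (Kc G H₂) (lam (1 : G) k) (lam (1 : G) k') (fun a => lam (1 : G) (l a))
      (fun a => lam (1 : G) (l' a)) P₁ P₂ F y) : x = y := by
  let J := inH (Stab H₁ m) 1
  let J' := prH (Stab H₁ m) 1
  let α := J ∘L inH H₁ m
  let β := prH H₁ m ∘L J'
  have hαβ : β ∘L α = 1 := by rw [prH_inH', prH_inH]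
  let A' := fun a : Fin m => J ∘L inC H₁ a
  let B' := fun a : Fin m => prC H₁ a ∘L J'
  have c1 : ∀ a, β ∘L A' a = 0 := fun a => by rw [prH_inH', prH_inC]
  have c2 : ∀ a, B' a ∘L α = 0 := fun a => by rw [prH_inH', prC_inH]
  have c3 : ∀ a b, B' a ∘L A' b = if a = b then 1 else 0 := fun a b => by rw [prH_inH', prC_inC]
  have p1 := fun x => DFunLike.congr_fun hαβ x
  have p2 := fun a x => DFunLike.congr_fun (c1 a) x
  have p3 := fun a x => DFunLike.congr_fun (c2 a) x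
  have p4 := fun a b x => DFunLike.congr_fun (c3 a b) x
  have q1 := fun x => DFunLike.congr_fun hs.ii x
  have q2 := fun a x => DFunLike.congr_fun (hs.ij a) x
  have q3 := fun a x => DFunLike.congr_fun (hs.ji a) x
  have q4 := fun a b x => DFunLike.congr_fun (hs.jj a b) x
  have r1 := fun x => DFunLike.congr_fun ht.ii x
  have r2 := fun a x => DFunLike.congr_fun (ht.ij a) x
  have r3 := fun a x => DFunLike.congr_fun (ht.ji a) x
  have r4 := fun a b x => DFunLike.congr_fun (ht.jj a b) x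
  have r5 := fun x => DFunLike.congr_fun ht.total x
  clear_value α β A' B'
  simp only [ContinuousLinearMap.comp_apply, one_apply_eq_self, zero_apply, add_apply,
    FunLike.coe_sum, Finset.sum_apply, DFunLike.ite_apply] at p1 p2 p3 p4 q1 q2 q3 q4 r1 r2 r3 r4 r5
  obtain ⟨p, q, hp, hq, U, V, a1, a2, a3, rfl⟩ := via_transport (norm_zv (H := Stab H₁ m)) hαβ
    rfl rfl (fun _ => rfl) (fun _ => rfl) m1 m2 m3 hx
  obtain ⟨p', q', hp', hq', U', V', b1, b2, b3, rfl⟩ := via_transport (norm_zv (H := Stab H₁ m))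
    (α := α ∘L i ∘L k' + ∑ a, A' a ∘L l' a) (β := k ∘L i' ∘L β + ∑ a, l a ∘L B' a)
    (I := α ∘L i) (I' := i' ∘L β) (A := A') (B := B')
    (by ext1 x; simp [p1, p2, p3, p4, q1, apply_ite, r5])
    (by ext1 x; simp [r1, r3]) (by ext1 x; simp [r1, r2])
    (fun a => by ext1; simp [r2, r4, apply_ite]) (fun a => by ext1 x; simp [r3, r4]) m1 m2 m3 hy
  refine uniq_common norm_zv (I := α ∘L i) (I' := i' ∘L β) (by ext1 x; simp [p1, q1])
    (fun a b => ?_) c3 (fun a => by ext1; simp [p1, q2]) (fun a => by ext1; simp [p1, q3])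
    (fun a => by ext1; simp [p2]) (fun a => by ext1; simp [p3]) (fun a b => by ext1; simp [p2])
    (fun a b => by ext1; simp [p3]) hP₁ hP₂ rfl rfl hp hq hp' hq' a1 a2 b1 b2 ?_
  · rw [← hs.jj]; ext1; simp [p1]
  · simpa using TwoSidedIdeal.sub_mem _ a3 b3

end

end Vale.Agent.P089A
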