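import Vale.Agent.P089A.Stmt

/-! Cycles for the left hand side of the Baum-Connes assembly map. -/

namespace Vale.Agent.P089A.St

/-- A cycle for `K₀^G` with `G`-compact supports: a proper locally compact Hausdorff `G`-space
with a cutoff function (so the space is `G`-compact), and an even equivariant Fredholm module
over it. -/
structure KCycle (G : Type) [Group G] where
  X : Type
  [top : TopologicalSpace X]
  [t2 : T2Space X]
  [lc : LocallyCompactSpace X]
  [act : MulAction G X]
  [cont : ContinuousConstSMul G X]
  [prop : ProperlyDiscontinuousSMul G X]
  H : Hilb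
  Z : FredMod G X H.car
  c : ZeroAtInftyContinuousMap X ℂ
  cut : IsCutoff G c

/-- `x` is the analytic index of the cycle `z`. -/
def KCycle.HasIndex {G : Type} [Group G] (z : KCycle G) (x : K0Cr G) : Prop :=
  @Assembles G _ z.X z.top z.act z.H z.Z z.c x

end Vale.Agent.P089A.St
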