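import Vale.Agent.P089A.Final
import Vale.Agent.P089A.GlueC
import Vale.Agent.P089A.Stmt2

/-! The assembly map on cycles is a well defined function. -/

namespace Vale.Agent.P089A.St

open scoped ZeroAtInfty

variable {G : Type} [Group G]

theorem assembles_unique {X : Type} [TopologicalSpace X] [MulAction G X] {H : Hilb} [T2Space X]
    [LocallyCompactSpace X] [ContinuousConstSMul G X] [ProperlyDiscontinuousSMul G X]
    (Z : FredMod G X H.car) {c : C₀(X, ℂ)} (hc : IsCutoff G c) {x y : K0Cr G}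
    (hx : Assembles Z c x) (hy : Assembles Z c y) : x = y := by
  obtain ⟨n, H₁, i, i', j, j', hs, hx⟩ := hx
  obtain ⟨m, H₂, k, k', l, l', ht, hy⟩ := hy
  rw [Pp_eq, Pm_eq, Kc_eq] at hx hy
  simp only [lam_eq] at hx hy
  obtain ⟨h1, h2, h3, h4⟩ := Z.P_facts hc
  have key : ∀ A : OpAlg (L2 G ℂ), A = P089A.Cr G → ∀ x y : K0 A,
      IndexVia A (P089A.Kc G H₁.car) (P089A.lam (1 : G) i) (P089A.lam (1 : G) i')
        (fun a => P089A.lam (1 : G) (j a)) (fun a => P089A.lam (1 : G) (j' a)) (Z.Pp c) (Z.Pm c)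
        (P089A.lam (1 : G) Z.F) x →
      IndexVia A (P089A.Kc G H₂.car) (P089A.lam (1 : G) k) (P089A.lam (1 : G) k')
        (fun a => P089A.lam (1 : G) (l a)) (fun a => P089A.lam (1 : G) (l' a)) (Z.Pp c) (Z.Pm c)
        (P089A.lam (1 : G) Z.F) y → x = y := by
    rintro _ rfl x y hx hy
    exact indexVia_unique hs ht h1 h2 h3 h4 (lamB 1 Z.F).2 hx hy
  exact key (Cr G) Cr_eq x y hx hy

theorem exists_mu (G : Type) [Group G] : ∃ μ : KCycle G → K0Cr G,
    (∀ z x, z.HasIndex x ↔ μ z = x) ∧ Set.range μ ⊆ assemblyRange G := by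
  have h : ∀ z : KCycle G, ∃ x, ∀ y, z.HasIndex y ↔ x = y := by
    rintro @⟨X, _, _, _, _, _, _, H, Z, c, hc⟩
    obtain ⟨x, hx⟩ := exists_assembles Z hc
    exact ⟨x, fun y => ⟨assembles_unique Z hc hx, fun h => h ▸ hx⟩⟩
  choose μ hμ using h
  refine ⟨μ, hμ, ?_⟩
  rintro _ ⟨z, rfl⟩
  exact ⟨z.X, z.top, z.t2, z.lc, z.act, z.cont, z.prop, z.H, z.Z, z.c, z.cut, (hμ z _).mpr rfl⟩

end Vale.Agent.P089A.St
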