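import Vale.Agent.P089A.Koszul
import Vale.Agent.P089A.Datum

/-! From the statement level definitions to weak cycles. -/

namespace Vale.Agent.P089A

open scoped ZeroAtInfty InnerProductSpace

noncomputable section

section sw

variable {G : Type} [Group G] {K L M : Type} [NormedAddCommGroup K] [InnerProductSpace ℂ K]
  [NormedAddCommGroup L] [InnerProductSpace ℂ L] [NormedAddCommGroup M] [InnerProductSpace ℂ M]

lemma lam_comp₁ (T : L →L[ℂ] M) (T' : K →L[ℂ] L) :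
    lam (1 : G) T ∘L lam (1 : G) T' = lam (1 : G) (T ∘L T') := by
  rw [lam_comp, mul_one]

/-- the sandwich `x ↦ (1 ⊗ A) x (1 ⊗ B)` -/
def sw (A : K →L[ℂ] L) (B : L →L[ℂ] K) : (L2 G K →L[ℂ] L2 G K) →ₗ[ℂ] (L2 G L →L[ℂ] L2 G L) where
  toFun x := lam (1 : G) A ∘L x ∘L lam (1 : G) B
  map_add' x y := by simp [ContinuousLinearMap.add_comp]
  map_smul' c x := by simp [ContinuousLinearMap.smul_comp]

lemma sw_apply (A : K →L[ℂ] L) (B : L →L[ℂ] K) (x : L2 G K →L[ℂ] L2 G K) :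
    sw A B x = lam (1 : G) A ∘L x ∘L lam (1 : G) B := rfl

lemma sw_continuous (A : K →L[ℂ] L) (B : L →L[ℂ] K) : Continuous (sw (G := G) A B) :=
  continuous_const.clm_comp (continuous_id.clm_comp continuous_const)

lemma sw_lam (A : K →L[ℂ] L) (B : L →L[ℂ] K) (g : G) (T : K →L[ℂ] K) :
    sw A B (lam g T) = lam g (A ∘L T ∘L B) := by
  rw [sw_apply, lam_comp, lam_comp, one_mul, mul_one]

lemma sw_sw (A : K →L[ℂ] L) (B : L →L[ℂ] K) (A' : M →L[ℂ] K) (B' : K →L[ℂ] M)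
    (x : L2 G M →L[ℂ] L2 G M) : sw A B (sw A' B' x) = sw (A ∘L A') (B' ∘L B) x := by
  rw [sw_apply (A ∘L A'), ← lam_comp₁, ← lam_comp₁]; rfl

lemma sw_mul (A A' : K →L[ℂ] L) (B B' : L →L[ℂ] K) (x y : L2 G K →L[ℂ] L2 G K) :
    sw A B x * sw A' B' y = sw A B' (x * lam (1 : G) (B ∘L A') * y) := by
  rw [← lam_comp₁]; rfl

lemma sw_mul_zero (A : K →L[ℂ] L) (B : L →L[ℂ] K) (A' : M →L[ℂ] L) (B' : L →L[ℂ] M)
    (h : B ∘L A' = 0) (x : L2 G K →L[ℂ] L2 G K) (y : L2 G M →L[ℂ] L2 G M) :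
    sw A B x * sw A' B' y = 0 := by
  have := lam_comp₁ (G := G) B A'
  rw [h, lam_zero] at this
  change lam 1 A ∘L x ∘L (lam 1 B ∘L lam 1 A') ∘L y ∘L lam 1 B' = 0
  simp [this]

lemma sw_mul_id {A : K →L[ℂ] L} {B : L →L[ℂ] K} (h : B ∘L A = 1) (A' : K →L[ℂ] L)
    (B' : L →L[ℂ] K) (x y : L2 G K →L[ℂ] L2 G K) :
    sw A' B x * sw A B' y = sw A' B' (x * y) := by
  rw [sw_mul, h, lam_one, mul_one]

lemma sw_mul_lam (A : K →L[ℂ] L) (B : L →L[ℂ] K) (T : L →L[ℂ] L) (x : L2 G K →L[ℂ] L2 G K) :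
    sw A B x * lam (1 : G) T = sw A (B ∘L T) x := by
  rw [sw_apply A (B ∘L T), ← lam_comp₁]; rfl

lemma lam_mul_sw (A : K →L[ℂ] L) (B : L →L[ℂ] K) (T : L →L[ℂ] L) (x : L2 G K →L[ℂ] L2 G K) :
    lam (1 : G) T * sw A B x = sw (T ∘L A) B x := by
  rw [sw_apply (T ∘L A), ← lam_comp₁]; rfl

lemma sw_Kc (A : K →L[ℂ] L) (B : L →L[ℂ] K) {x : L2 G K →L[ℂ] L2 G K} (hx : x ∈ Kc G K) :
    sw A B x ∈ Kc G L := by
  refine map_mem_closure (sw_continuous A B) hx fun y hy => ?_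
  refine (Submodule.span_le (p := Submodule.comap (sw A B) (Submodule.span ℂ _))).mpr ?_ hy
  rintro _ ⟨g, k, hk, rfl⟩
  exact Submodule.subset_span ⟨g, _, (hk.comp_clm B).clm_comp A, sw_lam A B g k⟩

omit [Group G] in
lemma mem_closure_span {S : Set (L2 G K →L[ℂ] L2 G K)} (h1 : 1 ∈ S)
    (h2 : ∀ a ∈ S, ∀ b ∈ S, a * b ∈ S) {x : L2 G K →L[ℂ] L2 G K}
    (hx : x ∈ (Algebra.adjoin ℂ S).topologicalClosure) :
    x ∈ closure (Submodule.span ℂ S : Set (L2 G K →L[ℂ] L2 G K)) := by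
  rw [← Algebra.adjoin_eq_span_of_subset ℂ (fun y hy => Submodule.subset_span ?_)]
  · exact hx
  · induction hy using Submonoid.closure_induction with
    | mem y hy => exact hy
    | one => exact h1
    | mul a b _ _ ha hb => exact h2 a ha b hb

lemma BG_closure {x : L2 G K →L[ℂ] L2 G K} (hx : x ∈ BG G K) : x ∈ closure
    (Submodule.span ℂ {a | ∃ (g : G) (T : K →L[ℂ] K), a = lam g T} : Set (L2 G K →L[ℂ] L2 G K)) :=
  mem_closure_span (S := {a | ∃ (g : G) (T : K →L[ℂ] K), a = lam g T}) ⟨1, 1, lam_one.symm⟩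
    (by rintro _ ⟨g, T, rfl⟩ _ ⟨g', T', rfl⟩; exact ⟨_, _, lam_mul _ _ _ _⟩) hx

lemma sw_BG (A : K →L[ℂ] L) (B : L →L[ℂ] K) {x : L2 G K →L[ℂ] L2 G K} (hx : x ∈ BG G K) :
    sw A B x ∈ BG G L := by
  refine map_mem_closure (sw_continuous A B) (BG_closure hx) fun y hy => ?_
  refine (Submodule.span_le
    (p := Submodule.comap (sw A B) (Subalgebra.toSubmodule (Algebra.adjoin ℂ _)))).mpr ?_ hy
  rintro _ ⟨g, k, rfl⟩
  exact Algebra.subset_adjoin ⟨g, _, sw_lam A B g k⟩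

lemma Cr_BG {x : L2 G ℂ →L[ℂ] L2 G ℂ} : x ∈ Cr G ↔ x ∈ BG G ℂ := by
  refine ⟨fun h => closure_mono (Algebra.adjoin_mono ?_) h, fun h => closure_mono ?_ (BG_closure h)⟩
  · rintro _ ⟨g, rfl⟩
    exact ⟨g, _, rfl⟩
  · refine (Submodule.span_le (p := Subalgebra.toSubmodule (Algebra.adjoin ℂ _))).mpr ?_
    rintro _ ⟨g, T, rfl⟩
    have : T = T 1 • ContinuousLinearMap.id ℂ ℂ := by ext; simp
    rw [this, lam_smul]
    exact Subalgebra.smul_mem _ (Algebra.subset_adjoin (Set.mem_range_self g)) _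

variable {H : Type} [NormedAddCommGroup H] [InnerProductSpace ℂ H] {n : ℕ}

lemma prH_inH : prH H n ∘L inH H n = 1 := by ext; simp [prH, inH]

lemma prC_inH (i : Fin n) : prC H i ∘L inH H n = 0 := by ext; simp [prC, inH]

lemma prH_inC (i : Fin n) : prH H n ∘L inC H i = 0 := by ext; simp [prH, inC]

lemma prC_inC (i j : Fin n) : prC H i ∘L inC H j = if i = j then 1 else 0 := by
  ext; split_ifs with h <;> simp [prC, inC, h]

lemma block_eq (T : L2 G H →L[ℂ] L2 G H) (p : Matrix (Fin n) (Fin n) (Cr G)) : block T p =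
    sw (inH H n) (prH H n) T + ∑ i, ∑ j, sw (inC H i) (prC H j) (p i j) := rfl

/-- the unit vector of the stabilising line -/
def zv (H : Type) [NormedAddCommGroup H] [InnerProductSpace ℂ H] : Stab H 1 := inC H 0 1

lemma norm_zv : ‖zv H‖ = 1 := by
  simp [zv, inC]

lemma inner_span {z : K} (hz : ‖z‖ = 1) :
    innerSL ℂ z ∘L ContinuousLinearMap.toSpanSingleton ℂ z = 1 := by
  ext; simp [hz]

end sw

variable {G X H K : Type} [Group G] [TopologicalSpace X] [MulAction G X] [ContinuousConstSMul G X]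
  [NormedAddCommGroup H] [InnerProductSpace ℂ H] [CompleteSpace H]
  [NormedAddCommGroup K] [InnerProductSpace ℂ K]

omit [CompleteSpace H] in
lemma conj_mul {j : H →L[ℂ] K} {j' : K →L[ℂ] H} (h : j' ∘L j = 1) (a b : H →L[ℂ] H) :
    (j ∘L a ∘L j') * (j ∘L b ∘L j') = j ∘L (a * b) ∘L j' := by
  change j ∘L a ∘L (j' ∘L j) ∘L b ∘L j' = _
  rw [h]; rfl

/-- the weak cycle of a Fredholm module, transported along a split injection -/
def FredMod.wc (Z : FredMod G X H) (j : H →L[ℂ] K) (j' : K →L[ℂ] H) (h : j' ∘L j = 1) :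
    WC G X K where
  θ g := AddMonoidHom.mk' (fun f => j ∘L (Z.π f * (Z.U g : H →L[ℂ] H)) ∘L j') fun f f' => by
    simp [add_mul, ContinuousLinearMap.add_comp]
  mul g g' f f' f'' hf := by
    have h1 : f'' = f * tl g f' := by ext x; exact hf x
    simp only [AddMonoidHom.mk'_apply, conj_mul h, h1, map_mul, Submonoid.coe_mul, mul_assoc]
    rw [← mul_assoc (Z.U g : H →L[ℂ] H), Z.covariant g f' (tl g f') fun _ => rfl, mul_assoc]
  gr :=
    { F := j ∘L Z.F ∘L j'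
      γp := j ∘L ((1 / 2 : ℂ) • (1 + Z.γ)) ∘L j'
      γm := j ∘L ((1 / 2 : ℂ) • (1 - Z.γ)) ∘L j'
      γp_idem := by
        rw [conj_mul h]
        congr 2
        simp only [smul_mul_smul_comm, mul_add, add_mul, Z.γ_sq, mul_one, one_mul]
        module
      γm_idem := by
        rw [conj_mul h]
        congr 2
        simp only [smul_mul_smul_comm, mul_sub, sub_mul, Z.γ_sq, mul_one, one_mul]
        module
      odd₁ := by
        rw [conj_mul h, conj_mul h]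
        simp only [smul_mul_assoc, mul_smul_comm, mul_add, sub_mul, Z.F_odd, mul_one, one_mul,
          sub_neg_eq_add]
      odd₂ := by
        rw [conj_mul h, conj_mul h]
        simp only [smul_mul_assoc, mul_smul_comm, mul_add, mul_neg, add_mul, Z.F_odd, mul_one,
          one_mul, sub_eq_add_neg] }
  c_comm g f := by
    have h3 : star (Z.U g : H →L[ℂ] H) * Z.U g = 1 := (Z.U g).2.1
    simp only [AddMonoidHom.mk'_apply, conj_mul h]
    have h4 : j ∘L (Z.π f * (Z.U g : H →L[ℂ] H) * Z.F) ∘L j' -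
        j ∘L (Z.F * (Z.π f * (Z.U g : H →L[ℂ] H))) ∘L j' =
        j ∘L (((Z.π f * Z.F - Z.F * Z.π f) + Z.π f * ((Z.U g : H →L[ℂ] H) * Z.F *
          star (Z.U g : H →L[ℂ] H) - Z.F)) * (Z.U g : H →L[ℂ] H)) ∘L j' := by
      rw [← ContinuousLinearMap.comp_sub, ← ContinuousLinearMap.sub_comp]
      simp only [mul_sub, sub_mul, add_mul, mul_assoc, h3, mul_one]
      congr 2
      abel
    rw [h4]
    exact ((((Z.c_comm f).add (Z.c_inv g f)).comp_clm (Z.U g : H →L[ℂ] H)).comp_clm j').clm_comp j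
  c_sq g f := by
    have h4 : (j ∘L (Z.π f * (Z.U g : H →L[ℂ] H)) ∘L j') *
        ((j ∘L Z.F ∘L j') * (j ∘L Z.F ∘L j') - 1) =
        j ∘L ((Z.U g : H →L[ℂ] H) * (Z.π (tl g⁻¹ f) * (Z.F * Z.F - 1))) ∘L j' := by
      rw [← mul_assoc (Z.U g : H →L[ℂ] H), Z.covariant g (tl g⁻¹ f) f fun _ => by simp, mul_sub,
        mul_sub, conj_mul h, conj_mul h, mul_one, mul_one, ContinuousLinearMap.sub_comp,
        ContinuousLinearMap.comp_sub]
    rw [AddMonoidHom.mk'_apply, h4]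
    exact (((Z.c_sq _).clm_comp (Z.U g : H →L[ℂ] H)).comp_clm j').clm_comp j
  γp_comm g f := by
    simp only [AddMonoidHom.mk'_apply, conj_mul h, smul_mul_assoc, mul_smul_comm, mul_add, add_mul,
      mul_one, one_mul, ← mul_assoc, Z.π_even]
    simp only [mul_assoc, Z.U_even]
  γm_comm g f := by
    simp only [AddMonoidHom.mk'_apply, conj_mul h, smul_mul_assoc, mul_smul_comm, mul_sub, sub_mul,
      mul_one, one_mul, ← mul_assoc, Z.π_even]
    simp only [mul_assoc, Z.U_even]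

variable [ProperlyDiscontinuousSMul G X]

lemma FredMod.wc_P (Z : FredMod G X H) {j : H →L[ℂ] K} {j' : K →L[ℂ] H} (h : j' ∘L j = 1)
    {c : C₀(X, ℂ)} (hc : IsCutoff G c) :
    (((Z.wc j j' h).P c id : BG G K) : L2 G K →L[ℂ] L2 G K) = sw j j' (Z.proj c) := by
  have h1 : ∀ k : G, Z.π c * Z.U k * Z.π c = Z.π (c * tl k c) * Z.U k := fun k => by
    rw [mul_assoc, Z.covariant k c (tl k c) fun _ => rfl, map_mul, mul_assoc]
  rw [WC.P_eq _ hc, FredMod.proj, finsum_eq_sum_of_support_subset (s := (finite_Ov hc).toFinset),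
    map_sum, AddSubmonoidClass.coe_finsetSum]
  · exact Finset.sum_congr rfl fun k _ => by rw [sw_lam, h1]; rfl
  · intro k hk
    by_contra h2
    rw [Set.Finite.coe_toFinset] at h2
    exact hk (by simp [h1, mul_tl_eq_zero h2])

lemma FredMod.wc_p (Z : FredMod G X H) {j : H →L[ℂ] K} {j' : K →L[ℂ] H} (h : j' ∘L j = 1)
    {c : C₀(X, ℂ)} (hc : IsCutoff G c) (T : H →L[ℂ] H) :
    (((Z.wc j j' h).P c id * lamB 1 (j ∘L T ∘L j') : BG G K) : L2 G K →L[ℂ] L2 G K) =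
      sw j j' (Z.proj c * lam (1 : G) T) := by
  rw [← sw_mul_id h, sw_lam, ← Z.wc_P h hc]; rfl

lemma FredMod.wc_T (Z : FredMod G X H) {j : H →L[ℂ] K} {j' : K →L[ℂ] H} (h : j' ∘L j = 1)
    {c : C₀(X, ℂ)} (hc : IsCutoff G c) (T T' : H →L[ℂ] H) :
    (((Z.wc j j' h).P c id * lamB 1 (j ∘L T ∘L j') * lamB 1 (j ∘L Z.F ∘L j') *
      ((Z.wc j j' h).P c id * lamB 1 (j ∘L T' ∘L j')) : BG G K) : L2 G K →L[ℂ] L2 G K) =
      sw j j' (Z.proj c * lam (1 : G) T * lam (1 : G) Z.F * (Z.proj c * lam (1 : G) T')) := by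
  rw [← sw_mul_id h, ← sw_mul_id h, ← Z.wc_p h hc, ← Z.wc_p h hc, sw_lam]; rfl

end

end Vale.Agent.P089A
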