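import Vale.Agent.P089A.Glue

/-! Traces of assembled classes lie in the countable set `traceSet`. -/

namespace Vale.Agent.P089A

open scoped ZeroAtInfty InnerProductSpace

noncomputable section

lemma TR.Ind.stab {R : Type} [Ring R] {τ : TR R} {e f T U V p q : R} {t : ℂ} (h : τ.Ind e f T t)
    (hp : p * p = p) (hq : q * q = q) (hp' : p ∈ τ.F) (hq' : q ∈ τ.F) (o1 : e * q = 0)
    (o2 : q * e = 0) (o3 : f * p = 0) (o4 : p * f = 0) (hU : U - T ∈ τ.K) (h1 : V * U = e + q)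
    (h2 : U * V = f + p) : t = τ.tr p - τ.tr q := by
  have k := h.add (TR.Ind.zero hq hp hq' hp') o1 o2 o3 o4
  have a1 : (f + p) * ((f + p) * U) = (f + p) * U := by rw [← mul_assoc, k.2.1]
  have a0 : (f + p) * U = U * (e + q) := by rw [← h1, ← h2, mul_assoc]
  have a2 : (f + p) * U * (e + q) = (f + p) * U := by rw [a0, mul_assoc, k.1]
  have a3 : (f + p) * U - (T + 0) ∈ τ.K := by
    have : (f + p) * U - (T + 0) = f * (U - T) + p * U := by
      rw [mul_sub, h.2.2.1, add_mul]; abel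
    rw [this]
    exact τ.K.add_mem (τ.K.mul_mem_left _ _ hU) (τ.K.mul_mem_right _ _ (τ.le _ hp'))
  have := (k.congrK a1 a2 a3).unique (TR.Ind.of_inv (S := V) k.1 k.2.1 a1 a2
    (by rw [a0, ← mul_assoc, h1, k.1]) (by rw [mul_assoc, h2, k.2.1]))
  linear_combination this

variable {G K : Type} [Group G] [NormedAddCommGroup K] [InnerProductSpace ℂ K]

/-- an element of `C*_r(G)` placed in a rank one corner -/
def swB (A : ℂ →L[ℂ] K) (B : K →L[ℂ] ℂ) (x : Cr G) : BG G K :=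
  ⟨sw A B x, sw_BG A B (Cr_BG.mp x.2)⟩

lemma swB_eq {z : K} (hz : ‖z‖ = 1) (A : ℂ →L[ℂ] K) (B : K →L[ℂ] ℂ) (x : Cr G) :
    swB A B x = swB A (innerSL ℂ z) x * eps G z *
      lamB 1 (ContinuousLinearMap.toSpanSingleton ℂ z ∘L B) := by
  refine Subtype.ext ?_
  change sw A B _ = sw A _ _ * lam 1 _ * lam 1 _
  rw [sw_mul_lam, sw_mul_lam]
  congr 2
  ext y; simp [hz]

variable [CompleteSpace K] {z : K} {hz : ‖z‖ = 1}

lemma swB_mem (A : ℂ →L[ℂ] K) (B : K →L[ℂ] ℂ) (x : Cr G) : swB A B x ∈ (ntr G z hz).F :=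
  (ntr_F _).mpr ⟨1, fun _ => _, fun _ => _, by rw [Fin.sum_univ_one]; exact swB_eq hz A B x⟩

lemma swB_tr (A : ℂ →L[ℂ] K) (B : K →L[ℂ] ℂ) (x : Cr G) :
    (ntr G z hz).tr (swB A B x) = B (A 1) * trace x := by
  classical
  rw [swB_eq hz, ntr_tr]
  have h1 : lam (1 : G) (innerSL ℂ z) (lp.single 2 (1 : G) z) = lp.single 2 (1 : G) (1 : ℂ) := by
    ext h
    by_cases h' : h = 1 <;> simp [h', hz]
  have h2 : ∀ y : ℂ, A y = y • A 1 := fun y => by rw [← map_smul, smul_eq_mul, mul_one]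
  change ⟪z, lam 1 _ (lam 1 A (x.1 (lam 1 _ _))) 1⟫_ℂ = _
  rw [h1]
  simp only [lam_apply, inv_one, mul_one]
  rw [h2]
  simp [hz, trace, mul_comm]

/-- a matrix over `C*_r(G)` placed in a corner -/
def emb {n : ℕ} (A : Fin n → ℂ →L[ℂ] K) (B : Fin n → K →L[ℂ] ℂ)
    (p : Matrix (Fin n) (Fin n) (Cr G)) : BG G K := ∑ i, ∑ j, swB (A i) (B j) (p i j)

variable {n : ℕ} {A : Fin n → ℂ →L[ℂ] K} {B : Fin n → K →L[ℂ] ℂ}

omit [CompleteSpace K] in
lemma emb_coe (p : Matrix (Fin n) (Fin n) (Cr G)) :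
    (emb A B p : L2 G K →L[ℂ] L2 G K) = ∑ i, ∑ j, sw (A i) (B j) (p i j) := by
  simp only [emb, AddSubmonoidClass.coe_finsetSum]; rfl

lemma emb_mem (p : Matrix (Fin n) (Fin n) (Cr G)) : emb A B p ∈ (ntr G z hz).F :=
  TwoSidedIdeal.finsetSum_mem _ _ _ fun _ _ =>
    TwoSidedIdeal.finsetSum_mem _ _ _ fun _ _ => swB_mem _ _ _

lemma emb_tr (h : ∀ i j, B i ∘L A j = if i = j then 1 else 0)
    (p : Matrix (Fin n) (Fin n) (Cr G)) :
    (ntr G z hz).toTR.tr (emb A B p) = ∑ i, trace (p i i) := by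
  rw [emb, TR.tr_sum _ _ fun _ _ => TwoSidedIdeal.finsetSum_mem _ _ _ fun _ _ => swB_mem _ _ _]
  refine Finset.sum_congr rfl fun i _ => ?_
  rw [TR.tr_sum _ _ fun _ _ => swB_mem _ _ _, Finset.sum_eq_single i]
  · change (ntr G z hz).tr _ = _
    have := congrArg (· 1) (h i i)
    simp only [ContinuousLinearMap.comp_apply, if_true, one_apply_eq_self] at this
    rw [swB_tr, this, one_mul]
  · intro j _ hj
    change (ntr G z hz).tr _ = _
    have := congrArg (· 1) (h j i)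
    simp only [ContinuousLinearMap.comp_apply, if_neg hj, zero_apply] at this
    rw [swB_tr, this, zero_mul]
  · simp

omit [CompleteSpace K] in
lemma emb_mul (h : ∀ i j, B i ∘L A j = if i = j then 1 else 0)
    (p q : Matrix (Fin n) (Fin n) (Cr G)) : emb A B p * emb A B q = emb A B (p * q) := by
  refine Subtype.ext ?_
  rw [Subalgebra.coe_mul, emb_coe, emb_coe, emb_coe, Finset.sum_mul]
  refine Finset.sum_congr rfl fun i _ => ?_
  simp only [Matrix.mul_apply, AddSubmonoidClass.coe_finsetSum, map_sum]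
  rw [Finset.sum_comm (s := Finset.univ) (t := Finset.univ)
    (f := fun j k => sw (A i) (B j) ((p i k * q k j : Cr G) : L2 G ℂ →L[ℂ] L2 G ℂ)), Finset.sum_mul]
  refine Finset.sum_congr rfl fun k _ => ?_
  rw [Finset.mul_sum, Finset.sum_eq_single k, Finset.mul_sum]
  · exact Finset.sum_congr rfl fun j _ => by
      rw [Subalgebra.coe_mul, sw_mul_id (A := A k) (B := B k) (by rw [h, if_pos rfl])]
  · intro l _ hl
    rw [Finset.mul_sum]
    exact Finset.sum_eq_zero fun j _ => sw_mul_zero _ _ _ _ (by rw [h, if_neg hl.symm]) _ _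
  · simp

variable {H : Type} [NormedAddCommGroup H] [InnerProductSpace ℂ H]

lemma prH_inH' {L M : Type} [NormedAddCommGroup L] [InnerProductSpace ℂ L] [NormedAddCommGroup M]
    [InnerProductSpace ℂ M] (a : H →L[ℂ] L) (b : M →L[ℂ] H) :
    (a ∘L prH H n) ∘L (inH H n ∘L b) = a ∘L b := by
  change a ∘L (prH H n ∘L inH H n) ∘L b = _
  rw [prH_inH]; rfl

lemma index_trace {H' : Type} [NormedAddCommGroup H'] [InnerProductSpace ℂ H'] [CompleteSpace H']
    {i : H →L[ℂ] H'} {i' : H' →L[ℂ] H} {j : Fin n → ℂ →L[ℂ] H'} {j' : Fin n → H' →L[ℂ] ℂ}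
    (hs : St.IsSum i i' j j') {P₁ P₂ T S : L2 G H →L[ℂ] L2 G H}
    {p q : Matrix (Fin n) (Fin n) (Cr G)} (hp : p * p = p) (hq : q * q = q)
    {u v : L2 G H' →L[ℂ] L2 G H'} (hu : u - sw i i' T ∈ Kc G H') (hv : v - sw i i' S ∈ Kc G H')
    (h1 : v * u = sw i i' P₁ + ∑ a, ∑ b, sw (j a) (j' b) (q a b))
    (h2 : u * v = sw i i' P₂ + ∑ a, ∑ b, sw (j a) (j' b) (p a b)) {e f T' S' : BG G (Stab H' 1)}
    (e1 : e.1 = sw (inH _ 1 ∘L i) (i' ∘L prH _ 1) P₁)
    (e2 : f.1 = sw (inH _ 1 ∘L i) (i' ∘L prH _ 1) P₂)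
    (e3 : T'.1 = sw (inH _ 1 ∘L i) (i' ∘L prH _ 1) T)
    (e4 : S'.1 = sw (inH _ 1 ∘L i) (i' ∘L prH _ 1) S) {t : ℂ}
    (ht : (ntr G (zv H') norm_zv).toTR.Ind e f T' t) :
    t = ∑ i, trace (p i i) - ∑ i, trace (q i i) := by
  let J := inH H' 1
  let J' := prH H' 1
  have hJ : J' ∘L J = 1 := prH_inH
  let A := fun a : Fin n => J ∘L j a
  let B := fun a : Fin n => j' a ∘L J'
  have hAB : ∀ i j, B i ∘L A j = if i = j then 1 else 0 := fun i j => by rw [prH_inH', hs.jj]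
  have o1 : ∀ {a : BG G (Stab H' 1)} {T : L2 G H →L[ℂ] L2 G H}
      (r : Matrix (Fin n) (Fin n) (Cr G)), a.1 = sw (J ∘L i) (i' ∘L J') T →
      a * emb A B r = 0 ∧ emb A B r * a = 0 := fun r h => by
    refine ⟨Subtype.ext ?_, Subtype.ext ?_⟩ <;>
      simp only [Subalgebra.coe_mul, h, emb_coe, Finset.mul_sum, Finset.sum_mul]
    · exact Finset.sum_eq_zero fun i _ => Finset.sum_eq_zero fun j _ =>
        sw_mul_zero _ _ _ _ (by rw [prH_inH', hs.ij]) _ _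
    · exact Finset.sum_eq_zero fun i _ => Finset.sum_eq_zero fun j _ =>
        sw_mul_zero _ _ _ _ (by rw [prH_inH', hs.ji]) _ _
  have mU : ∀ {a : BG G (Stab H' 1)} {T : L2 G H →L[ℂ] L2 G H} {y},
      a.1 = sw (J ∘L i) (i' ∘L J') T → y - sw i i' T ∈ Kc G H' →
      ∃ Y : BG G (Stab H' 1), Y.1 = sw J J' y ∧ Y - a ∈ (ntr G (zv H') norm_zv).K :=
    fun {a T y} h h' => by
      refine ⟨a + ⟨_, Kc_le_BG (sw_Kc J J' h')⟩, ?_, ?_⟩
      · change a.1 + sw J J' _ = _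
        rw [h, map_sub, sw_sw]; simp
      · rw [add_sub_cancel_left, ntr_K]; exact sw_Kc J J' h'
  obtain ⟨U, hU, hU'⟩ := mU e3 hu
  obtain ⟨V, hV, -⟩ := mU e4 hv
  have k : ∀ {U V a : BG G (Stab H' 1)} {u v P} {r : Matrix (Fin n) (Fin n) (Cr G)},
      U.1 = sw J J' u → V.1 = sw J J' v → u * v = sw i i' P + ∑ a, ∑ b, sw (j a) (j' b) (r a b) →
      a.1 = sw (J ∘L i) (i' ∘L J') P → U * V = a + emb A B r :=
    fun {U V a u v P r} a1 a2 a3 a4 => Subtype.ext (by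
      rw [Subalgebra.coe_mul, a1, a2, sw_mul_id hJ, a3, Subalgebra.coe_add, a4]
      simp only [map_add, map_sum, sw_sw, emb_coe, A, B])
  have := TR.Ind.stab (U := U) (V := V) (p := emb A B p) (q := emb A B q) ht
    (by rw [emb_mul hAB, hp]) (by rw [emb_mul hAB, hq]) (emb_mem p) (emb_mem q)
    (o1 _ e1).1 (o1 _ e1).2 (o1 _ e2).1 (o1 _ e2).2 hU' (k hV hU h1 e1) (k hU hV h2 e2)
  rwa [emb_tr hAB, emb_tr hAB] at this

/-- the even part of the descended cutoff projection -/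
def FredMod.Pp {X : Type} [TopologicalSpace X] [MulAction G X] [CompleteSpace H]
    (Z : FredMod G X H) (c : C₀(X, ℂ)) : L2 G H →L[ℂ] L2 G H :=
  Z.proj c * lam (1 : G) ((1 / 2 : ℂ) • (1 + Z.γ))

/-- the odd part of the descended cutoff projection -/
def FredMod.Pm {X : Type} [TopologicalSpace X] [MulAction G X] [CompleteSpace H]
    (Z : FredMod G X H) (c : C₀(X, ℂ)) : L2 G H →L[ℂ] L2 G H :=
  Z.proj c * lam (1 : G) ((1 / 2 : ℂ) • (1 - Z.γ))

theorem trace_mem_traceSet {X : Type} [TopologicalSpace X] [T2Space X] [LocallyCompactSpace X]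
    [MulAction G X] [ContinuousConstSMul G X] [ProperlyDiscontinuousSMul G X] [CompleteSpace H]
    (φ : K0 (Cr G) →+ ℂ) (hφ : ∀ e : Idem (Cr G), φ e.cls = ∑ i, trace (e.p i i))
    (Z : FredMod G X H) {c : C₀(X, ℂ)} (hc : IsCutoff G c)
    {H' : Type} [NormedAddCommGroup H'] [InnerProductSpace ℂ H'] [CompleteSpace H']
    {i : H →L[ℂ] H'} {i' : H' →L[ℂ] H} {j : Fin n → ℂ →L[ℂ] H'} {j' : Fin n → H' →L[ℂ] ℂ}
    (hs : St.IsSum i i' j j') {x : K0 (Cr G)}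
    (hx : St.IndexVia (Cr G) (Kc G H') (lam (1 : G) i) (lam (1 : G) i') (fun a => lam (1 : G) (j a))
      (fun a => lam (1 : G) (j' a)) (Z.Pp c) (Z.Pm c) (lam (1 : G) Z.F) x) : φ x ∈ traceSet := by
  obtain ⟨p, q, hp, hq, u, v, hu, hv, h1, h2⟩ := hx
  have hj : (i' ∘L prH _ 1) ∘L (inH _ 1 ∘L i) = 1 := by rw [prH_inH', hs.ii]
  obtain ⟨t, ht⟩ := TR.J.exists (τ := (ntr G (zv H') norm_zv).toTR)
    ((Z.wc _ _ hj).P_idem hc (γ := id) fun _ _ _ => rfl) ((Z.wc _ _ hj).PL_P hc id)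
  have := index_trace hs hp hq hu hv h1 h2 (Z.wc_p hj hc _) (Z.wc_p hj hc _) (Z.wc_T hj hc _ _)
    (Z.wc_T hj hc _ _) ht
  rw [Idem.diff, map_sub, hφ, hφ, ← this]
  exact (Z.wc _ _ hj).mem_traceSet hc ht

end

end Vale.Agent.P089A
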