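import Vale.Agent.P089A.GlueA

/-! Every cycle has an assembled class. -/

namespace Vale.Agent.P089A

open scoped ZeroAtInfty InnerProductSpace

noncomputable section

lemma TR.PL.param {R : Type} [Ring R] {τ : TR R} {g : Gr R} {P : R} (hP : P * P = P)
    (h : τ.PL g P) :
    P * g.γm - P * g.γm * g.F * (P * g.γp) * (P * g.γp * g.F * (P * g.γm)) ∈ τ.K := by
  obtain ⟨q1, q2, q3, q4⟩ := h.q
  obtain ⟨r1, r2, r3, r4⟩ := TR.Gr.q τ g
  have qP : RingCon.mk' τ.K.ringCon P * RingCon.mk' τ.K.ringCon P = RingCon.mk' τ.K.ringCon P := by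
    rw [← map_mul, hP]
  have q2' := fun x => (mul_assoc _ _ _).symm.trans ((mul_assoc _ _ _).symm.trans
    (congrArg (· * x) ((mul_assoc _ _ _).trans q2)))
  rw [TR.sub_mem_K]
  simp only [map_mul, mul_assoc, TR.as q1, TR.as q3, TR.as q4, TR.as qP, TR.as r4, r2, q2']

lemma TR.PL.param' {R : Type} [Ring R] {a b c : R} (h : a * a = a) :
    a * (a * b * c) = a * b * c := by
  rw [← mul_assoc, ← mul_assoc, h]

variable {G H : Type} [Group G] [NormedAddCommGroup H] [InnerProductSpace ℂ H] {n : ℕ}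

/-- the row of inclusions -/
def rowW (H : Type) [NormedAddCommGroup H] [InnerProductSpace ℂ H] (n : ℕ) :
    Option (Fin n) → Stab H 1 →L[ℂ] Stab H n
  | none => inH H n ∘L prH H 1
  | some i => inC H i ∘L innerSL ℂ (zv H)

/-- the column of projections -/
def colW (H : Type) [NormedAddCommGroup H] [InnerProductSpace ℂ H] (n : ℕ) :
    Option (Fin n) → Stab H n →L[ℂ] Stab H 1
  | none => inH H 1 ∘L prH H n
  | some i => ContinuousLinearMap.toSpanSingleton ℂ (zv H) ∘L prC H i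

lemma col_row_ne {a b : Option (Fin n)} (h : a ≠ b) : colW H n a ∘L rowW H n b = 0 := by
  have key : ∀ {K L M N O : Type} [NormedAddCommGroup K] [InnerProductSpace ℂ K]
      [NormedAddCommGroup L] [InnerProductSpace ℂ L] [NormedAddCommGroup M] [InnerProductSpace ℂ M]
      [NormedAddCommGroup N] [InnerProductSpace ℂ N] [NormedAddCommGroup O] [InnerProductSpace ℂ O]
      (a : N →L[ℂ] O) (b : M →L[ℂ] N) (c : L →L[ℂ] M) (d : K →L[ℂ] L), b ∘L c = 0 →
      (a ∘L b) ∘L (c ∘L d) = 0 := fun a b c d h => by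
    change a ∘L (b ∘L c) ∘L d = 0
    simp [h]
  rcases a with _ | i <;> rcases b with _ | j
  · exact absurd rfl h
  · exact key _ _ _ _ (prH_inC j)
  · exact key _ _ _ _ (prC_inH i)
  · exact key _ _ _ _ (by rw [prC_inC, if_neg fun h' => h (by rw [h'])])

lemma col_row_none : colW H n none ∘L rowW H n none = inH H 1 ∘L prH H 1 :=
  prH_inH' _ _

lemma span_inner : ContinuousLinearMap.toSpanSingleton ℂ (zv H) ∘L innerSL ℂ (zv H) =
    InnerProductSpace.rankOne ℂ (zv H) (zv H) := by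
  ext1 y; simp

lemma col_row_some (i : Fin n) : colW H n (some i) ∘L rowW H n (some i) =
    InnerProductSpace.rankOne ℂ (zv H) (zv H) := by
  change ContinuousLinearMap.toSpanSingleton ℂ (zv H) ∘L (prC H i ∘L inC H i) ∘L
    innerSL ℂ (zv H) = _
  rw [prC_inC, if_pos rfl, ← span_inner]; rfl

/-- a matrix over the big ring as an operator on the stabilised module -/
def thet (M : Matrix (Option (Fin n)) (Option (Fin n)) (BG G (Stab H 1))) :
    L2 G (Stab H n) →L[ℂ] L2 G (Stab H n) := ∑ a, ∑ b, sw (rowW H n a) (colW H n b) (M a b)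

lemma thet_mul (M N : Matrix (Option (Fin n)) (Option (Fin n)) (BG G (Stab H 1)))
    (h : ∀ a b, M a b * lamB 1 (colW H n b ∘L rowW H n b) = M a b) :
    thet M * thet N = thet (M * N) := by
  rw [thet, thet, thet, Finset.sum_mul]
  refine Finset.sum_congr rfl fun i _ => ?_
  simp only [Matrix.mul_apply, AddSubmonoidClass.coe_finsetSum, map_sum]
  rw [Finset.sum_comm (s := Finset.univ) (t := Finset.univ)
    (f := fun j k => sw (rowW H n i) (colW H n j) (M i k * N k j).1), Finset.sum_mul]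
  refine Finset.sum_congr rfl fun k _ => ?_
  rw [Finset.mul_sum, Finset.sum_eq_single k, Finset.mul_sum]
  · refine Finset.sum_congr rfl fun j _ => ?_
    rw [sw_mul, Subalgebra.coe_mul]
    conv_rhs => rw [← h i k]
    rfl
  · intro l _ hl
    rw [Finset.mul_sum]
    exact Finset.sum_eq_zero fun j _ => sw_mul_zero _ _ _ _ (col_row_ne hl.symm) _ _
  · simp

/-- the cornerM of a matrix over the big ring -/
def cornerM (q : Matrix (Fin n) (Fin n) (BG G (Stab H 1))) : Matrix (Fin n) (Fin n) (Cr G) :=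
  fun i j => ⟨sw (innerSL ℂ (zv H)) (ContinuousLinearMap.toSpanSingleton ℂ (zv H)) (q i j),
    Cr_BG.mpr (sw_BG _ _ (q i j).2)⟩

lemma cornerM_idem {q : Matrix (Fin n) (Fin n) (BG G (Stab H 1))} (h : q * q = q)
    (h' : ∀ i j, eps G (zv H) * q i j * eps G (zv H) = q i j) (he : eps G (zv H) * eps G (zv H) =
      eps G (zv H)) : cornerM q * cornerM q = cornerM q := by
  ext1 i j
  refine Subtype.ext ?_
  conv_rhs => rw [← h]
  simp only [Matrix.mul_apply, AddSubmonoidClass.coe_finsetSum, cornerM, map_sum]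
  refine Finset.sum_congr rfl fun k _ => ?_
  have : q i k * eps G (zv H) = q i k := by rw [← h' i k, mul_assoc _ _ (eps G (zv H)), he]
  conv_rhs => rw [← this]
  rw [Subalgebra.coe_mul, sw_mul, span_inner]; rfl

lemma thet_blk {e : BG G (Stab H 1)} {P : L2 G H →L[ℂ] L2 G H}
    (he : e.1 = sw (inH H 1) (prH H 1) P) (q : Matrix (Fin n) (Fin n) (BG G (Stab H 1))) :
    thet (blk e q) = block P (cornerM q) := by
  have h1 : (inH H n ∘L prH H 1) ∘L inH H 1 = inH H n := by
    rw [ContinuousLinearMap.comp_assoc, prH_inH]; rfl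
  have h2 : prH H 1 ∘L inH H 1 ∘L prH H n = prH H n := by
    rw [← ContinuousLinearMap.comp_assoc, prH_inH]; rfl
  simp [thet, blk, block_eq, he, sw_sw, rowW, colW, cornerM, h1, h2]

variable [CompleteSpace H]

lemma thet_K {M : Matrix (Option (Fin n)) (Option (Fin n)) (BG G (Stab H 1))}
    {S' : BG G (Stab H 1)} {S : L2 G H →L[ℂ] L2 G H} (he : S'.1 = sw (inH H 1) (prH H 1) S)
    (h0 : M none none - S' ∈ (ntr G (zv H) norm_zv).K)
    (h : ∀ a b, ¬(a = none ∧ b = none) → M a b ∈ (ntr G (zv H) norm_zv).K) :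
    thet M - sw (inH H n) (prH H n) S ∈ Kc G (Stab H n) := by
  have h1 : sw (inH H n) (prH H n) S = thet (blk S' 0) := by
    simp [thet_blk he, block_eq, cornerM]
  rw [h1, thet, thet, ← Finset.sum_sub_distrib]
  refine Submodule.sum_mem _ fun a _ => ?_
  rw [← Finset.sum_sub_distrib]
  refine Submodule.sum_mem _ fun b _ => ?_
  rw [← map_sub, ← Subalgebra.coe_sub]
  refine sw_Kc _ _ ((ntr_K (hz := norm_zv) _).mp ?_)
  rcases a with _ | i <;> rcases b with _ | j
  · exact h0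
  all_goals simpa [blk] using h _ _ (by simp)

omit [CompleteSpace H] in
lemma isSum_stab : St.IsSum (inH H n) (prH H n) (inC H) (prC H) := by
  refine ⟨prH_inH, prH_inC, prC_inH, prC_inC, ?_⟩
  ext1 x
  simp only [add_apply, FunLike.coe_sum, Finset.sum_apply]
  apply WithLp.ofLp_injective
  ext a <;> simp [inH, prH, inC, prC, Prod.fst_sum, Prod.snd_sum, Pi.single_apply]

lemma index_exists {P₁ P₂ F : L2 G H →L[ℂ] L2 G H} {e f T' S' : BG G (Stab H 1)}
    (e1 : e.1 = sw (inH H 1) (prH H 1) P₁) (e2 : f.1 = sw (inH H 1) (prH H 1) P₂)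
    (e3 : T'.1 = sw (inH H 1) (prH H 1) (P₂ * F * P₁))
    (e4 : S'.1 = sw (inH H 1) (prH H 1) (P₁ * F * P₂)) {t : ℂ}
    (ht : (ntr G (zv H) norm_zv).toTR.Ind e f T' t)
    (hS : f - T' * S' ∈ (ntr G (zv H) norm_zv).K) (hS' : e * S' = S') :
    ∃ n x, St.IndexVia (Cr G) (Kc G (Stab H n)) (lam (1 : G) (inH H n)) (lam (1 : G) (prH H n))
      (fun a => lam (1 : G) (inC H a)) (fun a => lam (1 : G) (prC H a)) P₁ P₂ F x := by
  have he : eps G (zv H) * eps G (zv H) = eps G (zv H) := by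
    rw [eps, lamB_mul, mul_one]
    congr 1
    ext1 y; simp [norm_zv]
  obtain ⟨n, ⟨D⟩⟩ := ht.datum he ((ntr_F _).mpr ⟨1, 1, 1, by simp⟩) (fun x => (ntr_F x).mp) hS hS'
  have k : ∀ {a : BG G (Stab H 1)} {P}, a.1 = sw (inH H 1) (prH H 1) P →
      ∀ x, x * a = x → x * lamB 1 (colW H n none ∘L rowW H n none) = x := fun {a P} h x hx => by
    have : a * lamB 1 (colW H n none ∘L rowW H n none) = a := Subtype.ext (by
      rw [Subalgebra.coe_mul, h, col_row_none]
      refine (sw_mul_lam _ _ _ _).trans ?_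
      rw [← ContinuousLinearMap.comp_assoc, prH_inH]; rfl)
    rw [← hx, mul_assoc, this]
  refine ⟨n, _, cornerM D.p, cornerM D.q, cornerM_idem D.pp D.pε he, cornerM_idem D.qq D.qε he,
    thet D.U, thet D.V, thet_K e3 (by rw [D.U0, sub_self]; exact TwoSidedIdeal.zero_mem _) D.UK,
    thet_K e4 D.V0 D.VK, (thet_mul _ _ ?_).trans (D.VU ▸ thet_blk e1 _),
    (thet_mul _ _ ?_).trans (D.UV ▸ thet_blk e2 _)⟩
  · rintro a (_ | i)
    · exact k e2 _ (D.V1 a)
    · rw [col_row_some]; exact D.V2 a i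
  · rintro a (_ | i)
    · exact k e1 _ (D.U1 a)
    · rw [col_row_some]; exact D.U2 a i

theorem FredMod.exists_assembles {X : Type} [TopologicalSpace X] [T2Space X]
    [LocallyCompactSpace X] [MulAction G X] [ContinuousConstSMul G X]
    [ProperlyDiscontinuousSMul G X] (Z : FredMod G X H) {c : C₀(X, ℂ)} (hc : IsCutoff G c) :
    ∃ n x, St.IndexVia (Cr G) (Kc G (Stab H n)) (lam (1 : G) (inH H n)) (lam (1 : G) (prH H n))
      (fun a => lam (1 : G) (inC H a)) (fun a => lam (1 : G) (prC H a)) (Z.Pp c) (Z.Pm c)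
      (lam (1 : G) Z.F) x := by
  have hj : prH H 1 ∘L inH H 1 = 1 := prH_inH
  have h1 := (Z.wc _ _ hj).P_idem hc (γ := id) fun _ _ _ => rfl
  have h2 := (Z.wc _ _ hj).PL_P (z := zv H) (hz := norm_zv) hc id
  obtain ⟨t, ht⟩ := TR.J.exists h1 h2
  have h3 := h2.param h1
  have h4 := TR.PL.param' (b := ((Z.wc _ _ hj).gr.lamB G).F)
    (c := (Z.wc _ _ hj).P c id * ((Z.wc _ _ hj).gr.lamB G).γm) ht.1
  exact index_exists (Z.wc_p hj hc _) (Z.wc_p hj hc _) (Z.wc_T hj hc _ _) (Z.wc_T hj hc _ _) ht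
    h3 h4

end

end Vale.Agent.P089A
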