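import Vale.Agent.P089A.Slice

/-! The Koszul identity for indices twisted by products of locally conjugate cocycles. -/

namespace Vale.Agent.P089A

open scoped ZeroAtInfty

noncomputable section

lemma kz_coset_equiv {H A : Type} [Group H] [Group A] (α : H →* A)
    (hα : Function.Injective α) :
    ∃ (Q : Type) (e : H × Q ≃ A), ∀ h h' q, e (h * h', q) = α h * e (h', q) := by
  refine ⟨A ⧸ α.range, Equiv.ofBijective (fun p => α p.1 * (p.2.out)⁻¹) ⟨?_, fun a => ?_⟩,
    fun h h' q => (show α (h * h') * _ = α h * (α h' * _) by rw [map_mul, mul_assoc])⟩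
  · rintro ⟨h, q⟩ ⟨h', q'⟩ he
    have h1 : q = q' := by
      rw [← q.out_eq', ← q'.out_eq', QuotientGroup.eq]
      refine ⟨h⁻¹ * h', ?_⟩
      rw [map_mul, map_inv, inv_mul_eq_iff_eq_mul, ← mul_assoc]
      exact mul_inv_eq_iff_eq_mul.mp he.symm
    subst h1
    exact Prod.ext (hα (mul_right_cancel he)) rfl
  · obtain ⟨h, hh⟩ := QuotientGroup.eq.mp (QuotientGroup.mk (s := α.range) a⁻¹).out_eq'.symm
    exact ⟨(h, QuotientGroup.mk a⁻¹), by simp [hh]⟩

/-- Two injective homomorphisms from the same group become conjugate in `Perm (A × B)`. -/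
lemma exists_conj_perm {H A B : Type} [Group H] [Group A] [Group B] (α : H →* A) (β : H →* B)
    (hα : Function.Injective α) (hβ : Function.Injective β) :
    ∃ t : Equiv.Perm (A × B), ∀ h,
      t * MulAction.toPerm ((α h, 1) : A × B) = MulAction.toPerm ((1, β h) : A × B) * t := by
  obtain ⟨Q, e, he⟩ := kz_coset_equiv α hα
  obtain ⟨Q', e', he'⟩ := kz_coset_equiv β hβ
  let u : (H × Q) × (H × Q') ≃ (H × Q) × (H × Q') :=
    ⟨fun p => ((p.2.1, p.1.2), (p.1.1, p.2.2)), fun p => ((p.2.1, p.1.2), (p.1.1, p.2.2)),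
      fun _ => rfl, fun _ => rfl⟩
  refine ⟨(e.prodCongr e').symm.trans (u.trans (e.prodCongr e')), fun h => Equiv.ext fun p => ?_⟩
  obtain ⟨⟨⟨a, q⟩, b, q'⟩, rfl⟩ := (e.prodCongr e').surjective p
  simp [← he, ← he', u]

/-- flip one coordinate -/
def flp {m : ℕ} (j : Fin m) (σ : Fin m → Bool) : Fin m → Bool := Function.update σ j (!σ j)

@[simp] lemma flp_self {m : ℕ} (j : Fin m) (σ : Fin m → Bool) : flp j σ j = !σ j := by simp [flp]

lemma flp_ne {m : ℕ} {j l : Fin m} (h : l ≠ j) (σ : Fin m → Bool) : flp j σ l = σ l := by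
  simp [flp, h]

@[simp] lemma flp_flp {m : ℕ} (j : Fin m) (σ : Fin m → Bool) : flp j (flp j σ) = σ := by
  ext l
  by_cases h : l = j
  · simp [h]
  · simp [flp_ne h]

lemma flp_comm {m : ℕ} {j l : Fin m} (h : l ≠ j) (σ : Fin m → Bool) :
    flp l (flp j σ) = flp j (flp l σ) := by
  ext r
  by_cases h1 : r = l
  · subst h1; simp [flp_ne h]
  by_cases h2 : r = j
  · subst h2; simp [flp_ne h1]
  · simp [flp_ne h1, flp_ne h2]

/-- Koszul sign -/
def sg {m : ℕ} (j : Fin m) (σ : Fin m → Bool) : ℤˣ := ∏ l with l < j, if σ l then -1 else 1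

lemma prod_flp {m : ℕ} (s : Finset (Fin m)) (j : Fin m) (σ : Fin m → Bool) {M : Type}
    [CommMonoid M] [HasDistribNeg M] : (∏ l ∈ s, if flp j σ l then (-1 : M) else 1) =
      (if j ∈ s then -1 else 1) * ∏ l ∈ s, if σ l then -1 else 1 := by
  split_ifs with h
  · rw [← Finset.mul_prod_erase _ _ h, ← Finset.mul_prod_erase _ _ h, ← mul_assoc]
    congr 1
    · cases h1 : σ j <;> simp [h1]
    · exact Finset.prod_congr rfl fun l hl => by rw [flp_ne (Finset.ne_of_mem_erase hl)]
  · rw [one_mul]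
    exact Finset.prod_congr rfl fun l hl => by rw [flp_ne (ne_of_mem_of_not_mem hl h)]

lemma sg_flp {m : ℕ} (j l : Fin m) (σ : Fin m → Bool) :
    sg l (flp j σ) = (if j < l then -1 else 1) * sg l σ := by
  simp [sg, prod_flp]

/-- The algebraic part: a family of anticommuting odd maps. -/
lemma koszul_alg {R : Type} [NormedRing R] [CompleteSpace R] (ν : NTR R) (g : Gr R) {m : ℕ}
    (N : Fin m → (Fin m → Bool) → R) (P : (Fin m → Bool) → R) (hN : ∀ j σ, ν.toTR.PL g (N j σ))
    (hP : ∀ σ, ν.toTR.PL g (P σ)) (hP' : ∀ σ, P σ * P σ = P σ)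
    (h1 : ∀ σ, ∑ j, N j (flp j σ) * N j σ = P σ)
    (h2 : ∀ σ j l, l ≠ j → N l (flp j σ) * N j σ = N j (flp l σ) * N l σ)
    (t : (Fin m → Bool) → ℂ) (ht : ∀ σ, ν.toTR.J g (P σ) (t σ)) :
    ∑ σ, (∏ l, if σ l then (-1 : ℂ) else 1) * t σ = 0 := by
  classical
  let D : Matrix (Fin m → Bool) (Fin m → Bool) R :=
    Matrix.of fun σ' σ => ∑ j, if σ' = flp j σ then sg j σ • N j σ else 0
  let par : (Fin m → Bool) → ℂ := fun σ => ∏ l, if σ l then -1 else 1
  have hpar : ∀ j σ, par (flp j σ) = -par σ := fun j σ => by simp [par, prod_flp]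
  have hpar' : ∀ σ, par σ = 1 ∨ par σ = -1 := fun σ => by
    refine Finset.prod_induction _ (fun x : ℂ => x = 1 ∨ x = -1) ?_ (.inl rfl) fun l _ => ?_
    · rintro a b (rfl | rfl) (rfl | rfl) <;> simp
    · split_ifs <;> simp
  have hD : ∀ σ' σ, ν.toTR.PL g (D σ' σ) := fun σ' σ => by
    simp only [D, Matrix.of_apply]
    refine TR.PL.sum _ _ fun j _ => ?_
    split_ifs
    · rcases Int.units_eq_one_or (sg j σ) with h | h <;> rw [h]
      · simpa using hN j σ
      · simpa using (hN j σ).neg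
    · exact TR.PL.zero
  have hD0 : ∀ σ' σ, par σ' = par σ → D σ' σ = 0 := fun σ' σ h => by
    simp only [D, Matrix.of_apply]
    refine Finset.sum_eq_zero fun j _ => if_neg fun h3 => ?_
    rw [h3, hpar] at h
    rcases hpar' σ with h4 | h4 <;> rw [h4] at h <;> norm_num at h
  have hDD : ∀ σ'' σ, ∑ σ', D σ'' σ' * D σ' σ = if σ'' = σ then P σ else 0 := by
    intro σ'' σ
    let f : Fin m × Fin m → R := fun q => if σ'' = flp q.2 (flp q.1 σ) then
      (sg q.2 (flp q.1 σ) * sg q.1 σ) • (N q.2 (flp q.1 σ) * N q.1 σ) else 0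
    have e1 : ∑ σ', D σ'' σ' * D σ' σ = ∑ q, f q := by
      simp only [D, Matrix.of_apply, Finset.mul_sum, mul_ite, mul_zero]
      rw [Finset.sum_comm, Fintype.sum_prod_type]
      refine Finset.sum_congr rfl fun j _ => ?_
      rw [Finset.sum_ite_eq', if_pos (Finset.mem_univ _), Finset.sum_mul]
      refine Finset.sum_congr rfl fun l _ => ?_
      simp only [f, ite_mul, zero_mul, smul_mul_smul_comm]
    rw [e1, ← Finset.sum_filter_add_sum_filter_not _ fun q => q.1 = q.2,
      Finset.sum_involution (s := Finset.univ.filter fun q : Fin m × Fin m => ¬q.1 = q.2)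
        (fun q _ => q.swap), add_zero]
    · rw [Finset.sum_filter, Fintype.sum_prod_type]
      simp only [Finset.sum_ite_eq, Finset.mem_univ, if_true, f, flp_flp, sg_flp, lt_irrefl,
        if_false, one_mul, Int.units_mul_self, one_smul]
      split_ifs
      · exact h1 σ
      · simp
    · rintro ⟨j, l⟩ hq
      have hjl : j ≠ l := by simpa using hq
      simp only [f, Prod.swap_prod_mk, flp_comm hjl, h2 σ l j hjl, sg_flp]
      split_ifs with h3 h4 h5 h5
      · exact absurd h4 (lt_asymm h5)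
      · simp [mul_comm]
      · simp [mul_comm]
      · exact absurd (le_antisymm (not_lt.mp h5) (not_lt.mp h4)) hjl
      · simp
    · rintro ⟨j, l⟩ hq - h
      exact (by simpa using hq : j ≠ l) (congrArg Prod.snd h)
    · rintro ⟨j, l⟩ hq
      simpa [eq_comm] using hq
    · simp
  have key : ∀ s : Finset (Fin m → Bool), (ν.mat _).J (g.mat _)
      (∑ σ ∈ s, Matrix.single σ σ (P σ)) (∑ σ ∈ s, t σ) := fun s =>
    TR.J.sum s _ _ (fun σ _ => ν.PL_mat fun i j => by
      rw [Matrix.single_apply]; split_ifs; exacts [hP σ, TR.PL.zero])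
      (fun σ _ σ' _ h => Matrix.single_mul_single_of_ne _ _ _ _ h _) fun σ _ => ν.J_single σ (ht σ)
  have idem : ∀ s : Finset (Fin m → Bool), (∑ σ ∈ s, Matrix.single σ σ (P σ)) *
      (∑ σ ∈ s, Matrix.single σ σ (P σ)) = ∑ σ ∈ s, Matrix.single σ σ (P σ) := fun s => by
    rw [Finset.sum_mul_sum]
    refine Finset.sum_congr rfl fun σ hσ => ?_
    rw [Finset.sum_eq_single_of_mem σ hσ fun σ' _ h =>
      Matrix.single_mul_single_of_ne _ _ _ _ h.symm _, Matrix.single_mul_single_same, hP']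
  have sing : ∀ (p : (Fin m → Bool) → Prop) [DecidablePred p] σ'' σ,
      (∑ σ with p σ, Matrix.single σ σ (P σ)) σ'' σ =
        if p σ then (if σ'' = σ then P σ else 0) else 0 := by
    intro p _ σ'' σ
    rw [Matrix.sum_apply, Finset.sum_filter, Finset.sum_eq_single σ]
    · simp [Matrix.single_apply, eq_comm]
    · intro b _ hb
      simp [hb]
    · simp
  have h3 := TR.J.unique (TR.J.equiv (x := Matrix.of fun σ' σ => if par σ = 1 then D σ' σ else 0)
    (y := Matrix.of fun σ' σ => if par σ = 1 then 0 else D σ' σ)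
    (ν.PL_mat fun i j => by rw [Matrix.of_apply]; split_ifs; exacts [hD _ _, TR.PL.zero])
    (ν.PL_mat fun i j => by rw [Matrix.of_apply]; split_ifs; exacts [TR.PL.zero, hD _ _])
    (idem _) (idem _) ?_ ?_ (key (Finset.univ.filter fun σ => par σ = 1)))
    (key (Finset.univ.filter fun σ => ¬par σ = 1))
  · rw [← Finset.sum_filter_add_sum_filter_not _ fun σ => par σ = 1,
      Finset.sum_congr rfl (g := t) fun σ hσ => by
        rw [show (∏ l, if σ l then (-1 : ℂ) else 1) = par σ from rfl,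
          (Finset.mem_filter.mp hσ).2, one_mul], h3, ← Finset.sum_add_distrib]
    refine Finset.sum_eq_zero fun σ hσ => ?_
    rw [show (∏ l, if σ l then (-1 : ℂ) else 1) = par σ from rfl,
      (hpar' σ).resolve_left (Finset.mem_filter.mp hσ).2]
    ring
  · ext σ'' σ
    rw [sing, ← hDD, Matrix.mul_apply]
    simp only [Matrix.of_apply]
    split_ifs with h
    · refine Finset.sum_congr rfl fun σ' _ => ?_
      split_ifs with h4
      · rw [hD0 σ' σ (h4.trans h.symm), mul_zero, mul_zero]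
      · rfl
    · simp
  · ext σ'' σ
    rw [sing, ← hDD, Matrix.mul_apply]
    simp only [Matrix.of_apply]
    split_ifs with h
    · simp
    · refine Finset.sum_congr rfl fun σ' _ => ?_
      split_ifs with h4
      · rfl
      · rw [hD0 σ' σ (((hpar' σ').resolve_left h4).trans ((hpar' σ).resolve_left h).symm),
          mul_zero, mul_zero]

variable {G X Z : Type} [Group G] [TopologicalSpace X] [MulAction G X] [ContinuousConstSMul G X]
  [NormedAddCommGroup Z] [InnerProductSpace ℂ Z]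
  [T2Space X] [LocallyCompactSpace X] [ProperlyDiscontinuousSMul G X] [CompleteSpace Z]
  {z : Z} {hz : ‖z‖ = 1}

omit [ContinuousConstSMul G X] [T2Space X] [LocallyCompactSpace X]
  [ProperlyDiscontinuousSMul G X] in
lemma IsCocycle.at {P : Type} [Group P] {c : C₀(X, ℂ)} {γ : G → P} (h : IsCocycle c γ) (y : X)
    {a b e : G} (ha : a⁻¹ • y ∈ tsupport c) (hb : b⁻¹ • y ∈ tsupport c)
    (he : e⁻¹ • y ∈ tsupport c) : γ (a⁻¹ * b) * γ (b⁻¹ * e) = γ (a⁻¹ * e) := by
  rw [h (a⁻¹ * b) (b⁻¹ * e) ⟨a⁻¹ • y, ha, by simpa [← mul_smul] using hb,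
    by simpa [← mul_smul, mul_assoc] using he⟩]
  simp [mul_assoc]

/-- Koszul identity: two cocycles with values in `P` whose restrictions to all point stabilisers
are conjugate; the alternating sum of the indices of the mixed product cocycles vanishes. -/
theorem WC.koszul_sum (w : WC G X Z) {c : C₀(X, ℂ)} (hc : IsCutoff G c) {P : Type} [Group P]
    (γ : Bool → G → P) (hγ : ∀ b, IsCocycle c (γ b))
    (hconj : ∀ x ∈ tsupport c, ∃ t : P, ∀ h : G, h • x = x → t * γ false h = γ true h * t) :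
    ∃ m : ℕ, (m = 0 → IsEmpty X) ∧ ∀ t : (Fin m → Bool) → ℂ,
      (∀ σ, (ntr (Fin m → P) z hz).toTR.J (w.gr.lamB _) (w.P c fun k l => γ (σ l) k) (t σ)) →
      ∑ σ, (∏ l, if σ l then (-1 : ℂ) else 1) * t σ = 0 := by
  classical
  obtain ⟨m, x, K, d, hK, hx, hd, hch, hst, hsum⟩ := exists_slices hc
  refine ⟨m, fun h => ⟨fun y => by subst h; simpa using hsum y⟩, fun t ht => ?_⟩
  choose u hu using fun j => hconj (x j) (hx j)
  let Φ := (finite_Ov hc).toFinset
  let Ψ : Fin m → Finset G := fun j => (finite_meet (G := G) (hK j) hc.1).toFinset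
  have hΨ : ∀ j g, ∀ y ∈ tsupport c, d j (g⁻¹ • y) ≠ 0 → g ∈ Ψ j := fun j g y h1 h2 =>
    (Set.Finite.mem_toFinset _).mpr ⟨y, h1, hd j _ h2⟩
  let T : Fin m → Bool → P := fun j b => if b then (u j)⁻¹ else u j
  let τ : Fin m → Bool → G → G → P := fun j b g k => γ (!b) g * T j b * γ b (g⁻¹ * k)
  let μ : Fin m → (Fin m → Bool) → G → G → Fin m → P := fun j σ g k l =>
    if l = j then τ j (σ j) g k else γ (σ l) k
  let N : Fin m → (Fin m → Bool) → BG (Fin m → P) Z := fun j σ =>
    ∑ q ∈ Ψ j ×ˢ Φ, lamB (μ j σ q.1 q.2) (w.θ q.2 (c * tl q.1 (d j) * tl q.2 c))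
  have chart : ∀ j (g k : G) y, d j (g⁻¹ • y) ≠ 0 → k⁻¹ • y ∈ tsupport c →
      k⁻¹ • g • x j ∈ tsupport c := fun j g k y h1 h2 => by
    simpa [mul_smul] using hch j _ (hd j _ h1) (g⁻¹ * k) (by simpa [mul_smul] using h2)
  have base : ∀ j (g : G), g⁻¹ • g • x j ∈ tsupport c := fun j g => by simpa using hx j
  have cL : ∀ b j (g k k₀ : G) y, d j (g⁻¹ • y) ≠ 0 → k⁻¹ • y ∈ tsupport c →
      k₀⁻¹ • y ∈ tsupport c → γ b (g⁻¹ * k) * γ b (k⁻¹ * k₀) = γ b (g⁻¹ * k₀) :=
    fun b j g k k₀ y h1 h2 h3 => (hγ b).at (g • x j) (base j g) (chart j g k y h1 h2)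
      (chart j g k₀ y h1 h3)
  have cR : ∀ b j (g k : G) y, y ∈ tsupport c → d j (g⁻¹ • y) ≠ 0 → k⁻¹ • y ∈ tsupport c →
      γ b k * γ b (k⁻¹ * g) = γ b g := fun b j g k y h0 h1 h2 => by
    simpa using (hγ b).at (g • x j) (chart j g 1 y h1 (by simpa using h0)) (chart j g k y h1 h2)
      (base j g)
  have cM : ∀ b (k k₀ : G) y, y ∈ tsupport c → k⁻¹ • y ∈ tsupport c → k₀⁻¹ • y ∈ tsupport c →
      γ b k * γ b (k⁻¹ * k₀) = γ b k₀ := fun b k k₀ y h0 h1 h2 => by
    simpa using (hγ b).at y (a := 1) (by simpa using h0) h1 h2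
  refine koszul_alg (ntr _ z hz) (w.gr.lamB _) N _
    (fun j σ => TR.PL.sum _ _ fun q _ => w.PL_lamB _ _ _) (fun σ => w.PL_P hc _)
    (fun σ => w.P_idem hc fun k k' h => funext fun l => hγ (σ l) k k' h) (fun σ => ?_)
    (fun σ j l hl => ?_) t ht
  · have e1 : ∀ j, N j (flp j σ) * N j σ = ∑ q ∈ (Ψ j ×ˢ Ψ j) ×ˢ Φ, lamB (fun l => γ (σ l) q.2)
        (w.θ q.2 (c * (tl q.1.1 (d j) * tl q.1.2 (d j)) * tl q.2 c)) := by
      intro j
      refine w.comp_kernel hc (Ψ j) (fun a => tl a (d j)) (μ j (flp j σ)) (d j) (Ψ j) (hΨ j)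
        (μ j σ) (fun _ _ k l => γ (σ l) k) fun y hy a g k k₀ h1 h2 h3 h4 => funext fun l => ?_
      rw [tl_apply] at h1
      simp only [Pi.mul_apply, μ]
      split_ifs with h5
      · subst h5
        have h6 : (a⁻¹ * g) • x l = x l :=
          hst l _ (hd l _ h3) _ (by simpa [mul_smul] using hd l _ h1)
        have h7 : g • x l = a • x l := by rw [← inv_smul_eq_iff, ← mul_smul, h6]
        have h8 : T l (!σ l) * γ (!σ l) (a⁻¹ * g) * T l (σ l) = γ (σ l) (a⁻¹ * g) := by
          cases σ l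
          · simp [T, mul_assoc, ← hu l _ h6]
          · simp [T, hu l _ h6]
        have h9 : γ (!σ l) (a⁻¹ * k) * γ (!σ l) (k⁻¹ * g) = γ (!σ l) (a⁻¹ * g) :=
          (hγ _).at (a • x l) (base l a) (chart l a k y h1 h2) (h7 ▸ base l g)
        have h10 : γ (σ l) a * γ (σ l) (a⁻¹ * g) = γ (σ l) g := by
          simpa using (hγ (σ l)).at (a • x l) (chart l a 1 y h1 (by simpa using hy)) (base l a)
            (h7 ▸ base l g)
        have h11 : γ (σ l) g * γ (σ l) (g⁻¹ * k₀) = γ (σ l) k₀ := by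
          simpa using (hγ (σ l)).at (g • x l) (chart l g 1 y h3 (by simpa using hy)) (base l g)
            (chart l g k₀ y h3 h4)
        simp only [τ, flp_self, Bool.not_not]
        rw [← h11, ← h10, ← h8, ← h9]
        simp only [mul_inv_rev, inv_inv, mul_assoc, mul_inv_cancel_left]
      · rw [flp_ne h5, cM _ k k₀ y hy h2 h4]
    simp only [e1, Finset.sum_product]
    rw [w.P_eq hc]
    simp only [Finset.sum_comm (t := Φ)]
    refine Finset.sum_congr rfl fun k _ => ?_
    simp only [← lamB_sum, ← map_sum]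
    congr 2
    ext y
    simp only [c0_sum_apply, ZeroAtInftyContinuousMap.mul_apply, tl_apply]
    by_cases hy : c y = 0
    · simp [hy]
    have e2 : ∀ j, ∑ᶠ g : G, d j (g⁻¹ • y) = ∑ g ∈ Ψ j, d j (g⁻¹ • y) := fun j =>
      finsum_eq_sum_of_support_subset _ fun g hg => hΨ j g y (subset_tsupport _ hy) hg
    have e3 := hsum y
    simp only [e2, sq, Finset.sum_mul_sum] at e3
    simp only [← Finset.sum_mul, ← Finset.mul_sum] at e3 ⊢
    rw [e3, mul_one]
  · have e1 : ∀ j l, l ≠ j → N l (flp j σ) * N j σ = ∑ q ∈ (Ψ l ×ˢ Ψ j) ×ˢ Φ,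
        lamB (fun r => if r = l then τ l (σ l) q.1.1 q.2 else if r = j then τ j (σ j) q.1.2 q.2
          else γ (σ r) q.2) (w.θ q.2 (c * (tl q.1.1 (d l) * tl q.1.2 (d j)) * tl q.2 c)) := by
      intro j l hl
      refine w.comp_kernel hc (Ψ l) (fun a => tl a (d l)) (μ l (flp j σ)) (d j) (Ψ j) (hΨ j)
        (μ j σ) (fun a g k r => if r = l then τ l (σ l) a k else if r = j then τ j (σ j) g k
          else γ (σ r) k) fun y hy a g k k₀ h1 h2 h3 h4 => funext fun r => ?_
      rw [tl_apply] at h1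
      simp only [Pi.mul_apply, μ]
      by_cases h5 : r = l
      · subst h5
        simp only [if_true, if_neg hl, flp_ne hl, τ]
        rw [mul_assoc, cL _ r a k k₀ y h1 h2 h4]
      by_cases h6 : r = j
      · subst h6
        simp only [if_true, if_neg h5, flp_self, τ]
        rw [← cR _ r g k y hy h3 h2]
        simp only [mul_inv_rev, inv_inv, mul_assoc, mul_inv_cancel_left]
      · simp only [if_neg h5, if_neg h6, flp_ne h6]
        exact cM _ k k₀ y hy h2 h4
    rw [e1 j l hl, e1 l j hl.symm]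
    refine Finset.sum_nbij' (fun q => (q.1.swap, q.2)) (fun q => (q.1.swap, q.2)) ?_ ?_ ?_ ?_ ?_
    · simp +contextual
    · simp +contextual
    · simp
    · simp
    · rintro ⟨⟨a, g⟩, k⟩ -
      simp only [Prod.swap_prod_mk, mul_comm (tl a (d l))]
      congr 1
      funext r
      by_cases h5 : r = l
      · simp [h5, hl]
      · simp [h5]

/-- The index over `G` equals the index over any group through which the cocycle lifts. -/
theorem WC.koszul (w : WC G X Z) {c : C₀(X, ℂ)} (hc : IsCutoff G c) {P : Type} [Group P]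
    {γ : G → P} (hγ : IsCocycle c γ) (q : P →* G) (hq : ∀ k, Ov c k → q (γ k) = k) {t t' : ℂ}
    (h : (ntr P z hz).toTR.J (w.gr.lamB P) (w.P c γ) t)
    (h' : (ntr G z hz).toTR.J (w.gr.lamB G) (w.P c id) t') : t = t' := by
  classical
  let ρ₀ : P →* Equiv.Perm (P × G) := (MulAction.toPermHom (P × G) (P × G)).comp (MonoidHom.inl P G)
  let ρ₁ : G →* Equiv.Perm (P × G) := (MulAction.toPermHom (P × G) (P × G)).comp (MonoidHom.inr P G)
  have i₀ : Function.Injective ρ₀ := MulAction.toPerm_injective.comp (Prod.mk_left_injective _)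
  have i₁ : Function.Injective ρ₁ := MulAction.toPerm_injective.comp (Prod.mk_right_injective _)
  let ρ : Bool → P →* Equiv.Perm (P × G) := fun b => if b then ρ₁.comp q else ρ₀
  obtain ⟨m, hm, hs⟩ := w.koszul_sum (z := z) (hz := hz) hc (fun b k => ρ b (γ k))
    (fun b k k' h => by rw [← map_mul, hγ k k' h]) fun x hx => by
      have h1 : ∀ h : MulAction.stabilizer G x, (h : G)⁻¹ • x = x := fun h => h⁻¹.2
      have h2 : ∀ h : MulAction.stabilizer G x, q (γ h) = h := fun h =>
        hq h ⟨x, hx, by rwa [h1]⟩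
      obtain ⟨u, hu⟩ := exists_conj_perm (MonoidHom.mk' (fun h : MulAction.stabilizer G x => γ h)
        fun a b => (hγ a b ⟨x, hx, by rwa [h1], by rwa [← Subgroup.coe_mul, h1]⟩).symm)
        (MulAction.stabilizer G x).subtype
        (fun a b hab => Subtype.ext (by rw [← h2, ← h2 b]; exact congrArg q hab))
        Subtype.val_injective
      refine ⟨u, fun h hh => ?_⟩
      have h3 := hu ⟨h, hh⟩
      simp only [ρ, if_true, MonoidHom.comp_apply, h2 ⟨h, hh⟩]
      exact h3
  have hP : ∀ {P' : Type} [Group P'] (γ' γ'' : G → P'), (∀ k, Ov c k → γ' k = γ'' k) →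
      w.P c γ' = w.P c γ'' := fun γ' γ'' h => by
    rw [w.P_eq hc, w.P_eq hc]
    exact Finset.sum_congr rfl fun k hk => by rw [h k ((finite_Ov hc).mem_toFinset.mp hk)]
  rcases Nat.eq_zero_or_pos m with h0 | h0
  · have := hm h0
    have h1 : ∀ {P' : Type} [Group P'] (γ' : G → P') (s : ℂ),
        (ntr P' z hz).toTR.J (w.gr.lamB P') (w.P c γ') s → s = 0 := fun {P'} _ γ' s h => by
      rw [w.P_eq hc, Finset.sum_eq_zero fun k hk => by
        obtain ⟨x, -⟩ : Ov c k := (finite_Ov hc).mem_toFinset.mp hk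
        exact isEmptyElim x] at h
      have h2 := TR.J.sum (τ := (ntr P' z hz).toTR) (g := w.gr.lamB P') (∅ : Finset Unit)
        (fun _ => 0) (fun _ => 0) (by simp) (by simp) (by simp)
      exact h.unique (by simpa using h2)
    rw [h1 _ _ h, h1 _ _ h']
  have h1 := hs (fun σ => if σ = fun _ => true then t' else t) fun σ => by
    split_ifs with h2
    · have h3 := w.J_map hc id (MonoidHom.pi fun _ : Fin m => ρ₁)
        (fun a b hab => i₁ (congrFun hab ⟨0, h0⟩)) h'
      rwa [hP _ (fun k l => ρ (σ l) (γ k)) fun k hk => funext fun l => by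
        simp [h2, ρ, hq k hk]] at h3
    · obtain ⟨l, hl⟩ := Function.ne_iff.mp h2
      refine w.J_map hc γ (MonoidHom.pi fun l => ρ (σ l)) (fun a b hab => i₀ ?_) h
      simpa [ρ, hl] using congrFun hab l
  have h2 : ∑ σ : Fin m → Bool, (∏ l, if σ l then (-1 : ℂ) else 1) = 0 := by
    rw [← Fintype.piFinset_univ,
      ← Finset.prod_univ_sum (f := fun _ b => if b = true then (-1 : ℂ) else 1)]
    exact Finset.prod_eq_zero (Finset.mem_univ ⟨0, h0⟩) (by simp)
  have h3 : ∑ σ : Fin m → Bool, (∏ l, if σ l then (-1 : ℂ) else 1) *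
      ((if σ = fun _ => true then t' else t) - t) = 0 := by
    simp only [mul_sub, Finset.sum_sub_distrib, h1, ← Finset.sum_mul, h2, zero_mul, sub_zero]
  rw [Finset.sum_eq_single (fun _ => true) (fun σ _ h => by simp [h]) (by simp)] at h3
  exact Eq.symm (by simpa [sub_eq_zero] using h3)

end

/-- The countable set of all possible traces of indices. -/
def traceSet : Set ℂ :=
  {t | ∃ (k : ℕ) (R : Finset (FreeGroup (Fin k))) (r : ℕ)
    (b : Idem (Cr (PresentedGroup (R : Set (FreeGroup (Fin k)))))), t = ∑ i, trace (b.p i i) - r}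

theorem countable_traceSet : traceSet.Countable := by
  have h : traceSet = ⋃ (k : ℕ) (R : Finset (FreeGroup (Fin k))) (r : ℕ), (fun t => t - (r : ℂ)) ''
      {t : ℂ | ∃ e : Idem (Cr (PresentedGroup (R : Set (FreeGroup (Fin k))))),
        t = ∑ i, trace (e.p i i)} := by
    ext t
    simp only [traceSet, Set.mem_ofPred_eq, Set.mem_iUnion, Set.mem_image]
    exact ⟨fun ⟨k, R, r, b, h⟩ => ⟨k, R, r, _, ⟨b, rfl⟩, h.symm⟩,
      fun ⟨k, R, r, _, ⟨b, h1⟩, h⟩ => ⟨k, R, r, b, h1 ▸ h.symm⟩⟩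
  rw [h]
  refine Set.countable_iUnion fun k => ?_
  refine Set.countable_iUnion fun R => Set.countable_iUnion fun r => ?_
  have : Countable (PresentedGroup (R : Set (FreeGroup (Fin k)))) := Quotient.countable
  exact (countable_traces _).image _

theorem WC.mem_traceSet {G X Z : Type} [Group G] [TopologicalSpace X] [MulAction G X]
    [ContinuousConstSMul G X] [NormedAddCommGroup Z] [InnerProductSpace ℂ Z] [T2Space X]
    [LocallyCompactSpace X] [ProperlyDiscontinuousSMul G X] [CompleteSpace Z] {z : Z}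
    {hz : ‖z‖ = 1} (w : WC G X Z) {c : C₀(X, ℂ)} (hc : IsCutoff G c) {t : ℂ}
    (h : (ntr G z hz).toTR.J (w.gr.lamB G) (w.P c id) t) : t ∈ traceSet := by
  classical
  let Φ := (finite_Ov hc).toFinset
  let e := Φ.equivFin
  let γ₀ : G → FreeGroup (Fin Φ.card) := fun k =>
    if h : k ∈ Φ then FreeGroup.of (e ⟨k, h⟩) else 1
  let R : Finset (FreeGroup (Fin Φ.card)) := ((Φ ×ˢ Φ).filter fun p => p.1 * p.2 ∈ Φ).image
    fun p => γ₀ p.1 * γ₀ p.2 * (γ₀ (p.1 * p.2))⁻¹
  have mΦ : ∀ k, k ∈ Φ ↔ Ov c k := fun k => Set.Finite.mem_toFinset _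
  have h0 : ∀ k ∈ Φ, FreeGroup.lift (fun i => (e.symm i : G)) (γ₀ k) = k := fun k hk => by
    simp [γ₀, hk]
  let q : PresentedGroup (R : Set (FreeGroup (Fin Φ.card))) →* G :=
    PresentedGroup.toGroup (f := fun i => (e.symm i : G)) fun r hr => by
      obtain ⟨p, hp, rfl⟩ := Finset.mem_image.mp hr
      simp only [Finset.mem_filter, Finset.mem_product] at hp
      simp [h0 _ hp.1.1, h0 _ hp.1.2, h0 _ hp.2]
  have hγ : IsCocycle c fun k => PresentedGroup.mk (R : Set (FreeGroup (Fin Φ.card))) (γ₀ k) := by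
    rintro k k' ⟨x, h1, h2, h3⟩
    rw [← map_mul, ← mul_inv_eq_one, ← map_inv, ← map_mul]
    refine PresentedGroup.one_of_mem (Finset.mem_image.mpr ⟨(k, k'), ?_, rfl⟩)
    simp only [Finset.mem_filter, Finset.mem_product, mΦ]
    exact ⟨⟨⟨x, h1, h2⟩, _, h2, by simpa [mul_smul] using h3⟩, x, h1, h3⟩
  obtain ⟨t', ht'⟩ := TR.J.exists (w.P_idem hc hγ) (w.PL_P (z := z) (hz := hz) hc _)
  obtain ⟨r, b, hb⟩ := ind_mem_traces ht'
  refine ⟨_, R, r, b, ?_⟩
  rw [← hb]
  exact (w.koszul hc hγ q (fun k hk => h0 k ((mΦ k).mpr hk)) ht' h).symm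

end Vale.Agent.P089A
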