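import Vale.Agent.P089A.Defs
import Vale.Agent.P089A.TR

/-! The concrete traced rings: the closure of `ℂ[Π] ⊗ B(Z)` acting on `ℓ²(Π; Z)`. -/

namespace Vale.Agent.P089A

open scoped InnerProductSpace

noncomputable section

section lam

variable {G : Type} [Group G] {H K M : Type} [NormedAddCommGroup H] [InnerProductSpace ℂ H]
  [NormedAddCommGroup K] [InnerProductSpace ℂ K] [NormedAddCommGroup M] [InnerProductSpace ℂ M]

@[simp] lemma lam_apply (g : G) (T : H →L[ℂ] K) (ξ : L2 G H) (h : G) :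
    lam g T ξ h = T (ξ (g⁻¹ * h)) := rfl

lemma lam_comp (g g' : G) (T : K →L[ℂ] M) (T' : H →L[ℂ] K) :
    lam g T ∘L lam g' T' = lam (g * g') (T ∘L T') := by
  ext ξ h; simp [mul_assoc]

lemma lam_mul (g g' : G) (T T' : H →L[ℂ] H) : lam g T * lam g' T' = lam (g * g') (T * T') :=
  lam_comp g g' T T'

lemma lam_add (g : G) (T T' : H →L[ℂ] K) : lam g (T + T') = lam g T + lam g T' := by
  ext ξ h; simp

lemma lam_smul (g : G) (c : ℂ) (T : H →L[ℂ] K) : lam g (c • T) = c • lam g T := by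
  ext ξ h; simp

@[simp] lemma lam_zero (g : G) : lam g (0 : H →L[ℂ] K) = 0 := by
  ext ξ h; simp

lemma lam_one : lam (1 : G) (1 : H →L[ℂ] H) = 1 := by
  ext ξ h; simp

lemma norm_lam_le (g : G) (T : H →L[ℂ] K) : ‖lam g T‖ ≤ ‖T‖ :=
  LinearMap.mkContinuous_norm_le _ (norm_nonneg _) _

end lam

instance endTopRing (G Z : Type) [NormedAddCommGroup Z] [InnerProductSpace ℂ Z] :
    IsTopologicalRing (L2 G Z →L[ℂ] L2 G Z) :=
  @NonUnitalSeminormedRing.toIsTopologicalRing _ (ContinuousLinearMap.toNormedRing (𝕜 := ℂ)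
    (E := L2 G Z)).toNonUnitalNormedRing.toNonUnitalSeminormedRing

/-- The closure of `ℂ[G] ⊗ B(Z)`. -/
def BG (G Z : Type) [Group G] [NormedAddCommGroup Z] [InnerProductSpace ℂ Z] :
    Subalgebra ℂ (L2 G Z →L[ℂ] L2 G Z) :=
  (Algebra.adjoin ℂ {a | ∃ (g : G) (T : Z →L[ℂ] Z), a = lam g T}).topologicalClosure

variable {G Z : Type} [Group G] [NormedAddCommGroup Z] [InnerProductSpace ℂ Z] [CompleteSpace Z]

instance : CompleteSpace (BG G Z) :=
  IsClosed.completeSpace_coe (hs := Subalgebra.isClosed_topologicalClosure _)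

/-- `λ_g ⊗ T` as an element of `BG`. -/
def lamB (g : G) (T : Z →L[ℂ] Z) : BG G Z :=
  ⟨lam g T, Subalgebra.le_topologicalClosure _ (Algebra.subset_adjoin ⟨g, T, rfl⟩)⟩

omit [CompleteSpace Z] in
lemma lamB_mul (g g' : G) (T T' : Z →L[ℂ] Z) : lamB g T * lamB g' T' = lamB (g * g') (T * T') :=
  Subtype.ext (lam_mul g g' T T')

omit [CompleteSpace Z] in
lemma lamB_add (g : G) (T T' : Z →L[ℂ] Z) : lamB g (T + T') = lamB g T + lamB g T' :=
  Subtype.ext (lam_add g T T')

omit [CompleteSpace Z] in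
@[simp] lemma lamB_zero (g : G) : lamB g (0 : Z →L[ℂ] Z) = 0 := Subtype.ext (lam_zero g)

omit [CompleteSpace Z] in
lemma lamB_one : lamB (1 : G) (1 : Z →L[ℂ] Z) = 1 := Subtype.ext lam_one

omit [CompleteSpace Z] in
lemma lamB_sub (g : G) (T T' : Z →L[ℂ] Z) : lamB g (T - T') = lamB g T - lamB g T' := by
  rw [eq_sub_iff_add_eq, ← lamB_add, sub_add_cancel]

omit [CompleteSpace Z] in
lemma lamB_smul (g : G) (c : ℂ) (T : Z →L[ℂ] Z) : lamB g (c • T) = c • lamB g T :=
  Subtype.ext (lam_smul g c T)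

omit [CompleteSpace Z] in
lemma lamB_sum {ι : Type} (g : G) (s : Finset ι) (T : ι → Z →L[ℂ] Z) :
    lamB g (∑ i ∈ s, T i) = ∑ i ∈ s, lamB g (T i) := by
  classical
  induction s using Finset.induction_on with
  | empty => simp
  | insert a s ha ih => rw [Finset.sum_insert ha, Finset.sum_insert ha, lamB_add, ih]

lemma norm_lamB_le (g : G) (T : Z →L[ℂ] Z) : ‖lamB g T‖ ≤ ‖T‖ := norm_lam_le g T

/-- Closed additive predicates on the closure of the span of a set stable under scalars. -/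
lemma closure_span_ind {E : Type} [AddCommGroup E] [Module ℂ E] [TopologicalSpace E] {S : Set E}
    (hS : ∀ c : ℂ, ∀ x ∈ S, c • x ∈ S) {P : E → Prop} (hc : IsClosed {a | P a}) (h0 : P 0)
    (ha : ∀ a b, P a → P b → P (a + b)) (hg : ∀ x ∈ S, P x) {a : E}
    (h : a ∈ closure (Submodule.span ℂ S : Set E)) : P a := by
  refine closure_minimal (t := {a | P a}) (fun x hx => ?_) hc h
  have : ∀ c : ℂ, P (c • x) := by
    induction hx using Submodule.span_induction with
    | mem x hx => exact fun c => hg _ (hS c x hx)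
    | zero => intro c; rw [smul_zero]; exact h0
    | add x y _ _ hx hy => intro c; rw [smul_add]; exact ha _ _ (hx c) (hy c)
    | smul d x _ hx => intro c; rw [smul_smul]; exact hx _
  simpa using this 1

omit [CompleteSpace Z] in
lemma mem_BG_iff {a : L2 G Z →L[ℂ] L2 G Z} : a ∈ BG G Z ↔
    a ∈ closure (Submodule.span ℂ {a | ∃ (g : G) (T : Z →L[ℂ] Z), a = lam g T} :
      Set (L2 G Z →L[ℂ] L2 G Z)) := by
  rw [← Algebra.adjoin_eq_span_of_subset]
  · rfl
  · intro x hx
    refine Submodule.subset_span ?_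
    induction hx using Submonoid.closure_induction with
    | mem x hx => exact hx
    | one => exact ⟨1, 1, lam_one.symm⟩
    | mul x y _ _ hx hy =>
      obtain ⟨g, T, rfl⟩ := hx
      obtain ⟨g', T', rfl⟩ := hy
      exact ⟨_, _, lam_mul _ _ _ _⟩

omit [CompleteSpace Z] in
/-- Induction on `BG`. -/
lemma BG.ind {P : BG G Z → Prop} (hc : IsClosed {a | P a}) (h0 : P 0)
    (ha : ∀ a b, P a → P b → P (a + b)) (hg : ∀ g T, P (lamB g T)) (a : BG G Z) : P a := by
  have hcl : IsClosed (BG G Z : Set (L2 G Z →L[ℂ] L2 G Z)) :=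
    Subalgebra.isClosed_topologicalClosure _
  have h := closure_span_ind (P := fun x => x ∈ Subtype.val '' {a | P a})
    (by rintro c _ ⟨g, T, rfl⟩; exact ⟨g, c • T, (lam_smul g c T).symm⟩)
    (hcl.isClosedEmbedding_subtypeVal.isClosedMap _ hc) ⟨0, h0, rfl⟩
    (by rintro _ _ ⟨a, h1, rfl⟩ ⟨b, h2, rfl⟩; exact ⟨a + b, ha _ _ h1 h2, rfl⟩)
    (by rintro _ ⟨g, T, rfl⟩; exact ⟨lamB g T, hg g T, rfl⟩) (mem_BG_iff.1 a.2)
  obtain ⟨b, hb, e⟩ := h
  rwa [← Subtype.ext e]

omit [CompleteSpace Z] in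
lemma Kc_le_BG {a : L2 G Z →L[ℂ] L2 G Z} (h : a ∈ Kc G Z) : a ∈ BG G Z := by
  refine mem_BG_iff.2 (closure_mono (Submodule.span_mono ?_) h)
  rintro _ ⟨g, k, -, rfl⟩
  exact ⟨g, k, rfl⟩

open Classical in
/-- The vector state of `δ₁ ⊗ z`. -/
def st (z : Z) (a : BG G Z) : ℂ :=
  ⟪z, (a : L2 G Z →L[ℂ] L2 G Z) (lp.single 2 (1 : G) z) 1⟫_ℂ

/-- The projection `1 ⊗ |z⟩⟨z|`. -/
def eps (G : Type) [Group G] (z : Z) : BG G Z := lamB 1 (InnerProductSpace.rankOne ℂ z z)

omit [CompleteSpace Z] in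
lemma st_add (z : Z) (a b : BG G Z) : st z (a + b) = st z a + st z b := by
  simp [st]

omit [CompleteSpace Z] in
lemma st_zero (z : Z) : st z (0 : BG G Z) = 0 := by
  simp [st]

omit [CompleteSpace Z] in
lemma st_sum {ι : Type} (z : Z) (s : Finset ι) (a : ι → BG G Z) :
    st z (∑ i ∈ s, a i) = ∑ i ∈ s, st z (a i) := by
  classical
  induction s using Finset.induction_on with
  | empty => simpa using st_zero z
  | insert a s ha ih => rw [Finset.sum_insert ha, Finset.sum_insert ha, st_add, ih]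

omit [CompleteSpace Z] in
lemma continuous_st (z : Z) : Continuous (st z : BG G Z → ℂ) := by
  classical
  refine continuous_const.inner ?_
  refine (lp.evalCLM ℂ (fun _ : G => Z) 2 1).continuous.comp ?_
  exact (ContinuousLinearMap.apply ℂ (L2 G Z) _).continuous.comp continuous_subtype_val

open Classical in
omit [CompleteSpace Z] in
lemma st_lamB (z : Z) (g : G) (T : Z →L[ℂ] Z) :
    st z (lamB g T) = if g = 1 then ⟪z, T z⟫_ℂ else 0 := by
  unfold st lamB
  split_ifs with h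
  · simp [h]
  · rw [lam_apply, lp.single_apply_ne _ _ _ (by simpa using h)]
    simp

omit [CompleteSpace Z] in
lemma st_comm (z : Z) (a b : BG G Z) : st z (a * eps G z * b) = st z (b * eps G z * a) := by
  induction a using BG.ind with
  | hc => exact isClosed_eq ((continuous_st z).comp (by fun_prop)) ((continuous_st z).comp (by fun_prop))
  | h0 => simp
  | ha a a' h h' => simp only [add_mul, mul_add, st_add, h, h']
  | hg g T =>
    induction b using BG.ind with
    | hc => exact isClosed_eq ((continuous_st z).comp (by fun_prop)) ((continuous_st z).comp (by fun_prop))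
    | h0 => simp
    | ha a a' h h' => simp only [add_mul, mul_add, st_add, h, h']
    | hg g' T' =>
      simp only [eps, lamB_mul, st_lamB, mul_one]
      by_cases h : g * g' = 1
      · rw [if_pos h, if_pos (mul_eq_one_comm.1 h)]
        simp [mul_comm]
      · rw [if_neg h, if_neg fun h' => h (mul_eq_one_comm.1 h')]

lemma mem_Cr_iff {a : L2 G ℂ →L[ℂ] L2 G ℂ} : a ∈ Cr G ↔ a ∈ BG G ℂ := by
  have : Algebra.adjoin ℂ (Set.range fun g : G => lam g (ContinuousLinearMap.id ℂ ℂ)) =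
      Algebra.adjoin ℂ {a | ∃ (g : G) (T : ℂ →L[ℂ] ℂ), a = lam g T} := by
    refine le_antisymm (Algebra.adjoin_mono ?_) (Algebra.adjoin_le ?_)
    · rintro _ ⟨g, rfl⟩
      exact ⟨g, _, rfl⟩
    · rintro _ ⟨g, T, rfl⟩
      have e : T = T 1 • ContinuousLinearMap.id ℂ ℂ := by ext; simp
      rw [e, lam_smul]
      exact Subalgebra.smul_mem _ (Algebra.subset_adjoin (Set.mem_range_self g)) _
  unfold Cr BG
  rw [this]

omit [CompleteSpace Z] in
/-- Finite rank projections fixing a given finite set. -/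
lemma exists_proj (s : Finset Z) : ∃ Q : Z →L[ℂ] Z, ‖Q‖ ≤ 1 ∧ (∀ y ∈ s, Q y = y) ∧
    ∃ (n : ℕ) (x : Fin n → Z), Q = ∑ k, InnerProductSpace.rankOne ℂ (x k) (x k) := by
  let U := Submodule.span ℂ (s : Set Z)
  have : CompleteSpace U := FiniteDimensional.complete ℂ U
  exact ⟨U.starProjection, U.starProjection_norm_le,
    fun y hy => Submodule.starProjection_eq_self_iff.2 (Submodule.subset_span hy), _, _,
    (stdOrthonormalBasis ℂ U).starProjection_eq_sum_rankOne⟩

/-- A finite rank projection fixing a given finite set. -/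
def fproj (s : Finset Z) : Z →L[ℂ] Z := (exists_proj s).choose

omit [CompleteSpace Z] in
lemma tendsto_fproj (ξ : L2 G Z) :
    Filter.Tendsto (fun s : Finset Z => lam (1 : G) (fproj s) ξ) Filter.atTop (nhds ξ) := by
  classical
  rw [Metric.tendsto_atTop]
  intro δ hδ
  obtain ⟨S, hS⟩ := Metric.tendsto_atTop.1 (lp.hasSum_single (by simp) ξ) (δ / 2) (half_pos hδ)
  have h1 := hS S le_rfl
  set η := ∑ g ∈ S, lp.single (E := fun _ : G => Z) 2 g (ξ g) with hη
  refine ⟨S.image ξ, fun s hs => ?_⟩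
  obtain ⟨q1, q2, -⟩ := (exists_proj s).choose_spec
  have h2 : lam (1 : G) (fproj s) η = η := by
    rw [hη, map_sum]
    refine Finset.sum_congr rfl fun g hg => lp.ext (funext fun h => ?_)
    rw [lam_apply, inv_one, one_mul]
    by_cases e : h = g
    · subst e
      rw [lp.single_apply_self]
      exact q2 _ (hs (Finset.mem_image_of_mem _ hg))
    · rw [lp.single_apply_ne _ _ _ e, map_zero]
  have h3 : ‖lam (1 : G) (fproj s) (ξ - η)‖ ≤ ‖ξ - η‖ :=
    ((lam (1 : G) (fproj s)).le_of_opNorm_le ((norm_lam_le _ _).trans q1) _).trans_eq (one_mul _)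
  rw [map_sub, h2] at h3
  rw [dist_eq_norm] at h1 ⊢
  have h4 := norm_sub_le_norm_sub_add_norm_sub (lam (1 : G) (fproj s) ξ) η ξ
  rw [norm_sub_rev] at h1
  rw [norm_sub_rev η] at h4
  linarith

omit [CompleteSpace Z] in
lemma tendsto_st (z : Z) (a b : BG G Z) : Filter.Tendsto
    (fun s : Finset Z => st z (b * lamB 1 (fproj s) * a)) Filter.atTop (nhds (st z (b * a))) := by
  classical
  have h : Continuous fun ξ : L2 G Z => ⟪z, (b : L2 G Z →L[ℂ] L2 G Z) ξ 1⟫_ℂ :=
    continuous_const.inner ((lp.evalCLM ℂ (fun _ : G => Z) 2 1).continuous.comp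
      (b : L2 G Z →L[ℂ] L2 G Z).continuous)
  exact (h.tendsto _).comp (tendsto_fproj _)

omit [CompleteSpace Z] in
lemma lamB_rankOne {z : Z} (hz : ‖z‖ = 1) (x y : Z) :
    lamB (1 : G) (InnerProductSpace.rankOne ℂ x y) =
      lamB 1 (InnerProductSpace.rankOne ℂ x z) * eps G z * lamB 1 (InnerProductSpace.rankOne ℂ z y) := by
  simp only [eps, lamB_mul, mul_one]
  congr 1
  ext w
  simp [hz]

omit [CompleteSpace Z] in
lemma eps_idem {z : Z} (hz : ‖z‖ = 1) : eps G z * eps G z = eps G z := by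
  simp only [eps, lamB_mul, mul_one]
  congr 1
  ext w
  simp [hz]

omit [CompleteSpace Z] in
lemma sum_st_eq {z : Z} (hz : ‖z‖ = 1) {ι κ : Type} [Fintype ι] [Fintype κ] (a b : ι → BG G Z)
    (c d : κ → BG G Z) (h : ∑ i, a i * eps G z * b i = ∑ i, c i * eps G z * d i) :
    ∑ i, st z (b i * a i) = ∑ i, st z (d i * c i) := by
  have key : ∀ {ι : Type} [Fintype ι] (a b : ι → BG G Z) (x : Z),
      ∑ i, st z (b i * lamB 1 (InnerProductSpace.rankOne ℂ x x) * a i) =
        st z (lamB 1 (InnerProductSpace.rankOne ℂ z x) * (∑ i, a i * eps G z * b i) *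
          lamB 1 (InnerProductSpace.rankOne ℂ x z)) := by
    intro ι _ a b x
    rw [Finset.mul_sum, Finset.sum_mul, st_sum]
    refine Finset.sum_congr rfl fun i _ => ?_
    have := st_comm z (b i * lamB 1 (InnerProductSpace.rankOne ℂ x z))
      (lamB 1 (InnerProductSpace.rankOne ℂ z x) * a i)
    rw [lamB_rankOne hz x x]
    simpa only [mul_assoc] using this
  have key2 : ∀ s : Finset Z, ∑ i, st z (b i * lamB 1 (fproj s) * a i) =
      ∑ i, st z (d i * lamB 1 (fproj s) * c i) := by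
    intro s
    obtain ⟨-, -, n, x, hx⟩ := (exists_proj s).choose_spec
    simp only [fproj, hx, lamB_sum, Finset.mul_sum, Finset.sum_mul, st_sum]
    rw [Finset.sum_comm, Finset.sum_comm (s := Finset.univ (α := κ))]
    simp only [key, h]
  have t1 := tendsto_finsetSum Finset.univ fun i _ => tendsto_st z (a i) (b i)
  have t2 := tendsto_finsetSum Finset.univ fun i _ => tendsto_st z (c i) (d i)
  simp only [key2] at t1
  exact tendsto_nhds_unique t1 t2

/-- The finite rank elements. -/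
def FS (G : Type) [Group G] (z : Z) : Set (BG G Z) :=
  {x | ∃ (r : ℕ) (a b : Fin r → BG G Z), x = ∑ i, a i * eps G z * b i}

omit [CompleteSpace Z] in
lemma sum_mem_FS (z : Z) {ι : Type} [Fintype ι] (a b : ι → BG G Z) :
    ∑ i, a i * eps G z * b i ∈ FS G z :=
  ⟨_, a ∘ (Fintype.equivFin ι).symm, b ∘ (Fintype.equivFin ι).symm,
    ((Fintype.equivFin ι).symm.sum_comp fun i => a i * eps G z * b i).symm⟩

open Classical in
/-- The trace of a finite rank element. -/
def trS (z : Z) (x : BG G Z) : ℂ :=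
  if h : x ∈ FS G z then ∑ i, st z (h.choose_spec.choose_spec.choose i * h.choose_spec.choose i)
  else 0

omit [CompleteSpace Z] in
lemma trS_sum {z : Z} (hz : ‖z‖ = 1) {ι : Type} [Fintype ι] (a b : ι → BG G Z) :
    trS z (∑ i, a i * eps G z * b i) = ∑ i, st z (b i * a i) := by
  have h := sum_mem_FS z a b
  rw [trS, dif_pos h]
  exact sum_st_eq hz _ _ _ _ h.choose_spec.choose_spec.choose_spec.symm

omit [CompleteSpace Z] in
lemma sum_add_sum (e : BG G Z) {ι κ : Type} [Fintype ι] [Fintype κ] (a b : ι → BG G Z)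
    (c d : κ → BG G Z) : ∑ i, a i * e * b i + ∑ i, c i * e * d i =
      ∑ i, Sum.elim a c i * e * Sum.elim b d i := by
  rw [Fintype.sum_sum_type]; rfl

/-- The ideal of finite rank elements. -/
def FI (G : Type) [Group G] (z : Z) : TwoSidedIdeal (BG G Z) :=
  TwoSidedIdeal.mk' (FS G z) ⟨0, 0, 0, by simp⟩
    (by rintro _ _ ⟨r, a, b, rfl⟩ ⟨r', c, d, rfl⟩; rw [sum_add_sum]; exact sum_mem_FS z _ _)
    (by
      rintro _ ⟨r, a, b, rfl⟩
      refine ⟨r, fun i => -1 * a i, b, (neg_one_mul (∑ i, a i * eps G z * b i)).symm.trans ?_⟩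
      simp only [Finset.mul_sum, mul_assoc])
    (by
      rintro x _ ⟨r, a, b, rfl⟩
      exact ⟨r, fun i => x * a i, b, by simp only [Finset.mul_sum, mul_assoc]⟩)
    (by
      rintro _ x ⟨r, a, b, rfl⟩
      exact ⟨r, a, fun i => b i * x, by simp only [Finset.sum_mul, mul_assoc]⟩)

omit [CompleteSpace Z] in
lemma mem_FI {z : Z} {x : BG G Z} : x ∈ FI G z ↔ x ∈ FS G z := TwoSidedIdeal.mem_mk' _ _ _ _ _ _ _

omit [CompleteSpace Z] in
lemma isClosed_Kc : IsClosed (Kc G Z : Set (L2 G Z →L[ℂ] L2 G Z)) :=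
  Submodule.isClosed_topologicalClosure _

omit [CompleteSpace Z] in
lemma lam_mem_Kc (g : G) {k : Z →L[ℂ] Z} (hk : IsCompactOperator k) : lam g k ∈ Kc G Z :=
  Submodule.le_topologicalClosure _ (Submodule.subset_span ⟨g, k, hk, rfl⟩)

omit [CompleteSpace Z] in
lemma Kc.ind {P : (L2 G Z →L[ℂ] L2 G Z) → Prop} (hc : IsClosed {a | P a}) (h0 : P 0)
    (ha : ∀ a b, P a → P b → P (a + b))
    (hg : ∀ g (k : Z →L[ℂ] Z), IsCompactOperator k → P (lam g k)) {a} (h : a ∈ Kc G Z) : P a :=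
  closure_span_ind
    (by rintro c _ ⟨g, k, hk, rfl⟩; exact ⟨g, c • k, hk.smul c, (lam_smul g c k).symm⟩)
    hc h0 ha (by rintro _ ⟨g, k, hk, rfl⟩; exact hg g k hk) h

omit [CompleteSpace Z] in
lemma mul_mem_Kc (y : BG G Z) {x : L2 G Z →L[ℂ] L2 G Z} (hx : x ∈ Kc G Z) :
    (y : L2 G Z →L[ℂ] L2 G Z) * x ∈ Kc G Z ∧ x * (y : L2 G Z →L[ℂ] L2 G Z) ∈ Kc G Z := by
  induction y using BG.ind with
  | hc =>
    exact (isClosed_Kc.preimage (continuous_subtype_val.mul continuous_const)).inter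
      (isClosed_Kc.preimage (continuous_const.mul continuous_subtype_val))
  | h0 => simp
  | ha a b h h' =>
    rw [Subalgebra.coe_add, add_mul, mul_add]
    exact ⟨add_mem h.1 h'.1, add_mem h.2 h'.2⟩
  | hg g T =>
    refine Kc.ind (P := fun x => lam g T * x ∈ Kc G Z ∧ x * lam g T ∈ Kc G Z) ?_ (by simp) ?_ ?_ hx
    · exact (isClosed_Kc.preimage (continuous_const.mul continuous_id)).inter
        (isClosed_Kc.preimage (continuous_id.mul continuous_const))
    · intro a b h h'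
      rw [add_mul, mul_add]
      exact ⟨add_mem h.1 h'.1, add_mem h.2 h'.2⟩
    · intro g' k hk
      rw [lam_mul, lam_mul]
      exact ⟨lam_mem_Kc _ (hk.clm_comp T), lam_mem_Kc _ (hk.comp_clm T)⟩

/-- The ideal of compact elements. -/
def KI (G Z : Type) [Group G] [NormedAddCommGroup Z] [InnerProductSpace ℂ Z] :
    TwoSidedIdeal (BG G Z) :=
  TwoSidedIdeal.mk' {x | (x : L2 G Z →L[ℂ] L2 G Z) ∈ Kc G Z} (Kc G Z).zero_mem
    (fun h h' => (Kc G Z).add_mem h h') (fun h => (Kc G Z).neg_mem h)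
    (fun h => (mul_mem_Kc _ h).1) (fun h => (mul_mem_Kc _ h).2)

omit [CompleteSpace Z] in
lemma mem_KI {x : BG G Z} : x ∈ KI G Z ↔ (x : L2 G Z →L[ℂ] L2 G Z) ∈ Kc G Z :=
  TwoSidedIdeal.mem_mk' _ _ _ _ _ _ _

omit [CompleteSpace Z] in
lemma eps_mem_KI (z : Z) : eps G z ∈ KI G Z :=
  mem_KI.2 (lam_mem_Kc _ ((isCompactOperator_of_locallyCompactSpace_dom (innerSL ℂ z)).clm_comp
    (ContinuousLinearMap.toSpanSingleton ℂ z)))

omit [CompleteSpace Z] in
lemma fproj_mem_FI {z : Z} (hz : ‖z‖ = 1) (s : Finset Z) : lamB (1 : G) (fproj s) ∈ FI G z := by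
  obtain ⟨-, -, n, x, hx⟩ := (exists_proj s).choose_spec
  rw [fproj, hx, lamB_sum, mem_FI]
  exact ⟨n, _, _, Finset.sum_congr rfl fun i _ => lamB_rankOne hz _ _⟩

omit [CompleteSpace Z] in
lemma exists_fproj {k : Z →L[ℂ] Z} (hk : IsCompactOperator k) {δ : ℝ} (hδ : 0 < δ) :
    ∃ s : Finset Z, ‖k - fproj s * k‖ ≤ δ := by
  obtain ⟨t, -, ht, hc⟩ := finite_cover_balls_of_compact
    (IsCompactOperator.isCompact_closure_image_closedBall (f := (k : Z →ₗ[ℂ] Z)) hk 1) (half_pos hδ)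
  refine ⟨ht.toFinset, ContinuousLinearMap.opNorm_le_of_unit_norm hδ.le fun x hx => ?_⟩
  obtain ⟨q1, q2, -⟩ := (exists_proj ht.toFinset).choose_spec
  obtain ⟨y, hy, h⟩ := Set.mem_iUnion₂.1 (hc (subset_closure ⟨x, by simp [hx], rfl⟩))
  have h1 : ‖k x - y‖ < δ / 2 := by simpa [dist_eq_norm] using h
  have h2 : ‖fproj ht.toFinset (k x - y)‖ ≤ ‖k x - y‖ :=
    ((fproj ht.toFinset).le_of_opNorm_le q1 _).trans_eq (one_mul _)
  rw [map_sub, show fproj ht.toFinset y = y from q2 y (ht.mem_toFinset.2 hy), norm_sub_rev] at h2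
  have h3 := norm_sub_le_norm_sub_add_norm_sub (k x) y (fproj ht.toFinset (k x))
  show ‖k x - fproj ht.toFinset (k x)‖ ≤ δ
  linarith

lemma FI_dense {z : Z} (hz : ‖z‖ = 1) {k : BG G Z} (hk : k ∈ KI G Z) {δ : ℝ} (hδ : 0 < δ) :
    ∃ f ∈ FI G z, ‖k - f‖ < δ := by
  have h : (k : L2 G Z →L[ℂ] L2 G Z) ∈ closure (Subtype.val '' (FI G z : Set (BG G Z))) := by
    refine Kc.ind (P := fun x => x ∈ closure (Subtype.val '' (FI G z : Set (BG G Z))))
      isClosed_closure (subset_closure ⟨0, (FI G z).zero_mem, rfl⟩) ?_ ?_ (mem_KI.1 hk)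
    · intro a b ha hb
      refine map_mem_closure₂ continuous_add ha hb ?_
      rintro _ ⟨a, ha, rfl⟩ _ ⟨b, hb, rfl⟩
      exact ⟨a + b, (FI G z).add_mem ha hb, rfl⟩
    · intro g k hk
      refine Metric.mem_closure_iff.2 fun δ hδ => ?_
      obtain ⟨s, hs⟩ := exists_fproj hk (half_pos hδ)
      refine ⟨_, ⟨_, (FI G z).mul_mem_right _ (lamB g k) (fproj_mem_FI hz s), rfl⟩, ?_⟩
      have h1 := norm_lamB_le g (k - fproj s * k)
      rw [lamB_sub] at h1
      rw [lamB_mul, one_mul, dist_eq_norm]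
      exact (h1.trans hs).trans_lt (half_lt_self hδ)
  obtain ⟨_, ⟨f, hf, rfl⟩, h⟩ := Metric.mem_closure_iff.1 h δ hδ
  exact ⟨f, hf, by rwa [dist_eq_norm] at h⟩

/-- The traced ring structure on `BG G Z`. -/
theorem exists_ntr (G : Type) [Group G] (z : Z) (hz : ‖z‖ = 1) : ∃ ν : NTR (BG G Z),
    (∀ x, x ∈ ν.F ↔ ∃ (r : ℕ) (a b : Fin r → BG G Z), x = ∑ i, a i * eps G z * b i) ∧
    (∀ x, x ∈ ν.K ↔ (x : L2 G Z →L[ℂ] L2 G Z) ∈ Kc G Z) ∧
    ∀ a b, ν.tr (a * eps G z * b) = st z (b * a) := by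
  refine ⟨⟨FI G z, KI G Z, trS z, ?_, ?_, ?_, fun k hk δ hδ => FI_dense hz hk hδ⟩,
    fun x => mem_FI, fun x => mem_KI, fun a b => ?_⟩
  · intro x hx
    obtain ⟨r, a, b, rfl⟩ := mem_FI.1 hx
    exact (KI G Z).finsetSum_mem _ _ fun i _ =>
      (KI G Z).mul_mem_right _ _ ((KI G Z).mul_mem_left _ _ (eps_mem_KI z))
  · intro x hx y hy
    obtain ⟨r, a, b, rfl⟩ := mem_FI.1 hx
    obtain ⟨r', c, d, rfl⟩ := mem_FI.1 hy
    rw [sum_add_sum, trS_sum hz, trS_sum hz, trS_sum hz, Fintype.sum_sum_type]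
    rfl
  · intro x hx y
    obtain ⟨r, a, b, rfl⟩ := mem_FI.1 hx
    have h1 := trS_sum hz a fun i => b i * y
    have h2 := trS_sum hz (fun i => y * a i) b
    simp only [Finset.mul_sum, Finset.sum_mul, mul_assoc] at h1 h2 ⊢
    rw [h1, h2]
  · simpa using trS_sum hz (fun _ : Unit => a) fun _ => b

/-- The traced ring structure on `BG G Z`. -/
def ntr (G : Type) [Group G] (z : Z) (hz : ‖z‖ = 1) : NTR (BG G Z) := (exists_ntr G z hz).choose

variable {z : Z} {hz : ‖z‖ = 1}

lemma ntr_F (x : BG G Z) : x ∈ (ntr G z hz).F ↔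
    ∃ (r : ℕ) (a b : Fin r → BG G Z), x = ∑ i, a i * eps G z * b i :=
  (exists_ntr G z hz).choose_spec.1 x

lemma ntr_K (x : BG G Z) : x ∈ (ntr G z hz).K ↔ (x : L2 G Z →L[ℂ] L2 G Z) ∈ Kc G Z :=
  (exists_ntr G z hz).choose_spec.2.1 x

lemma ntr_tr (a b : BG G Z) : (ntr G z hz).tr (a * eps G z * b) = st z (b * a) :=
  (exists_ntr G z hz).choose_spec.2.2 a b

lemma lamB_mem_K (g : G) {k : Z →L[ℂ] Z} (hk : IsCompactOperator k) :
    lamB g k ∈ (ntr G z hz).K :=
  (ntr_K _).2 (lam_mem_Kc g hk)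

lemma exists_coset_equiv {G G' : Type} [Group G] [Group G'] (i : G →* G')
    (hi : Function.Injective i) :
    ∃ (Q : Type) (e : Q × G ≃ G'), ∀ q k g, e (q, k * g) = i k * e (q, g) := by
  refine ⟨Quotient (QuotientGroup.rightRel i.range),
    Equiv.ofBijective (fun p => i p.2 * p.1.out) ⟨?_, ?_⟩, fun q k g => ?_⟩
  rotate_right
  · show i (k * g) * q.out = i k * (i g * q.out)
    rw [map_mul, mul_assoc]
  · rintro ⟨q, g⟩ ⟨q', g'⟩ h
    have h' : i g * q.out = i g' * q'.out := h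
    have e : q = q' := by
      rw [← q.out_eq, ← q'.out_eq]
      refine Quotient.sound (QuotientGroup.rightRel_apply.2 ⟨g'⁻¹ * g, ?_⟩)
      rw [map_mul, map_inv, eq_mul_inv_iff_mul_eq, mul_assoc, h', inv_mul_cancel_left]
    subst e
    rw [hi (mul_right_cancel h')]
  · intro x
    obtain ⟨g, hg⟩ := QuotientGroup.rightRel_apply.1
      (Quotient.exact (Quotient.out_eq (Quotient.mk (QuotientGroup.rightRel i.range) x)))
    exact ⟨(Quotient.mk _ x, g), by simp only [hg, inv_mul_cancel_right]⟩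

section amp

variable {X Y Q W : Type} [NormedAddCommGroup W] [NormedSpace ℂ W]

omit [NormedSpace ℂ W] in
lemma hasSum_sq (ξ : L2 X W) : HasSum (fun h : X => ‖ξ h‖ ^ (2 : ℝ)) (‖ξ‖ ^ (2 : ℝ)) := by
  simpa using lp.hasSum_norm (p := 2) (by norm_num) ξ

/-- The slices of a square summable function on a product. -/
def slice (e : Q × X ≃ Y) (q : Q) : L2 Y W →ₗ[ℂ] L2 X W where
  toFun ξ := ⟨fun g => ξ (e (q, g)), memℓp_gen (by
    simpa [Function.comp_def] using (hasSum_sq ξ).summable.comp_injective (i := fun g => e (q, g))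
      (e.injective.comp (Prod.mk_right_injective q)))⟩
  map_add' _ _ := rfl
  map_smul' _ _ := rfl

lemma slice_apply (e : Q × X ≃ Y) (q : Q) (ξ : L2 Y W) (g : X) : slice e q ξ g = ξ (e (q, g)) := rfl

lemma slice_ext (e : Q × X ≃ Y) {ξ η : L2 Y W} (h : ∀ q, slice e q ξ = slice e q η) : ξ = η := by
  refine lp.ext (funext fun y => ?_)
  obtain ⟨⟨q, g⟩, rfl⟩ := e.surjective y
  rw [← slice_apply, h, slice_apply]

lemma hasSum_slice (e : Q × X ≃ Y) (ξ : L2 Y W) :
    HasSum (fun q => ‖slice e q ξ‖ ^ (2 : ℝ)) (‖ξ‖ ^ (2 : ℝ)) :=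
  (e.hasSum_iff.2 (hasSum_sq ξ)).prod_fiberwise fun q => hasSum_sq (slice e q ξ)

lemma exists_unslice (e : Q × X ≃ Y) (η : Q → L2 X W) (h : Summable fun q => ‖η q‖ ^ (2 : ℝ)) :
    ∃ ξ : L2 Y W, ∀ q, slice e q ξ = η q := by
  refine ⟨⟨fun y => η (e.symm y).1 (e.symm y).2, memℓp_gen ?_⟩, fun q => lp.ext (funext fun g => ?_)⟩
  · have : Summable fun p : Q × X => ‖η p.1 p.2‖ ^ (2 : ℝ) := by
      refine (summable_prod_of_nonneg fun p => by positivity).2
        ⟨fun q => (hasSum_sq (η q)).summable, ?_⟩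
      simpa only [fun q => (hasSum_sq (η q)).tsum_eq] using h
    simpa [Function.comp_def] using e.symm.summable_iff.2 this
  · simp [slice_apply]

lemma exists_ampOp (e : Q × X ≃ Y) (T : L2 X W →L[ℂ] L2 X W) : ∃ A : L2 Y W →L[ℂ] L2 Y W,
    ‖A‖ ≤ ‖T‖ ∧ ∀ q ξ, slice e q (A ξ) = T (slice e q ξ) := by
  have h1 : ∀ (ξ : L2 Y W) q, ‖T (slice e q ξ)‖ ^ (2 : ℝ) ≤ ‖T‖ ^ (2 : ℝ) * ‖slice e q ξ‖ ^ (2 : ℝ) := by
    intro ξ q
    rw [← Real.mul_rpow (norm_nonneg _) (norm_nonneg _)]
    exact Real.rpow_le_rpow (norm_nonneg _) (T.le_opNorm _) (by norm_num)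
  choose A hA using fun ξ : L2 Y W => exists_unslice e (fun q => T (slice e q ξ))
    (Summable.of_nonneg_of_le (fun q => by positivity) (h1 ξ)
      ((hasSum_slice e ξ).mul_left _).summable)
  have h2 : ∀ ξ, ‖A ξ‖ ≤ ‖T‖ * ‖ξ‖ := by
    intro ξ
    have h3 := hasSum_slice e (A ξ)
    simp only [hA] at h3
    have h4 := hasSum_le (h1 ξ) h3 ((hasSum_slice e ξ).mul_left _)
    rwa [← Real.mul_rpow (norm_nonneg _) (norm_nonneg _),
      Real.rpow_le_rpow_iff (norm_nonneg _) (by positivity) (by norm_num)] at h4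
  let L : L2 Y W →ₗ[ℂ] L2 Y W :=
    { toFun := A
      map_add' := fun ξ η => slice_ext e fun q => by simp only [map_add, hA]
      map_smul' := fun c ξ => slice_ext e fun q => by simp only [map_smul, hA, RingHom.id_apply] }
  exact ⟨L.mkContinuous _ h2, L.mkContinuous_norm_le (norm_nonneg _) h2, fun q ξ => hA ξ q⟩

lemma exists_ampHom (e : Q × X ≃ Y) : ∃ A : (L2 X W →L[ℂ] L2 X W) →+* (L2 Y W →L[ℂ] L2 Y W),
    Continuous A ∧ ∀ T q ξ, slice e q (A T ξ) = T (slice e q ξ) := by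
  choose A h1 hA using exists_ampOp (W := W) e
  let B : (L2 X W →L[ℂ] L2 X W) →+* (L2 Y W →L[ℂ] L2 Y W) :=
    { toFun := A
      map_one' := ContinuousLinearMap.ext fun ξ => slice_ext e fun q => by simp [hA]
      map_mul' := fun S T => ContinuousLinearMap.ext fun ξ => slice_ext e fun q => by simp [hA]
      map_zero' := ContinuousLinearMap.ext fun ξ => slice_ext e fun q => by simp [hA]
      map_add' := fun S T => ContinuousLinearMap.ext fun ξ => slice_ext e fun q => by simp [hA] }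
  exact ⟨B, AddMonoidHomClass.continuous_of_bound B 1 fun T => (h1 T).trans_eq (one_mul _).symm, hA⟩

end amp

omit [CompleteSpace Z] in
lemma exists_amp_aux {G' : Type} [Group G'] (i : G →* G') (hi : Function.Injective i) :
    ∃ Φ : BG G Z →+* BG G' Z, Continuous Φ ∧ ∀ g T, Φ (lamB g T) = lamB (i g) T := by
  obtain ⟨Q, e, he⟩ := exists_coset_equiv i hi
  obtain ⟨A, hc, hA⟩ := exists_ampHom (W := Z) e
  have h1 : ∀ g (T : Z →L[ℂ] Z), A (lam g T) = lam (i g) T := by
    intro g T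
    refine ContinuousLinearMap.ext fun ξ => slice_ext e fun q => lp.ext (funext fun h => ?_)
    rw [hA, lam_apply, slice_apply, slice_apply, lam_apply, he, map_inv]
  have h2 : ∀ x : BG G Z, A x ∈ BG G' Z := by
    intro x
    induction x using BG.ind with
    | hc => exact (Subalgebra.isClosed_topologicalClosure _).preimage (hc.comp continuous_subtype_val)
    | h0 => rw [Subalgebra.coe_zero, map_zero]; exact zero_mem _
    | ha a b h h' => rw [Subalgebra.coe_add, map_add]; exact add_mem h h'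
    | hg g T => rw [lamB, h1]; exact (lamB _ _).2
  exact ⟨{  toFun := fun x => ⟨A x, h2 x⟩
            map_one' := Subtype.ext A.map_one
            map_mul' := fun x y => Subtype.ext (A.map_mul x y)
            map_zero' := Subtype.ext A.map_zero
            map_add' := fun x y => Subtype.ext (A.map_add x y) },
    (hc.comp continuous_subtype_val).subtype_mk _, fun g T => Subtype.ext (h1 g T)⟩

lemma ntr_tr_sum {r : ℕ} (a b : Fin r → BG G Z) :
    (ntr G z hz).tr (∑ i, a i * eps G z * b i) = ∑ i, st z (b i * a i) := by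
  have h : ∀ i ∈ Finset.univ, a i * eps G z * b i ∈ (ntr G z hz).toTR.F := fun i _ =>
    (ntr_F _).2 ⟨1, fun _ => a i, fun _ => b i, by simp⟩
  have h1 := TR.tr_sum Finset.univ _ h
  have h2 : (ntr G z hz).tr (∑ i, a i * eps G z * b i) =
    ∑ i, (ntr G z hz).tr (a i * eps G z * b i) := h1
  simp only [h2, ntr_tr]

/-- Induction along an injective group homomorphism. -/
theorem exists_amp {G' : Type} [Group G'] (i : G →* G') (hi : Function.Injective i) :
    ∃ Φ : BG G Z →+* BG G' Z, (∀ g T, Φ (lamB g T) = lamB (i g) T) ∧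
      ∀ x ∈ (ntr G z hz).F, Φ x ∈ (ntr G' z hz).F ∧ (ntr G' z hz).tr (Φ x) = (ntr G z hz).tr x := by
  obtain ⟨Φ, hc, h⟩ := exists_amp_aux (Z := Z) i hi
  have h1 : ∀ x, st z (Φ x) = st z x := by
    intro x
    induction x using BG.ind with
    | hc => exact isClosed_eq ((continuous_st z).comp hc) (continuous_st z)
    | h0 => rw [Φ.map_zero, st_zero, st_zero]
    | ha a b h h' => rw [Φ.map_add, st_add, st_add, h, h']
    | hg g T => rw [h, st_lamB, st_lamB, map_eq_one_iff i hi]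
  have h2 : Φ (eps G z) = eps G' z := by rw [eps, h, map_one, eps]
  refine ⟨Φ, h, fun x hx => ?_⟩
  obtain ⟨r, a, b, rfl⟩ := (ntr_F x).1 hx
  have h3 : Φ (∑ i, a i * eps G z * b i) = ∑ i, Φ (a i) * eps G' z * Φ (b i) := by
    simp only [map_sum, map_mul, h2]
  rw [h3, ntr_tr_sum, ntr_tr_sum]
  refine ⟨(ntr_F _).2 ⟨r, _, _, rfl⟩, ?_⟩
  simp only [← map_mul, h1]

lemma trace_eq_st (a : Cr G) : trace a = st (1 : ℂ) (⟨a, mem_Cr_iff.1 a.2⟩ : BG G ℂ) := by
  simp [trace, st]

lemma trace_add (a b : Cr G) : trace (a + b) = trace a + trace b := by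
  simp [trace]

lemma trace_zero : trace (0 : Cr G) = 0 := by
  simp [trace]

lemma trace_comm (a b : Cr G) : trace (a * b) = trace (b * a) := by
  have e : eps G (1 : ℂ) = 1 := by
    rw [eps, ← lamB_one]; congr 1; ext; simp
  have h := st_comm (1 : ℂ) (⟨a, mem_Cr_iff.1 a.2⟩ : BG G ℂ) ⟨b, mem_Cr_iff.1 b.2⟩
  rw [e, mul_one, mul_one] at h
  rw [trace_eq_st, trace_eq_st]
  exact h

lemma continuous_trace : Continuous (trace : Cr G → ℂ) := by
  classical
  refine (lp.evalCLM ℂ (fun _ : G => ℂ) 2 1).continuous.comp ?_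
  exact (ContinuousLinearMap.apply ℂ (L2 G ℂ) _).continuous.comp continuous_subtype_val

/-- The canonical trace as a traced ring structure. -/
def crTR (G : Type) [Group G] : TR (Cr G) where
  F := ⊤
  K := ⊤
  tr := trace
  le := fun _ h => h
  tr_add := fun x _ y _ => trace_add x y
  tr_comm := fun x _ y => trace_comm x y
  approx := fun k _ => ⟨k, TwoSidedIdeal.mem_top _, by simp⟩

lemma trace_rect {m n : Type} [Fintype m] [Fintype n] (M : Matrix m n (Cr G))
    (N : Matrix n m (Cr G)) : ∑ i, trace ((M * N) i i) = ∑ j, trace ((N * M) j j) :=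
  TR.tr_rect (τ := crTR G) M N fun _ _ => TwoSidedIdeal.mem_top _

/-- The trace on `K₀`. -/
theorem exists_trK0 (G : Type) [Group G] : ∃ φ : K0 (Cr G) →+ ℂ,
    ∀ e : Idem (Cr G), φ e.cls = ∑ i, trace (e.p i i) := by
  refine ⟨QuotientAddGroup.lift _
    (FreeAbelianGroup.lift fun e : Idem (Cr G) => ∑ i, trace (e.p i i)) ?_, fun e => ?_⟩
  · rw [AddSubgroup.closure_le]
    rintro _ (⟨e, f, u, v, h1, h2, rfl⟩ | ⟨e, f, s, h, h1, rfl⟩)
    · simp only [SetLike.mem_coe, AddMonoidHom.mem_ker, map_sub, FreeAbelianGroup.lift_apply_of]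
      rw [← h1, ← h2, trace_rect, sub_self]
    · simp only [SetLike.mem_coe, AddMonoidHom.mem_ker, map_sub, FreeAbelianGroup.lift_apply_of]
      rw [h1, ← h.sum_comp, Fintype.sum_sum_type]
      simp
  · simp [Idem.cls]

/-- The corner map. -/
def corner (z : Z) (x : BG G Z) : L2 G ℂ →L[ℂ] L2 G ℂ :=
  lam (1 : G) (innerSL ℂ z) ∘L (x : L2 G Z →L[ℂ] L2 G Z) ∘L
    lam (1 : G) (ContinuousLinearMap.toSpanSingleton ℂ z)

omit [CompleteSpace Z] in
lemma corner_add (z : Z) (x y : BG G Z) : corner z (x + y) = corner z x + corner z y := by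
  simp [corner, ContinuousLinearMap.add_comp, ContinuousLinearMap.comp_add]

omit [CompleteSpace Z] in
lemma corner_zero (z : Z) : corner z (0 : BG G Z) = 0 := by
  simp [corner]

omit [CompleteSpace Z] in
lemma corner_mul (z : Z) (x y : BG G Z) : corner z x * corner z y = corner z (x * eps G z * y) := by
  have e : ((eps G z : BG G Z) : L2 G Z →L[ℂ] L2 G Z) =
      lam (1 : G) (ContinuousLinearMap.toSpanSingleton ℂ z) ∘L lam (1 : G) (innerSL ℂ z) := by
    rw [lam_comp, mul_one]; rfl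
  simp only [corner, Subalgebra.coe_mul, e]
  rfl

omit [CompleteSpace Z] in
lemma corner_mem (z : Z) (x : BG G Z) : corner z x ∈ Cr G := by
  rw [mem_Cr_iff]
  induction x using BG.ind with
  | hc =>
    refine (Subalgebra.isClosed_topologicalClosure _).preimage (f := corner z) ?_
    exact continuous_const.clm_comp (continuous_subtype_val.clm_comp continuous_const)
  | h0 => rw [corner_zero]; exact zero_mem _
  | ha a b h h' => rw [corner_add]; exact add_mem h h'
  | hg g T =>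
    rw [corner, lamB, lam_comp, lam_comp]
    exact (lamB _ _).2

open Classical in
omit [CompleteSpace Z] in
lemma trace_corner (z : Z) (x : BG G Z) : trace ⟨corner z x, corner_mem z x⟩ = st z x := by
  have e : lam (1 : G) (ContinuousLinearMap.toSpanSingleton ℂ z) (lp.single 2 (1 : G) (1 : ℂ)) =
      lp.single 2 (1 : G) z := by
    refine lp.ext (funext fun h => ?_)
    rw [lam_apply, inv_one, one_mul]
    by_cases e : h = 1
    · subst e; simp
    · rw [lp.single_apply_ne _ _ _ e, lp.single_apply_ne _ _ _ e, map_zero]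
  simp only [trace, st, corner, ContinuousLinearMap.comp_apply, lam_apply]
  rw [inv_one, one_mul, e]
  rfl

omit [CompleteSpace Z] in
lemma exists_idem_corner (hz : ‖z‖ = 1) {m : ℕ} (b : Matrix (Fin m) (Fin m) (BG G Z))
    (hb : ∀ i j, ∑ k, b i k * b k j = b i j) (hb' : ∀ i j, eps G z * b i j * eps G z = b i j) :
    ∃ c : Idem (Cr G), ∑ i, trace (c.p i i) = ∑ i, st z (b i i) := by
  let c : BG G Z →+ Cr G := AddMonoidHom.mk' (fun x => ⟨corner z x, corner_mem z x⟩)
    fun x y => Subtype.ext (corner_add z x y)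
  have hc : ∀ x y, c x * c y = c (x * eps G z * y) := fun x y => Subtype.ext (corner_mul z x y)
  have h2 : ∀ i j, b i j * eps G z = b i j := fun i j => by
    rw [← hb' i j, mul_assoc, eps_idem hz]
  refine ⟨⟨m, b.map c, ?_⟩, Finset.sum_congr rfl fun i _ => trace_corner z _⟩
  refine Matrix.ext fun i j => ?_
  rw [Matrix.mul_apply, Matrix.map_apply, ← hb i j, map_sum]
  exact Finset.sum_congr rfl fun k _ => by rw [Matrix.map_apply, Matrix.map_apply, hc, h2]

lemma eps_mem_F : eps G z ∈ (ntr G z hz).F := (ntr_F _).2 ⟨1, 1, 1, by simp⟩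

lemma ntr_tr_eps : (ntr G z hz).tr (eps G z) = 1 := by
  have := ntr_tr (hz := hz) (1 : BG G Z) 1
  rw [one_mul, mul_one, one_mul, ← lamB_one, st_lamB, if_pos rfl] at this
  refine this.trans ?_
  simp [hz]

lemma ntr_tr_corner {x : BG G Z} (h : eps G z * x * eps G z = x) :
    (ntr G z hz).tr x = st z x := by
  have h3 : 1 * eps G z * x = x := by
    rw [one_mul, ← h, ← mul_assoc, ← mul_assoc, eps_idem hz]
  have := ntr_tr (hz := hz) (1 : BG G Z) x
  rwa [mul_one, h3] at this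

/-- Every index is an integer translate of the trace of an idempotent matrix over `C*_r(G)`. -/
theorem ind_mem_traces {e f T : BG G Z} {t : ℂ} (h : (ntr G z hz).toTR.Ind e f T t) :
    ∃ (r : ℕ) (b : Idem (Cr G)), t = ∑ i, trace (b.p i i) - r := by
  have h1 : eps G z ∈ (ntr G z hz).toTR.F := eps_mem_F
  have h2 : ∀ x ∈ (ntr G z hz).toTR.F, ∃ (r : ℕ) (a b : Fin r → BG G Z),
      x = ∑ i, a i * eps G z * b i := fun x hx => (ntr_F x).1 hx
  have h3 := h.idem (eps_idem hz) h1 h2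
  obtain ⟨r, m, b, hb, hb', ht⟩ := h3
  have h4 : ∀ i j, ∑ k, b i k * b k j = b i j :=
    fun i j => Matrix.mul_apply.symm.trans (congrFun₂ hb i j)
  have h5 : ∀ i j, eps G z * b i j * eps G z = b i j := hb'
  have h6 : t = ∑ i, (ntr G z hz).tr (b i i) - r * (ntr G z hz).tr (eps G z) := ht
  obtain ⟨c, hc⟩ := exists_idem_corner hz b h4 h5
  refine ⟨r, c, ?_⟩
  rw [h6, hc, ntr_tr_eps, mul_one]
  exact congrArg (· - (r : ℂ)) (Finset.sum_congr rfl fun i _ => ntr_tr_corner (h5 i i))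

lemma countable_traces_aux {R : Type} [NormedRing R] [CompleteSpace R]
    [TopologicalSpace.SeparableSpace R] (τ : R → ℂ) (n : ℕ)
    (hτ : ∀ M N : Matrix (Fin n) (Fin n) R, ∑ i, τ ((M * N) i i) = ∑ i, τ ((N * M) i i)) :
    (Set.range fun p : {p : Matrix (Fin n) (Fin n) R // p * p = p} => ∑ i, τ (p.1 i i)).Countable := by
  have : SecondCountableTopology R := UniformSpace.secondCountable_of_separable R
  have : SecondCountableTopology (Matrix (Fin n) (Fin n) R) :=
    inferInstanceAs (SecondCountableTopology (Fin n → Fin n → R))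
  have : SecondCountableTopology {p : Matrix (Fin n) (Fin n) R // p * p = p} :=
    Topology.IsEmbedding.subtypeVal.secondCountableTopology
  obtain ⟨D, hD, hD'⟩ :=
    TopologicalSpace.exists_countable_dense {p : Matrix (Fin n) (Fin n) R // p * p = p}
  refine (hD.image fun p => ∑ i, τ (p.1 i i)).mono ?_
  rintro _ ⟨p, rfl⟩
  have hc : Continuous fun q : {p : Matrix (Fin n) (Fin n) R // p * p = p} =>
      p.1 + q.1 - (p.1 * q.1 + p.1 * q.1) := by fun_prop
  have ho : IsOpen {q : {p : Matrix (Fin n) (Fin n) R // p * p = p} | ∀ i j,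
      (Fintype.card (Fin n) : ℝ) * ‖(p.1 + q.1 - (p.1 * q.1 + p.1 * q.1) :
        Matrix (Fin n) (Fin n) R) i j‖ < 1} := by
    simp only [Set.ofPred_forall]
    refine isOpen_iInter_of_finite fun i => isOpen_iInter_of_finite fun j => ?_
    exact isOpen_lt (continuous_const.mul (hc.matrix_elem i j).norm) continuous_const
  obtain ⟨q, hq, hq'⟩ := hD'.exists_mem_open ho ⟨p, by simp [p.2]⟩
  obtain ⟨u, hu⟩ := isUnit_one_sub_matrix _ hq'
  refine ⟨q, hq, ?_⟩
  have e1 : p.1 * u = u * q.1 := by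
    rw [hu]
    simp only [mul_sub, sub_mul, mul_add, add_mul, mul_one, one_mul, mul_assoc, q.2,
      TR.as p.2, p.2]
    abel
  have := hτ u (q.1 * (u⁻¹ : (Matrix (Fin n) (Fin n) R)ˣ))
  rw [← mul_assoc, ← e1, Units.mul_inv_cancel_right, Units.inv_mul_cancel_right] at this
  exact this.symm

lemma separable_Cr (G : Type) [Group G] [Countable G] : TopologicalSpace.SeparableSpace (Cr G) := by
  have h : TopologicalSpace.IsSeparable (Cr G : Set (L2 G ℂ →L[ℂ] L2 G ℂ)) := by
    have h1 := ((Set.countable_range fun g : G => lam g (ContinuousLinearMap.id ℂ ℂ)).isSeparable.span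
      (R := ℂ)).closure
    rw [← Algebra.adjoin_eq_span_of_subset] at h1
    · exact h1
    · intro x hx
      refine Submodule.subset_span ?_
      induction hx using Submonoid.closure_induction with
      | mem x hx => exact hx
      | one => exact ⟨1, lam_one⟩
      | mul x y _ _ hx hy =>
        obtain ⟨g, rfl⟩ := hx
        obtain ⟨g', rfl⟩ := hy
        exact ⟨g * g', (lam_mul g g' (ContinuousLinearMap.id ℂ ℂ) (ContinuousLinearMap.id ℂ ℂ)).symm⟩
  exact TopologicalSpace.IsSeparable.separableSpace (X := L2 G ℂ →L[ℂ] L2 G ℂ) h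

/-- The traces of idempotent matrices over `C*_r(G)` form a countable set. -/
theorem countable_traces (G : Type) [Group G] [Countable G] :
    {t : ℂ | ∃ e : Idem (Cr G), t = ∑ i, trace (e.p i i)}.Countable := by
  have : CompleteSpace (Cr G) :=
    IsClosed.completeSpace_coe (hs := Subalgebra.isClosed_topologicalClosure _)
  have := separable_Cr G
  refine (Set.countable_iUnion fun n : ℕ =>
    countable_traces_aux (trace : Cr G → ℂ) n fun M N => trace_rect M N).mono ?_
  rintro _ ⟨e, rfl⟩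
  exact Set.mem_iUnion.2 ⟨e.n, ⟨e.p, e.idem⟩, rfl⟩

end

end Vale.Agent.P089A
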