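import Vale.Agent.P089A.WC

/-! Slices of a proper action and an invariant partition of unity. -/

namespace Vale.Agent.P089A

open scoped ZeroAtInfty Topology

variable {G X : Type} [Group G] [TopologicalSpace X] [MulAction G X] [ContinuousConstSMul G X]
  [T2Space X] [LocallyCompactSpace X] [ProperlyDiscontinuousSMul G X]

lemma exists_slice {L : Set X} (hL : IsCompact L) (x : X) : ∃ K ∈ 𝓝 x, IsCompact K ∧
    (∀ y ∈ K, ∀ g : G, g⁻¹ • y ∈ L → g⁻¹ • x ∈ L) ∧ ∀ y ∈ K, ∀ g : G, g • y ∈ K → g • x = x := by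
  obtain ⟨K₀, hK₀, hx⟩ := exists_compact_mem_nhds x
  have h1 : ∀ᶠ y in 𝓝 x, ∀ g ∈ {g : G | ∃ x ∈ K₀, g⁻¹ • x ∈ L}, g⁻¹ • y ∈ L → g⁻¹ • x ∈ L := by
    rw [Filter.eventually_all_finite (finite_meet hL hK₀)]
    intro g _
    by_cases h : g⁻¹ • x ∈ L
    · exact .of_forall fun _ _ => h
    · have h2 : {y | g⁻¹ • y ∈ Lᶜ} ∈ 𝓝 x :=
        (hL.isClosed.isOpen_compl.preimage (continuous_const_smul g⁻¹)).mem_nhds h
      filter_upwards [h2] with y hy h3 using absurd h3 hy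
  have h2 : ∀ g : G, ∃ N ∈ 𝓝 x, ∀ y ∈ N, g • y ∈ N → g • x = x := by
    intro g
    by_cases h : g • x = x
    · exact ⟨Set.univ, Filter.univ_mem, fun _ _ _ => h⟩
    · obtain ⟨U, V, hU, hV, h3, h4, h5⟩ := t2_separation h
      refine ⟨V ∩ (g • ·) ⁻¹' U, Filter.inter_mem (hV.mem_nhds h4)
        ((hU.preimage (continuous_const_smul g)).mem_nhds h3), fun y h6 h7 => ?_⟩
      exact absurd h7.1 (Set.disjoint_left.mp h5 h6.2)
  choose N hN1 hN2 using h2
  have h3 : ∀ᶠ y in 𝓝 x, ∀ g ∈ {g : G | ∃ x ∈ K₀, g⁻¹ • x ∈ K₀}, y ∈ N g := by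
    rw [Filter.eventually_all_finite (finite_meet hK₀ hK₀)]
    exact fun g _ => hN1 g
  obtain ⟨K, k1, k2, k3⟩ := local_compact_nhds (Filter.inter_mem hx (h1.and h3))
  refine ⟨K, k1, k3, fun y hy g hg => (k2 hy).2.1 g ⟨y, (k2 hy).1, hg⟩ hg, fun y hy g hg => ?_⟩
  have h4 : g ∈ {g : G | ∃ x ∈ K₀, g⁻¹ • x ∈ K₀} := ⟨g • y, (k2 hg).1, by simpa using (k2 hy).1⟩
  exact hN2 g y ((k2 hy).2.2 g h4) ((k2 hg).2.2 g h4)

omit [T2Space X] in
lemma continuous_orbit_sum {f : X → ℝ} (hf : Continuous f) (hs : HasCompactSupport f) :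
    Continuous fun y => ∑ᶠ g : G, f (g⁻¹ • y) := by
  refine continuous_finsum (fun g => hf.comp (continuous_const_smul g⁻¹)) fun x => ?_
  obtain ⟨K, hK, hx⟩ := exists_compact_mem_nhds x
  exact ⟨K, hx, (finite_meet hs hK).subset fun g ⟨y, h1, h2⟩ => ⟨y, h2, subset_tsupport _ h1⟩⟩

/-- Local slices: finitely many base points `x j` and functions `d j` supported in
sets `K j` on which the combinatorics of the charts is that of the base point. -/
theorem exists_slices {c : C₀(X, ℂ)} (hc : IsCutoff G c) :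
    ∃ (m : ℕ) (x : Fin m → X) (K : Fin m → Set X) (d : Fin m → C₀(X, ℂ)),
      (∀ j, IsCompact (K j)) ∧ (∀ j, x j ∈ tsupport c) ∧ (∀ j y, d j y ≠ 0 → y ∈ K j) ∧
      (∀ j, ∀ y ∈ K j, ∀ g : G, g⁻¹ • y ∈ tsupport c → g⁻¹ • x j ∈ tsupport c) ∧
      (∀ j, ∀ y ∈ K j, ∀ g : G, g • y ∈ K j → g • x j = x j) ∧
      ∀ y, ∑ j, (∑ᶠ g : G, d j (g⁻¹ • y)) ^ 2 = 1 := by
  classical
  choose K hK1 hK2 hK3 hK4 using fun x => exists_slice (G := G) (L := tsupport c) hc.1 x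
  have h1 : ∀ x, ∃ f : C(X, ℝ), f x = 1 ∧ (∀ y, f y ≠ 0 → y ∈ K x) ∧ HasCompactSupport f ∧
      ∀ y, 0 ≤ f y := by
    intro x
    obtain ⟨f, f1, f2, f3, f4⟩ := exists_continuous_one_zero_of_isCompact (isCompact_singleton (x := x))
      isOpen_interior.isClosed_compl (Set.disjoint_compl_right_iff_subset.mpr
        (Set.singleton_subset_iff.mpr (mem_interior_iff_mem_nhds.mpr (hK1 x))))
    refine ⟨f, f1 rfl, fun y hy => interior_subset ?_, f3, fun y => (f4 y).1⟩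
    by_contra h
    exact hy (f2 h)
  choose f f1 f2 f3 f4 using h1
  obtain ⟨T, hT1, hT2⟩ := hc.1.isCompact.elim_nhds_subcover (fun x => {y | f x y ≠ 0})
    fun x _ => (isOpen_ne_fun (f x).continuous continuous_const).mem_nhds (by simp [f1])
  let e := T.equivFin.symm
  let ψ : Fin T.card → X → ℝ := fun j y => ∑ᶠ g : G, f (e j) (g⁻¹ • y)
  have hψ : ∀ j, Continuous (ψ j) := fun j => continuous_orbit_sum (f _).continuous (f3 _)
  have hfin : ∀ x y, (Function.support fun g : G => f x (g⁻¹ • y)).Finite := fun x y =>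
    (finite_meet (f3 x) (isCompact_singleton (x := y))).subset
      fun g hg => ⟨y, rfl, subset_tsupport _ hg⟩
  have hinv : ∀ j (k : G) y, ψ j (k⁻¹ • y) = ψ j y := fun j k y => by
    simp only [ψ, ← mul_smul, ← mul_inv_rev]
    exact finsum_comp_equiv (Equiv.mulLeft k) (f := fun g => f (e j) (g⁻¹ • y))
  let κ : X → ℝ := fun y => ∑ j, ψ j y ^ 2
  have hκ : ∀ y, 0 < κ y := by
    intro y
    obtain ⟨g, hg⟩ : ∃ g : G, c (g⁻¹ • y) ≠ 0 := by
      by_contra h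
      push Not at h
      have := hc.2.2 y
      simp [h] at this
    obtain ⟨x, hx, h2⟩ := Set.mem_iUnion₂.mp (hT2 (subset_tsupport _ hg))
    refine Finset.sum_pos' (fun _ _ => sq_nonneg _) ⟨e.symm ⟨x, hx⟩, by simp, pow_pos ?_ 2⟩
    refine lt_of_lt_of_le (lt_of_le_of_ne (f4 x _) (Ne.symm h2)) ?_
    simp only [ψ, Equiv.apply_symm_apply]
    exact single_le_finsum g (hfin x y) fun _ => f4 _ _
  have hκc : Continuous fun y => √(κ y) :=
    (continuous_finsetSum _ fun j _ => (hψ j).pow 2).sqrt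
  have hd : ∀ j, HasCompactSupport fun y => ((f (e j) y / √(κ y) : ℝ) : ℂ) := fun j =>
    (f3 (e j)).mono fun y hy h => hy (by simp [h])
  refine ⟨T.card, fun j => e j, fun j => K (e j), fun j =>
    ⟨⟨fun y => ((f (e j) y / √(κ y) : ℝ) : ℂ), Complex.continuous_ofReal.comp
      ((f _).continuous.div hκc fun y => (Real.sqrt_pos.mpr (hκ y)).ne')⟩, (hd j).is_zero_at_infty⟩,
    fun j => hK2 _, fun j => hT1 _ (e j).2, fun j y hy => f2 _ y fun h => hy (by simp [h]),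
    fun j => hK3 _, fun j => hK4 _, fun y => ?_⟩
  have h2 : ∀ j, ∑ᶠ g : G, ((f (e j) (g⁻¹ • y) / √(κ (g⁻¹ • y)) : ℝ) : ℂ) =
      ((ψ j y / √(κ y) : ℝ) : ℂ) := by
    intro j
    simp only [κ, hinv]
    simp only [ψ]
    rw [finsum_eq_sum_of_support_subset (s := (hfin (e j) y).toFinset) _ (fun g hg => by
      rw [Set.Finite.coe_toFinset]; intro h; exact hg (by simp [h])),
      finsum_eq_sum _ (hfin (e j) y), Finset.sum_div, Complex.ofReal_sum]
  change ∑ j, (∑ᶠ g : G, ((f (e j) (g⁻¹ • y) / √(κ (g⁻¹ • y)) : ℝ) : ℂ)) ^ 2 = 1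
  simp only [h2, ← Complex.ofReal_pow, ← Complex.ofReal_sum, div_pow, Real.sq_sqrt (hκ y).le,
    ← Finset.sum_div]
  rw [div_self (hκ y).ne', Complex.ofReal_one]

end Vale.Agent.P089A
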