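import Mathlib

/-!
Statement level definitions for P089 (Baum-Connes): `K₀`, the reduced group C*-algebra,
equivariant Fredholm modules over proper spaces, and the range of the assembly map.
-/

namespace Vale.Agent.P089A

noncomputable section

/-- Idempotent square matrices over `A`. -/
structure Idem (A : Type) [Ring A] where
  n : ℕ
  p : Matrix (Fin n) (Fin n) A
  idem : p * p = p

/-- The relations of `K₀`: equivalent idempotents have the same class, block sums add. -/
def K0rel (A : Type) [Ring A] : Set (FreeAbelianGroup (Idem A)) :=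
  {x | ∃ (e f : Idem A) (u : Matrix (Fin e.n) (Fin f.n) A) (v : Matrix (Fin f.n) (Fin e.n) A),
    u * v = e.p ∧ v * u = f.p ∧ x = FreeAbelianGroup.of e - FreeAbelianGroup.of f} ∪
  {x | ∃ (e f s : Idem A) (h : Fin e.n ⊕ Fin f.n ≃ Fin s.n),
    s.p = Matrix.reindex h h (Matrix.fromBlocks e.p 0 0 f.p) ∧
      x = FreeAbelianGroup.of s - FreeAbelianGroup.of e - FreeAbelianGroup.of f}

/-- The group `K₀(A)`. -/
abbrev K0 (A : Type) [Ring A] : Type :=
  FreeAbelianGroup (Idem A) ⧸ AddSubgroup.closure (K0rel A)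

/-- The class of an idempotent in `K₀(A)`. -/
def Idem.cls {A : Type} [Ring A] (e : Idem A) : K0 A := QuotientAddGroup.mk (FreeAbelianGroup.of e)

/-- The class `[e] - [f]` in `K₀(A)`. -/
def Idem.diff {A : Type} [Ring A] (e f : Idem A) : K0 A := e.cls - f.cls

/-- An even `G`-equivariant Fredholm module over `C₀(X)`: a cycle for `KK₀^G(C₀(X), ℂ)`. -/
structure FredMod (G X H : Type) [Group G] [TopologicalSpace X] [MulAction G X]
    [NormedAddCommGroup H] [InnerProductSpace ℂ H] [CompleteSpace H] where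
  γ : ContinuousLinearMap (RingHom.id ℂ) H H
  π : NonUnitalStarAlgHom ℂ (ZeroAtInftyContinuousMap X ℂ) (ContinuousLinearMap (RingHom.id ℂ) H H)
  U : MonoidHom G (unitary (ContinuousLinearMap (RingHom.id ℂ) H H))
  F : ContinuousLinearMap (RingHom.id ℂ) H H
  γ_star : star γ = γ
  γ_sq : γ * γ = 1
  π_even : ∀ f, γ * π f = π f * γ
  U_even : ∀ g, γ * (U g).val = (U g).val * γ
  F_odd : γ * F = -(F * γ)
  covariant : ∀ (g : G) (f f' : ZeroAtInftyContinuousMap X ℂ), (∀ x, f' x = f (g⁻¹ • x)) →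
    (U g).val * π f = π f' * (U g).val
  c_star : ∀ f, IsCompactOperator ⇑(π f * (F - star F))
  c_sq : ∀ f, IsCompactOperator ⇑(π f * (F * F - 1))
  c_comm : ∀ f, IsCompactOperator ⇑(π f * F - F * π f)
  c_inv : ∀ g f, IsCompactOperator ⇑(π f * ((U g).val * F * star (U g).val - F))

/-- A cutoff function for the action of `G` on `X`. -/
def IsCutoff (G : Type) {X : Type} [Group G] [TopologicalSpace X] [MulAction G X]
    (c : ZeroAtInftyContinuousMap X ℂ) : Prop :=
  HasCompactSupport c ∧ (∀ x, (c x).im = 0 ∧ 0 ≤ (c x).re) ∧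
    ∀ x, finsum (fun g : G => c (g⁻¹ • x) ^ 2) = 1

namespace St

section generic

variable {D E E' : Type} [NormedAddCommGroup D] [InnerProductSpace ℂ D]
  [NormedAddCommGroup E] [InnerProductSpace ℂ E] [NormedAddCommGroup E'] [InnerProductSpace ℂ E']

/-- Unital algebras of bounded operators on `D`. -/
abbrev OpAlg (D : Type) [NormedAddCommGroup D] [InnerProductSpace ℂ D] : Type :=
  Subalgebra ℂ (ContinuousLinearMap (RingHom.id ℂ) D D)

/-- The norm closed unital algebra generated by a family of operators. -/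
def closedAlg {ι : Type} (s : ι → ContinuousLinearMap (RingHom.id ℂ) D D) : OpAlg D :=
  (Algebra.adjoin ℂ (Set.range s)).topologicalClosure

/-- `K₀` of an algebra of operators. -/
abbrev K0op (A : OpAlg D) : Type := K0 A

/-- The norm closed linear span of a set of operators. -/
def closedSpan (s : Set (ContinuousLinearMap (RingHom.id ℂ) E E)) :
    Set (ContinuousLinearMap (RingHom.id ℂ) E E) :=
  closure (SetLike.coe (Submodule.span ℂ s))

/-- `E'` is the direct sum `E ⊕ Dⁿ`, with inclusions `i`, `j a` and projections `i'`, `j' a`. -/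
structure IsSum {n : ℕ} (i : ContinuousLinearMap (RingHom.id ℂ) E E')
    (i' : ContinuousLinearMap (RingHom.id ℂ) E' E)
    (j : Fin n → ContinuousLinearMap (RingHom.id ℂ) D E')
    (j' : Fin n → ContinuousLinearMap (RingHom.id ℂ) E' D) : Prop where
  ii : i'.comp i = 1
  ij : ∀ a, i'.comp (j a) = 0
  ji : ∀ a, (j' a).comp i = 0
  jj : ∀ a b, (j' a).comp (j b) = if a = b then 1 else 0
  total : i.comp i' + ∑ a, (j a).comp (j' a) = 1

/-- On `E' = E ⊕ Dⁿ`, a perturbation `u` of `P₂ F P₁ ⊕ 0` by an element of `K` is an isomorphism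
from the range of `P₁ ⊕ q` onto the range of `P₂ ⊕ p`, its inverse `v` is a perturbation of
`P₁ F P₂ ⊕ 0`, and the class is `[p] - [q]`. -/
inductive IndexVia (A : Subalgebra ℂ (ContinuousLinearMap (RingHom.id ℂ) D D))
    (K : Set (ContinuousLinearMap (RingHom.id ℂ) E' E')) {n : ℕ}
    (i : ContinuousLinearMap (RingHom.id ℂ) E E') (i' : ContinuousLinearMap (RingHom.id ℂ) E' E)
    (j : Fin n → ContinuousLinearMap (RingHom.id ℂ) D E')
    (j' : Fin n → ContinuousLinearMap (RingHom.id ℂ) E' D)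
    (P₁ P₂ F : ContinuousLinearMap (RingHom.id ℂ) E E) : K0 A → Prop
  | mk (p q : Matrix (Fin n) (Fin n) A) (hp : p * p = p) (hq : q * q = q)
    (u v : ContinuousLinearMap (RingHom.id ℂ) E' E')
    (hu : u - i.comp ((P₂ * F * P₁).comp i') ∈ K) (hv : v - i.comp ((P₁ * F * P₂).comp i') ∈ K)
    (hvu : v * u = i.comp (P₁.comp i') + ∑ a, ∑ b, (j a).comp ((q a b).val.comp (j' b)))
    (huv : u * v = i.comp (P₂.comp i') + ∑ a, ∑ b, (j a).comp ((p a b).val.comp (j' b))) :
    IndexVia A K i i' j j' P₁ P₂ F (Idem.diff ⟨n, p, hp⟩ ⟨n, q, hq⟩)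

/-- The value of an operator at a vector. -/
def app (T : ContinuousLinearMap (RingHom.id ℂ) E E') (x : E) : E' := T x

/-- The operator `(∑ g, a g) * b`. -/
def sumMul {G : Type} (a : G → ContinuousLinearMap (RingHom.id ℂ) E E)
    (b : ContinuousLinearMap (RingHom.id ℂ) E E) : ContinuousLinearMap (RingHom.id ℂ) E E :=
  finsum a * b

/-- The operator `(1 + s γ) / 2`. -/
def half (s : ℂ) (γ : ContinuousLinearMap (RingHom.id ℂ) E E) :
    ContinuousLinearMap (RingHom.id ℂ) E E := (1 / 2 : ℂ) • (1 + s • γ)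

/-- The operator `π(c) U_g π(c)`. -/
def coef {G X : Type} [Group G] [TopologicalSpace X] [MulAction G X] [CompleteSpace E]
    (Z : FredMod G X E) (c : ZeroAtInftyContinuousMap X ℂ) (g : G) :
    ContinuousLinearMap (RingHom.id ℂ) E E :=
  Z.π c * (Z.U g).val * Z.π c

end generic

/-- Complex Hilbert spaces. -/
structure Hilb where
  car : Type
  [nacg : NormedAddCommGroup car]
  [ips : InnerProductSpace ℂ car]
  [cs : CompleteSpace car]

attribute [instance] Hilb.nacg Hilb.ips Hilb.cs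

/-- The Hilbert space `ℂ`. -/
def cc : Hilb := ⟨ℂ⟩

/-- The Hilbert space `ℓ²(G; H)`. -/
def l2 (G : Type) (H : Hilb) : Hilb := ⟨lp (fun _ : G => H.car) 2⟩

/-- Bounded operators. -/
abbrev Op (H K : Hilb) : Type := ContinuousLinearMap (RingHom.id ℂ) H.car K.car

/-- The value at `g` of an element of `ℓ²(G; H)`. -/
def coord {G : Type} {H : Hilb} (ξ : (l2 G H).car) (g : G) : H.car := ξ.1 g

variable {G : Type} [Group G]

theorem exists_lam {H K : Hilb} (g : G) (T : Op H K) : ∃ a : Op (l2 G H) (l2 G K),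
    ∀ ξ h, coord (app a ξ) h = app T (coord ξ (g⁻¹ * h)) := by
  have key : ∀ ξ : lp (fun _ : G => H.car) 2,
      Summable (fun h : G => ‖T (ξ (g⁻¹ * h))‖ ^ (2 : ℝ)) ∧
        ∑' h : G, ‖T (ξ (g⁻¹ * h))‖ ^ (2 : ℝ) ≤ (‖T‖ * ‖ξ‖) ^ (2 : ℝ) := fun ξ => by
    have h1 : HasSum (fun h : G => ‖ξ h‖ ^ (2 : ℝ)) (‖ξ‖ ^ (2 : ℝ)) := by
      simpa using lp.hasSum_norm (p := 2) (by norm_num) ξ
    have h2 := ((Equiv.mulLeft g⁻¹).hasSum_iff.mpr h1).mul_left (‖T‖ ^ (2 : ℝ))
    have h3 : ∀ h : G,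
        ‖T (ξ (g⁻¹ * h))‖ ^ (2 : ℝ) ≤ ‖T‖ ^ (2 : ℝ) * ‖ξ (g⁻¹ * h)‖ ^ (2 : ℝ) := fun h => by
      rw [← Real.mul_rpow (norm_nonneg _) (norm_nonneg _)]
      exact Real.rpow_le_rpow (norm_nonneg _) (T.le_opNorm _) (by norm_num)
    have h4 := Summable.of_nonneg_of_le (fun h => by positivity) h3 h2.summable
    refine ⟨h4, ?_⟩
    rw [Real.mul_rpow (norm_nonneg _) (norm_nonneg _), ← h2.tsum_eq]
    exact h4.tsum_le_tsum h3 h2.summable
  let a : ContinuousLinearMap (RingHom.id ℂ) (lp (fun _ : G => H.car) 2)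
      (lp (fun _ : G => K.car) 2) := LinearMap.mkContinuous
    { toFun := fun ξ => ⟨fun h => T (ξ (g⁻¹ * h)), memℓp_gen (by simpa using (key ξ).1)⟩
      map_add' := fun ξ η => lp.ext (funext fun h => by simp; rfl)
      map_smul' := fun c ξ => lp.ext (funext fun h => by simp) }
    ‖T‖ fun ξ => lp.norm_le_of_tsum_le (by norm_num) (by positivity) (by simpa using (key ξ).2)
  exact ⟨a, fun _ _ => rfl⟩

/-- The operator `λ_g ⊗ T : ℓ²(G; H) → ℓ²(G; K)`, `ξ ↦ (h ↦ T (ξ (g⁻¹ h)))`. -/
def lam {H K : Hilb} (g : G) (T : Op H K) : Op (l2 G H) (l2 G K) := (exists_lam g T).choose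

/-- The reduced group C*-algebra: the norm closure of the group algebra acting on `ℓ²(G)`. -/
def Cr (G : Type) [Group G] : OpAlg (l2 G cc).car :=
  closedAlg fun g : G => lam g (ContinuousLinearMap.id ℂ cc.car)

/-- The group `K₀(C*_r(G))`. -/
def K0Cr (G : Type) [Group G] : Type := K0op (Cr G)

/-- The compact operators `C*_r(G) ⊗ K(H)` of the Hilbert module `C*_r(G) ⊗ H`. -/
def Kc (G : Type) [Group G] (H : Hilb) : Set (Op (l2 G H) (l2 G H)) :=
  closedSpan {a | ∃ (g : G) (k : Op H H), IsCompactOperator k ∧ a = lam g k}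

/-- `x` is the index of `P₂ F P₁ : P₁ E → P₂ E` on the Hilbert module `E = C*_r(G) ⊗ H`. -/
def IsIndex {H : Hilb} (P₁ P₂ F : Op (l2 G H) (l2 G H)) (x : K0Cr G) : Prop :=
  ∃ (n : ℕ) (H' : Hilb) (i : Op H H') (i' : Op H' H) (j : Fin n → Op cc H')
    (j' : Fin n → Op H' cc), IsSum i i' j j' ∧
      IndexVia (Cr G) (Kc G H') (lam (1 : G) i) (lam (1 : G) i') (fun a => lam (1 : G) (j a))
        (fun a => lam (1 : G) (j' a)) P₁ P₂ F x

/-- `x` is the image of the class of the cycle `Z` under assembly: descent followed by the product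
with the cutoff projection `∑ g, λ_g ⊗ π(c) U_g π(c)`. -/
def Assembles {X : Type} [TopologicalSpace X] [MulAction G X] {H : Hilb} (Z : FredMod G X H.car)
    (c : ZeroAtInftyContinuousMap X ℂ) (x : K0Cr G) : Prop :=
  IsIndex (sumMul (fun g : G => lam g (coef Z c g)) (lam (1 : G) (half 1 Z.γ)))
    (sumMul (fun g : G => lam g (coef Z c g)) (lam (1 : G) (half (-1) Z.γ))) (lam (1 : G) Z.F) x

/-- The range of the assembly map `μ₀`: the indices of all cycles over all proper `G`-compact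
locally compact Hausdorff `G`-spaces. -/
def assemblyRange (G : Type) [Group G] : Set (K0Cr G) :=
  {x | ∃ (X : Type) (_ : TopologicalSpace X) (_ : T2Space X) (_ : LocallyCompactSpace X)
    (_ : MulAction G X) (_ : ContinuousConstSMul G X) (_ : ProperlyDiscontinuousSMul G X)
    (H : Hilb) (Z : FredMod G X H.car) (c : ZeroAtInftyContinuousMap X ℂ),
    IsCutoff G c ∧ Assembles Z c x}

end St

end

end Vale.Agent.P089A
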