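import Vale.Agent.P089A.Ring

/-! Weak cycles (integrated form of a Fredholm module) and twisted cutoff projections. -/

namespace Vale.Agent.P089A

open scoped ZeroAtInfty

noncomputable section

/-- The algebraic shadow of an equivariant Fredholm module: `θ g f = π(f) U_g`. -/
structure WC (G X Z : Type) [Group G] [TopologicalSpace X] [MulAction G X]
    [NormedAddCommGroup Z] [InnerProductSpace ℂ Z] where
  θ : G → C₀(X, ℂ) →+ (Z →L[ℂ] Z)
  mul : ∀ (g g' : G) (f f' f'' : C₀(X, ℂ)), (∀ x, f'' x = f x * f' (g⁻¹ • x)) →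
    θ g f * θ g' f' = θ (g * g') f''
  gr : Gr (Z →L[ℂ] Z)
  c_comm : ∀ g f, IsCompactOperator (θ g f * gr.F - gr.F * θ g f : Z →L[ℂ] Z)
  c_sq : ∀ g f, IsCompactOperator (θ g f * (gr.F * gr.F - 1) : Z →L[ℂ] Z)
  γp_comm : ∀ g f, θ g f * gr.γp = gr.γp * θ g f
  γm_comm : ∀ g f, θ g f * gr.γm = gr.γm * θ g f

variable {G X Z : Type} [Group G] [TopologicalSpace X] [MulAction G X] [ContinuousConstSMul G X]
  [NormedAddCommGroup Z] [InnerProductSpace ℂ Z]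

/-- the translate `x ↦ f (g⁻¹ x)` -/
def tl (g : G) (f : C₀(X, ℂ)) : C₀(X, ℂ) :=
  f.comp (Homeomorph.smul g⁻¹).toCocompactMap

@[simp] lemma tl_apply (g : G) (f : C₀(X, ℂ)) (x : X) : tl g f x = f (g⁻¹ • x) := rfl

/-- the grading of `BG Π Z` induced by a grading of `B(Z)` -/
def Gr.lamB (g : Gr (Z →L[ℂ] Z)) (P : Type) [Group P] : Gr (BG P Z) where
  F := P089A.lamB 1 g.F
  γp := P089A.lamB 1 g.γp
  γm := P089A.lamB 1 g.γm
  γp_idem := by rw [lamB_mul, g.γp_idem, mul_one]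
  γm_idem := by rw [lamB_mul, g.γm_idem, mul_one]
  odd₁ := by rw [lamB_mul, lamB_mul, g.odd₁]
  odd₂ := by rw [lamB_mul, lamB_mul, g.odd₂]

/-- `k` moves the support of `c` to a set that meets it -/
def Ov (c : C₀(X, ℂ)) (k : G) : Prop := ∃ x ∈ tsupport c, k⁻¹ • x ∈ tsupport c

/-- `γ` is multiplicative on triple overlaps of the translates of the support of `c` -/
def IsCocycle {P : Type} [Group P] (c : C₀(X, ℂ)) (γ : G → P) : Prop :=
  ∀ k k' : G, (∃ x ∈ tsupport c, k⁻¹ • x ∈ tsupport c ∧ (k * k')⁻¹ • x ∈ tsupport c) →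
    γ k * γ k' = γ (k * k')

/-- the cutoff projection twisted by a cocycle -/
def WC.P (w : WC G X Z) (c : C₀(X, ℂ)) {P : Type} [Group P] (γ : G → P) : BG P Z :=
  ∑ᶠ k : G, lamB (γ k) (w.θ k (c * tl k c))

variable [T2Space X] [LocallyCompactSpace X] [ProperlyDiscontinuousSMul G X] [CompleteSpace Z]
  {z : Z} {hz : ‖z‖ = 1}

omit [T2Space X] [LocallyCompactSpace X] [ContinuousConstSMul G X] in
lemma finite_meet {K L : Set X} (hK : IsCompact K) (hL : IsCompact L) :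
    {g : G | ∃ x ∈ L, g⁻¹ • x ∈ K}.Finite :=
  (ProperlyDiscontinuousSMul.finite_disjoint_inter_image (Γ := G) hK hL).subset
    fun g ⟨x, h1, h2⟩ => ⟨x, ⟨_, h2, by simp⟩, h1⟩

omit [T2Space X] [LocallyCompactSpace X] [ContinuousConstSMul G X] in
lemma finite_Ov {c : C₀(X, ℂ)} (hc : IsCutoff G c) : {k : G | Ov c k}.Finite :=
  finite_meet hc.1 hc.1

omit [T2Space X] [LocallyCompactSpace X] [ProperlyDiscontinuousSMul G X]
  [ContinuousConstSMul G X] in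
lemma WC.PL_lamB (w : WC G X Z) {P : Type} [Group P] (p : P) (g : G) (f : C₀(X, ℂ)) :
    (ntr P z hz).toTR.PL (w.gr.lamB P) (lamB p (w.θ g f)) := by
  refine ⟨?_, ?_, ?_, ?_⟩
  · simp only [Gr.lamB, lamB_mul, mul_one, one_mul, ← lamB_sub]
    exact lamB_mem_K p (w.c_comm g f)
  · simp only [Gr.lamB, lamB_mul, mul_one, ← lamB_one (G := P) (Z := Z), ← lamB_sub]
    exact lamB_mem_K p (w.c_sq g f)
  · simp only [Gr.lamB, lamB_mul, mul_one, one_mul, w.γp_comm]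
  · simp only [Gr.lamB, lamB_mul, mul_one, one_mul, w.γm_comm]

omit [T2Space X] [LocallyCompactSpace X] [ProperlyDiscontinuousSMul G X] in
lemma mul_tl_eq_zero {c : C₀(X, ℂ)} {k : G} (h : ¬Ov c k) : c * tl k c = 0 := by
  ext x
  by_contra h1
  have h2 : c x ≠ 0 ∧ c (k⁻¹ • x) ≠ 0 := by simpa using h1
  exact h ⟨x, subset_tsupport _ h2.1, subset_tsupport _ h2.2⟩

omit [T2Space X] [LocallyCompactSpace X] [CompleteSpace Z] in
lemma WC.P_eq (w : WC G X Z) {c : C₀(X, ℂ)} (hc : IsCutoff G c) {P : Type} [Group P] (γ : G → P) :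
    w.P c γ = ∑ k ∈ (finite_Ov hc).toFinset, lamB (γ k) (w.θ k (c * tl k c)) := by
  refine finsum_eq_sum_of_support_subset _ fun k hk => ?_
  by_contra h
  rw [Set.Finite.coe_toFinset] at h
  exact hk (by simp [mul_tl_eq_zero h])

omit [MulAction G X] [ContinuousConstSMul G X] [T2Space X] [LocallyCompactSpace X]
  [ProperlyDiscontinuousSMul G X] in
lemma c0_sum_apply {α : Type} (s : Finset α) (f : α → C₀(X, ℂ)) (x : X) :
    (∑ a ∈ s, f a) x = ∑ a ∈ s, f a x := by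
  classical
  induction s using Finset.induction_on with
  | empty => simp
  | insert a s ha ih => simp [Finset.sum_insert ha, ih]

omit [T2Space X] [LocallyCompactSpace X] [ProperlyDiscontinuousSMul G X] [ContinuousConstSMul G X]
  [CompleteSpace Z] in
open Classical in
/-- pointwise criterion for equality of sums of elementary operators -/
lemma WC.sum_ext (w : WC G X Z) {P : Type} [Group P] {α β : Type} (s : Finset α) (t : Finset β)
    (f : α → C₀(X, ℂ)) (k : α → G) (p : α → P) (f' : β → C₀(X, ℂ)) (k' : β → G) (p' : β → P)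
    (h : ∀ x k₀ p₀, ∑ a ∈ s with k a = k₀ ∧ p a = p₀, f a x =
      ∑ b ∈ t with k' b = k₀ ∧ p' b = p₀, f' b x) :
    ∑ a ∈ s, lamB (p a) (w.θ (k a) (f a)) = ∑ b ∈ t, lamB (p' b) (w.θ (k' b) (f' b)) := by
  have key : ∀ {α : Type} (s : Finset α) (f : α → C₀(X, ℂ)) (k : α → G) (p : α → P)
      (T : Finset (G × P)), (∀ a ∈ s, (k a, p a) ∈ T) → ∑ a ∈ s, lamB (p a) (w.θ (k a) (f a)) =
        ∑ q ∈ T, lamB q.2 (w.θ q.1 (∑ a ∈ s with k a = q.1 ∧ p a = q.2, f a)) := by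
    intro α s f k p T hT
    rw [← Finset.sum_fiberwise_of_maps_to (g := fun a => (k a, p a)) hT]
    refine Finset.sum_congr rfl fun q _ => ?_
    rw [map_sum, lamB_sum]
    refine Finset.sum_congr (by ext a; simp [Prod.ext_iff]) fun a ha => ?_
    obtain ⟨-, h1, h2⟩ := Finset.mem_filter.mp ha
    rw [h1, h2]
  rw [key s f k p (s.image (fun a => (k a, p a)) ∪ t.image fun b => (k' b, p' b))
    fun a ha => Finset.mem_union_left _ (Finset.mem_image_of_mem _ ha),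
    key t f' k' p' (s.image (fun a => (k a, p a)) ∪ t.image fun b => (k' b, p' b))
    fun a ha => Finset.mem_union_right _ (Finset.mem_image_of_mem _ ha)]
  refine Finset.sum_congr rfl fun q _ => ?_
  congr 2
  ext x
  rw [c0_sum_apply, c0_sum_apply, h]

omit [T2Space X] [LocallyCompactSpace X] [ProperlyDiscontinuousSMul G X] [CompleteSpace Z] in
lemma WC.el_mul (w : WC G X Z) {P : Type} [Group P] (p p' : P) (k k' : G) (f f' : C₀(X, ℂ)) :
    lamB p (w.θ k f) * lamB p' (w.θ k' f') = lamB (p * p') (w.θ (k * k') (f * tl k f')) := by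
  rw [lamB_mul, w.mul k k' f f' (f * tl k f') fun _ => rfl]

omit [T2Space X] [LocallyCompactSpace X] [ContinuousConstSMul G X] in
lemma IsCutoff.sum_sq {c : C₀(X, ℂ)} (hc : IsCutoff G c) {y : X} (hy : y ∈ tsupport c) :
    ∑ k ∈ (finite_Ov hc).toFinset, c (k⁻¹ • y) ^ 2 = 1 := by
  rw [← hc.2.2 y]
  refine (finsum_eq_sum_of_support_subset _ fun k hk => ?_).symm
  rw [Set.Finite.coe_toFinset]
  exact ⟨y, hy, subset_tsupport _ (by simpa using hk)⟩

omit [T2Space X] [LocallyCompactSpace X] [CompleteSpace Z] in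
open Classical in
/-- Composition of two kernels; the second one is indexed by translates of a function `d`
supported in `K`. -/
lemma WC.comp_kernel (w : WC G X Z) {c : C₀(X, ℂ)} (hc : IsCutoff G c) {P : Type} [Group P]
    {α : Type} (A : Finset α) (f : α → C₀(X, ℂ)) (μ : α → G → P) (d : C₀(X, ℂ)) (Ψ : Finset G)
    (hΨ : ∀ g, ∀ y ∈ tsupport c, d (g⁻¹ • y) ≠ 0 → g ∈ Ψ) (μ' : G → G → P) (ν : α → G → G → P)
    (h : ∀ y ∈ tsupport c, ∀ a g k k₀, f a y ≠ 0 → k⁻¹ • y ∈ tsupport c → d (g⁻¹ • y) ≠ 0 →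
      k₀⁻¹ • y ∈ tsupport c → μ a k * μ' (k⁻¹ * g) (k⁻¹ * k₀) = ν a g k₀) :
    (∑ q ∈ A ×ˢ (finite_Ov hc).toFinset, lamB (μ q.1 q.2) (w.θ q.2 (c * f q.1 * tl q.2 c))) *
      (∑ q ∈ Ψ ×ˢ (finite_Ov hc).toFinset, lamB (μ' q.1 q.2) (w.θ q.2 (c * tl q.1 d * tl q.2 c))) =
      ∑ q ∈ (A ×ˢ Ψ) ×ˢ (finite_Ov hc).toFinset,
        lamB (ν q.1.1 q.1.2 q.2) (w.θ q.2 (c * (f q.1.1 * tl q.1.2 d) * tl q.2 c)) := by
  set Φ := (finite_Ov hc).toFinset with hΦ
  have mΦ : ∀ k, ∀ y ∈ tsupport c, k⁻¹ • y ∈ tsupport c → k ∈ Φ := fun k y h1 h2 => by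
    rw [hΦ, Set.Finite.mem_toFinset]; exact ⟨y, h1, h2⟩
  rw [Finset.sum_mul_sum, ← Finset.sum_product']
  simp only [w.el_mul]
  refine w.sum_ext _ _ _ _ _ _ _ _ fun y k₀ p₀ => ?_
  by_cases hy : c y = 0
  · rw [Finset.sum_eq_zero fun _ _ => by simp [hy], Finset.sum_eq_zero fun _ _ => by simp [hy]]
  have hy' : y ∈ tsupport c := subset_tsupport _ hy
  have e1 : ∑ q ∈ (A ×ˢ Ψ) ×ˢ Φ with q.2 = k₀ ∧ ν q.1.1 q.1.2 q.2 = p₀,
      (c * (f q.1.1 * tl q.1.2 d) * tl q.2 c) y =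
      ∑ r ∈ ((((A ×ˢ Ψ) ×ˢ Φ).filter fun q => q.2 = k₀ ∧ ν q.1.1 q.1.2 q.2 = p₀) ×ˢ Φ),
        (c * (f r.1.1.1 * tl r.1.1.2 d) * tl r.1.2 c) y * c (r.2⁻¹ • y) ^ 2 := by
    rw [Finset.sum_product]
    refine Finset.sum_congr rfl fun q _ => ?_
    dsimp only
    rw [← Finset.mul_sum, hc.sum_sq hy', mul_one]
  rw [e1]
  refine Finset.sum_bij_ne_zero (fun r _ _ => (((r.1.1, r.1.2 * r.2.1), r.1.2 * r.2.2), r.1.2))
    ?_ ?_ ?_ ?_
  · rintro ⟨⟨a, k⟩, g, k'⟩ h1 h2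
    simp only [Finset.mem_filter, Finset.mem_product] at h1 ⊢
    simp only [ZeroAtInftyContinuousMap.mul_apply, tl_apply, ne_eq, mul_eq_zero, not_or] at h2
    obtain ⟨⟨⟨-, h3⟩, h4⟩, ⟨-, h5⟩, h6⟩ := h2
    rw [← mul_smul, ← mul_inv_rev] at h5 h6
    refine ⟨⟨⟨⟨h1.1.1.1, hΨ _ y hy' h5⟩, mΦ _ y hy' (subset_tsupport _ h6)⟩, h1.2.1, ?_⟩, h1.1.1.2⟩
    rw [← h y hy' a (k * g) k (k * k') h3 (subset_tsupport _ h4) h5 (subset_tsupport _ h6)]
    simpa using h1.2.2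
  · rintro ⟨⟨a, k⟩, g, k'⟩ - - ⟨⟨a', k₁⟩, g', k₁'⟩ - - h1
    simp only [Prod.mk.injEq] at h1
    obtain ⟨⟨⟨rfl, h2⟩, h3⟩, rfl⟩ := h1
    rw [mul_left_cancel h2, mul_left_cancel h3]
  · rintro ⟨⟨⟨a, g⟩, k₁⟩, k⟩ h1 h2
    simp only [Finset.mem_filter, Finset.mem_product] at h1
    have h2' := h2
    simp only [ZeroAtInftyContinuousMap.mul_apply, tl_apply, ne_eq, mul_eq_zero, not_or,
      pow_eq_zero_iff two_ne_zero] at h2'
    obtain ⟨⟨⟨-, h3, h5⟩, h6⟩, h4⟩ := h2'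
    refine ⟨((a, k), (k⁻¹ * g, k⁻¹ * k₁)), ?_, ?_, by simp⟩
    · simp only [Finset.mem_filter, Finset.mem_product]
      refine ⟨⟨⟨h1.1.1.1.1, h1.2⟩, hΨ _ _ (subset_tsupport _ h4) (by simpa [← mul_smul] using h5),
        mΦ _ _ (subset_tsupport _ h4) (subset_tsupport _ (by simpa [← mul_smul] using h6))⟩,
        by simp [h1.1.2.1], ?_⟩
      rw [h y hy' a g k k₁ h3 (subset_tsupport _ h4) h5 (subset_tsupport _ h6), h1.1.2.2]
    · simp [← mul_smul, hy, h3, h4, h5, h6]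
  · rintro ⟨⟨a, k⟩, g, k'⟩ - -
    simp only [ZeroAtInftyContinuousMap.mul_apply, tl_apply, mul_inv_rev, mul_smul]
    ring

omit [T2Space X] [LocallyCompactSpace X] [CompleteSpace Z] in
lemma WC.P_idem (w : WC G X Z) {c : C₀(X, ℂ)} (hc : IsCutoff G c) {P : Type} [Group P] {γ : G → P}
    (hγ : IsCocycle c γ) : w.P c γ * w.P c γ = w.P c γ := by
  classical
  set Φ := (finite_Ov hc).toFinset with hΦ
  have mΦ : ∀ k, ∀ y ∈ tsupport c, k⁻¹ • y ∈ tsupport c → k ∈ Φ := fun k y h1 h2 => by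
    rw [hΦ, Set.Finite.mem_toFinset]; exact ⟨y, h1, h2⟩
  rw [w.P_eq hc, Finset.sum_mul_sum, ← Finset.sum_product']
  simp only [w.el_mul]
  refine w.sum_ext _ _ _ _ _ _ _ _ fun y k₀ p₀ => ?_
  by_cases hy : c y = 0
  · rw [Finset.sum_eq_zero fun _ _ => by simp [hy], Finset.sum_eq_zero fun _ _ => by simp [hy]]
  have hy' : y ∈ tsupport c := subset_tsupport _ hy
  have e1 : ∑ q ∈ Φ with q = k₀ ∧ γ q = p₀, (c * tl q c) y =
      ∑ r ∈ ((Φ.filter fun q => q = k₀ ∧ γ q = p₀) ×ˢ Φ),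
        (c * tl r.1 c) y * c (r.2⁻¹ • y) ^ 2 := by
    rw [Finset.sum_product]
    refine Finset.sum_congr rfl fun q _ => ?_
    dsimp only
    rw [← Finset.mul_sum, hc.sum_sq hy', mul_one]
  rw [e1]
  refine Finset.sum_bij_ne_zero (fun r _ _ => (r.1 * r.2, r.1)) ?_ ?_ ?_ ?_
  · rintro ⟨k, k'⟩ h1 h2
    simp only [Finset.mem_filter, Finset.mem_product] at h1 ⊢
    simp only [ZeroAtInftyContinuousMap.mul_apply, tl_apply, ne_eq, mul_eq_zero, not_or] at h2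
    obtain ⟨⟨-, h4⟩, -, h6⟩ := h2
    rw [← mul_smul, ← mul_inv_rev] at h6
    refine ⟨⟨mΦ _ y hy' (subset_tsupport _ h6), h1.2.1, ?_⟩, h1.1.1⟩
    rw [← hγ k k' ⟨y, hy', subset_tsupport _ h4, subset_tsupport _ h6⟩, h1.2.2]
  · rintro ⟨k, k'⟩ - - ⟨k₁, k₁'⟩ - - h1
    simp only [Prod.mk.injEq] at h1
    obtain ⟨h2, rfl⟩ := h1
    rw [mul_left_cancel h2]
  · rintro ⟨k₁, k⟩ h1 h2
    simp only [Finset.mem_filter, Finset.mem_product] at h1
    have h2' := h2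
    simp only [ZeroAtInftyContinuousMap.mul_apply, tl_apply, ne_eq, mul_eq_zero, not_or,
      pow_eq_zero_iff two_ne_zero] at h2'
    obtain ⟨⟨-, h6⟩, h4⟩ := h2'
    refine ⟨(k, k⁻¹ * k₁), ?_, ?_, by simp⟩
    · simp only [Finset.mem_filter, Finset.mem_product]
      refine ⟨⟨h1.2,
        mΦ _ _ (subset_tsupport _ h4) (subset_tsupport _ (by simpa [← mul_smul] using h6))⟩,
        by simp [h1.1.2.1], ?_⟩
      rw [hγ k (k⁻¹ * k₁) ⟨y, hy', subset_tsupport _ h4, subset_tsupport _ (by simpa using h6)⟩]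
      simpa using h1.1.2.2
    · simp [← mul_smul, hy, h4, h6]
  · rintro ⟨k, k'⟩ - -
    simp only [ZeroAtInftyContinuousMap.mul_apply, tl_apply, mul_inv_rev, mul_smul]
    ring

omit [T2Space X] [LocallyCompactSpace X] in
lemma WC.PL_P (w : WC G X Z) {c : C₀(X, ℂ)} (hc : IsCutoff G c) {P : Type} [Group P] (γ : G → P) :
    (ntr P z hz).toTR.PL (w.gr.lamB P) (w.P c γ) := by
  rw [w.P_eq hc]
  exact TR.PL.sum _ _ fun k _ => w.PL_lamB _ _ _

omit [T2Space X] [LocallyCompactSpace X] in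
/-- the index only depends on the cocycle up to injective homomorphisms -/
lemma WC.J_map (w : WC G X Z) {c : C₀(X, ℂ)} (hc : IsCutoff G c) {P P' : Type} [Group P] [Group P']
    (γ : G → P) (i : P →* P') (hi : Function.Injective i) {t : ℂ}
    (h : (ntr P z hz).toTR.J (w.gr.lamB P) (w.P c γ) t) :
    (ntr P' z hz).toTR.J (w.gr.lamB P') (w.P c (i ∘ γ)) t := by
  obtain ⟨Φ, h1, h2⟩ := exists_amp (z := z) (hz := hz) i hi
  have h3 : (Φ : BG P Z →ₙ+* BG P' Z) (w.P c γ) = w.P c (i ∘ γ) := by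
    change Φ _ = _
    rw [w.P_eq hc, w.P_eq hc, map_sum]
    exact Finset.sum_congr rfl fun k _ => h1 _ _
  have h4 : ∀ (x : BG P Z) (T : Z →L[ℂ] Z), (Φ : BG P Z →ₙ+* BG P' Z) (x * lamB 1 T) =
      (Φ : BG P Z →ₙ+* BG P' Z) x * lamB 1 T := fun x T => by
    change Φ _ = Φ _ * _
    rw [map_mul, h1, map_one]
  rw [← h3]
  exact TR.J.map (Φ : BG P Z →ₙ+* BG P' Z) h2 (fun x => h4 x _) (fun x => h4 x _)
    (fun x => h4 x _) h

end

end Vale.Agent.P089A
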